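import Vale.Agent.P030.H205.FrameC3T

/-!
# P030: the log-free frame at the cusp c3

Rows `x2, xl, x1, xO0, xE0, e_3, k3/t, xM0` (names of `AR/Vec`); the constant term is invertible.
-/

open PowerSeries Finset Matrix

namespace Vale.P030.H205

open Vale.Agent.P030.T Vale.Agent.P030.H462 Vale.Agent.P030.AR

/-- the log-free tuples at c3 -/
noncomputable def g3 : Fin 8 → Fin 8 → ℚ⟦X⟧ :=
  ![tup0 .x2, tup0 .xl, tup0 .x1, xO0, xE0, ![0, 0, 0, 1, 0, 0, 0, 0],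
    ![0, 0, 0, 0, 0, 0, -serK, -(tw serK)], xM0]

noncomputable def G3 : Matrix (Fin 8) (Fin 8) ℂ⟦X⟧ := Matrix.of fun i j => cs (g3 i j)

theorem cc_lgm : constantCoeff lgm = 0 := by
  rw [← coeff_zero_eq_constantCoeff_apply]; simp [lgm]

theorem cc_lgp : constantCoeff lgp = 0 := by
  rw [← coeff_zero_eq_constantCoeff_apply]; simp [lgp]

theorem cc_li2 : constantCoeff li2 = 0 := by
  rw [← coeff_zero_eq_constantCoeff_apply]; simp [li2]

theorem cc_li2m : constantCoeff li2m = 0 := by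
  rw [← coeff_zero_eq_constantCoeff_apply]; simp [li2m]

theorem cc_integ (f : ℚ⟦X⟧) : constantCoeff (integ f) = 0 := by
  rw [← coeff_zero_eq_constantCoeff_apply]; simp [integ]

theorem cc_serK : constantCoeff serK = 1 := by
  rw [← coeff_zero_eq_constantCoeff_apply]; simp [serK]

theorem cc_serM : constantCoeff serM = 0 := by
  rw [← coeff_zero_eq_constantCoeff_apply]; simp [serM, cMs]

theorem cc_tw (f : ℚ⟦X⟧) : constantCoeff (tw f) = (coeff 1 f - constantCoeff f) / 2 := by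
  have h1 : constantCoeff (dd ((1 - X) * f)) = coeff 1 f - constantCoeff f := by
    rw [← coeff_zero_eq_constantCoeff_apply, dd, coeff_mk, sub_mul, one_mul, map_sub,
      zero_add, coeff_succ_X_mul 0, coeff_zero_eq_constantCoeff_apply]
    simp
  rw [tw, sc, map_mul, map_mul, h1]
  simp
  ring

theorem coeff_one_serK : coeff 1 serK = 0 := by simp [serK]

theorem cc_twK : constantCoeff (tw serK) = -1 / 2 := by
  rw [cc_tw, coeff_one_serK, cc_serK]; norm_num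

/-- the constant terms over `ℚ` -/
def c3q : Matrix (Fin 8) (Fin 8) ℚ :=
  !![0, 0, 0, 0, 0, 1 / 2, 0, 0;
     0, 0, 0, 0, -1, 1, 0, 0;
     0, 0, -1, 0, 0, 0, 0, 1 / 8;
     1, 0, 0, 0, 0, 0, 0, 0;
     0, 1, 0, 0, 0, 0, 0, 0;
     0, 0, 0, 1, 0, 0, 0, 0;
     0, 0, 0, 0, 0, 0, -1, 1 / 2;
     0, 0, 0, 0, 0, 0, 0, -1 / 2]

/-- its inverse -/
def c3i : Matrix (Fin 8) (Fin 8) ℚ :=
  !![0, 0, 0, 1, 0, 0, 0, 0;
     0, 0, 0, 0, 1, 0, 0, 0;
     0, 0, -1, 0, 0, 0, 0, -1 / 4;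
     0, 0, 0, 0, 0, 1, 0, 0;
     2, -1, 0, 0, 0, 0, 0, 0;
     2, 0, 0, 0, 0, 0, 0, 0;
     0, 0, 0, 0, 0, 0, -1, -1;
     0, 0, 0, 0, 0, 0, 0, -2]

theorem c3i_mul : c3i * c3q = 1 := by
  ext i j
  fin_cases i <;> fin_cases j <;>
    simp [c3i, c3q, Matrix.mul_apply, Fin.sum_univ_succ] <;> norm_num

theorem cc_g3 (i j : Fin 8) : constantCoeff (g3 i j) = c3q i j := by
  fin_cases i <;> fin_cases j <;>
    simp [g3, c3q, tup0, xO0, xE0, xM0, sc, cc_lgm, cc_lgp, cc_li2, cc_li2m, cc_integ, cc_serK,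
      cc_serM, cc_twK] <;> norm_num

theorem cst_G3 : cst G3 = c3q.map (Rat.castHom ℂ) := by
  ext i j
  rw [cst, G3, Matrix.map_apply, Matrix.map_apply, Matrix.of_apply, ← cc_g3 i j,
    ← coeff_zero_eq_constantCoeff_apply, ← coeff_zero_eq_constantCoeff_apply,
    PowerSeries.coeff_map]

theorem det_G3 : (cst G3).det ≠ 0 := by
  have h1 : (c3i.det) * c3q.det = 1 := by
    rw [← Matrix.det_mul, c3i_mul, Matrix.det_one]
  have h2 : c3q.det ≠ 0 := fun h => by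
    rw [h, mul_zero] at h1
    exact zero_ne_one h1
  rw [cst_G3, ← RingHom.mapMatrix_apply, ← RingHom.map_det]
  exact (map_ne_zero _).2 h2

/-- products of series with geometric bounds -/
theorem GB.mul {C R C' : ℝ} {f g : ℂ⟦X⟧} (hf : GB C R f) (hg : GB C' R g) (hR : 0 ≤ R) :
    GB (C * C') (2 * R) (f * g) := by
  intro n
  rw [coeff_mul]
  have h0 := hf.nonneg
  have h0' := hg.nonneg
  refine (norm_sum_le _ _).trans ?_
  have h1 : ∀ p ∈ antidiagonal n, ‖coeff p.1 f * coeff p.2 g‖ ≤ C * C' * R ^ n := by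
    intro p hp
    rw [norm_mul, ← mem_antidiagonal.1 hp, pow_add]
    calc ‖coeff p.1 f‖ * ‖coeff p.2 g‖ ≤ (C * R ^ p.1) * (C' * R ^ p.2) :=
          mul_le_mul (hf _) (hg _) (norm_nonneg _) (by positivity)
      _ = C * C' * (R ^ p.1 * R ^ p.2) := by ring
  refine (Finset.sum_le_sum h1).trans ?_
  rw [Finset.sum_const, Finset.Nat.card_antidiagonal, nsmul_eq_mul, mul_pow]
  have h2 : ((n + 1 : ℕ) : ℝ) ≤ 2 ^ n := by
    exact_mod_cast Nat.lt_two_pow_self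
  have h3 : 0 ≤ C * C' * R ^ n := by positivity
  nlinarith [mul_le_mul_of_nonneg_right h2 h3]

theorem GB.sum {κ : Type*} (s : Finset κ) {f : κ → ℂ⟦X⟧} {C : κ → ℝ} {R : ℝ}
    (h : ∀ j ∈ s, GB (C j) R (f j)) : GB (∑ j ∈ s, C j) R (∑ j ∈ s, f j) := by
  intro n
  rw [map_sum, Finset.sum_mul]
  exact (norm_sum_le _ _).trans (Finset.sum_le_sum fun j hj => h j hj n)

theorem exists_gb {ι κ : Type*} [Finite ι] [Finite κ] {R : ℝ} (hR : 0 ≤ R) {G : ι → κ → ℂ⟦X⟧}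
    (h : ∀ i j, ∃ C, GB C R (G i j)) : ∃ C, ∀ i j, GB C R (G i j) := by
  classical
  choose C hC using h
  have := Fintype.ofFinite ι
  have := Fintype.ofFinite κ
  refine ⟨∑ i, ∑ j, C i j, fun i j => (hC i j).mono hR ?_ le_rfl⟩
  have h1 : C i j ≤ ∑ j, C i j :=
    Finset.single_le_sum (f := fun j => C i j) (fun _ _ => (hC _ _).nonneg) (mem_univ j)
  have h2 : ∑ j, C i j ≤ ∑ i, ∑ j, C i j :=
    Finset.single_le_sum (f := fun i => ∑ j, C i j)
      (fun _ _ => Finset.sum_nonneg fun _ _ => (hC _ _).nonneg) (mem_univ i)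
  exact h1.trans h2

theorem gb_G3 (h : ∀ i j, PG (Rat.castHom ℂ) (g3 i j)) : ∃ C, ∀ i j, GB C 2 (G3 i j) :=
  exists_gb (by norm_num) fun i j => gb_of_pg (h i j)

/-- change of the frame by a matrix of power series with invertible constant term -/
theorem frame_mul {M G : Matrix (Fin 8) (Fin 8) ℂ⟦X⟧} {R : ℝ} (hR : 0 ≤ R)
    (hM : ∃ C, ∀ i j, GB C R (M i j)) (hG : ∃ C, ∀ i j, GB C R (G i j))
    (hMd : (cst M).det ≠ 0) (hGd : (cst G).det ≠ 0) :
    (∃ C, ∀ i j, GB C (2 * R) ((M * G) i j)) ∧ (cst (M * G)).det ≠ 0 := by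
  obtain ⟨C, hC⟩ := hM
  obtain ⟨C', hC'⟩ := hG
  constructor
  · refine ⟨∑ _j : Fin 8, C * C', fun i j => ?_⟩
    rw [Matrix.mul_apply]
    exact GB.sum _ fun k _ => (hC i k).mul (hC' k j) hR
  · have h1 : cst (M * G) = cst M * cst G := by
      rw [cst, cst, cst, Matrix.map_mul]
    rw [h1, Matrix.det_mul]
    exact mul_ne_zero hMd hGd

/-- the case of a constant matrix -/
theorem frame_const {M : Matrix (Fin 8) (Fin 8) ℂ} (hMd : M.det ≠ 0) {G : Matrix (Fin 8) (Fin 8) ℂ⟦X⟧}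
    {R : ℝ} (hG : ∃ C, ∀ i j, GB C R (G i j)) (hGd : (cst G).det ≠ 0) :
    (∃ K, ∀ i j, GB K R ((M.map (PowerSeries.C (R := ℂ)) * G) i j)) ∧
      (cst (M.map (PowerSeries.C (R := ℂ)) * G)).det ≠ 0 := by
  obtain ⟨C', hC'⟩ := hG
  constructor
  · have h1 : ∀ i j, GB (∑ k, ‖M i k‖ * C') R ((M.map (PowerSeries.C (R := ℂ)) * G) i j) := by
      intro i j
      rw [Matrix.mul_apply]
      refine GB.sum _ fun k _ n => ?_
      rw [Matrix.map_apply, coeff_C_mul, norm_mul, mul_assoc]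
      exact mul_le_mul_of_nonneg_left (hC' k j n) (norm_nonneg _)
    refine ⟨∑ i, ∑ k, ‖M i k‖ * C', fun i j n => (h1 i j n).trans ?_⟩
    have h0 : 0 ≤ C' := (hC' i j).nonneg
    have h2 : ∑ k, ‖M i k‖ * C' ≤ ∑ i, ∑ k, ‖M i k‖ * C' :=
      Finset.single_le_sum (f := fun i => ∑ k, ‖M i k‖ * C')
        (fun _ _ => Finset.sum_nonneg fun _ _ => mul_nonneg (norm_nonneg _) h0) (mem_univ i)
    have h3 : 0 ≤ C' * R ^ n := (norm_nonneg _).trans (hC' i j n)
    rcases eq_or_lt_of_le h0 with h4 | h4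
    · rw [← h4]; simp
    · have h5 : 0 ≤ R ^ n := by
        by_contra h6
        nlinarith
      exact mul_le_mul_of_nonneg_right h2 h5
  · have h1 : cst (M.map (PowerSeries.C (R := ℂ)) * G) = M * cst G := by
      rw [cst, cst, Matrix.map_mul]
      congr 1
    rw [h1, Matrix.det_mul]
    exact mul_ne_zero hMd hGd

end Vale.P030.H205
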