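import Mathlib

/-!
# Jensen's inequality with an integrable majorant
-/

namespace Vale.P030.H205

open scoped BigOperators
open Filter Metric Real MeromorphicOn

/-- Jensen: if `g` is analytic on the closed disc and `|g| ≤ exp φ` on the circle then
`|g 0| ≤ exp (mean of φ)`. -/
theorem norm_le_exp_circleAverage {g : ℂ → ℂ} {φ : ℂ → ℝ} {r : ℝ} (hr : 0 < r)
    (hg : AnalyticOnNhd ℂ g (closedBall 0 r)) (hφ : CircleIntegrable φ 0 r)
    (hbd : ∀ z ∈ sphere (0 : ℂ) r, ‖g z‖ ≤ Real.exp (φ z)) :
    ‖g 0‖ ≤ Real.exp (circleAverage φ 0 r) := by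
  classical
  by_cases h0 : g 0 = 0
  · rw [h0, norm_zero]; exact (Real.exp_pos _).le
  have hr' : |r| = r := abs_of_pos hr
  have hg' : AnalyticOnNhd ℂ g (closedBall 0 |r|) := by rwa [hr']
  have hJ := hg'.circleAverage_log_norm hr.ne' h0
  have hdiv : ∀ u, 0 ≤ (divisor g (closedBall 0 |r|)) u := fun u =>
    (AnalyticOnNhd.divisor_nonneg hg') u
  have h1 : Real.log ‖g 0‖ ≤ circleAverage (fun z => Real.log ‖g z‖) 0 r := by
    rw [hJ]
    have : 0 ≤ ∑ᶠ u, (divisor g (closedBall 0 |r|) u : ℝ) * Real.log (r * ‖(0 : ℂ) - u‖⁻¹) := by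
      refine finsum_nonneg fun u => ?_
      by_cases hu : u ∈ closedBall (0 : ℂ) |r|
      · by_cases hu0 : u = 0
        · subst hu0; simp
        · refine mul_nonneg (by exact_mod_cast hdiv u) (Real.log_nonneg ?_)
          rw [zero_sub, norm_neg]
          have h3 : 0 < ‖u‖ := norm_pos_iff.2 hu0
          rw [hr', mem_closedBall, dist_zero_right] at hu
          rw [← div_eq_mul_inv, le_div_iff₀ h3, one_mul]
          exact hu
      · rw [Function.locallyFinsuppWithin.apply_eq_zero_of_notMem _ hu]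
        simp
    linarith
  have hne : ∀ᶠ z in codiscreteWithin (sphere (0 : ℂ) |r|), g z ≠ 0 := by
    have h2 : MeromorphicOn g (closedBall 0 |r|) := hg'.meromorphicOn
    have h3 : ∀ u ∈ closedBall (0 : ℂ) |r|, meromorphicOrderAt g u ≠ ⊤ := by
      have h4 := (h2.exists_meromorphicOrderAt_ne_top_iff_forall
        ⟨nonempty_closedBall.mpr (abs_nonneg r), (convex_closedBall 0 |r|).isPreconnected⟩).1
        ⟨⟨0, by simp⟩, by
          have h5 := (hg' 0 (by simp))
          rw [h5.meromorphicOrderAt_eq, h5.analyticOrderAt_eq_zero.2 h0]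
          simp⟩
      exact fun u hu => h4 ⟨u, hu⟩
    exact Filter.codiscreteWithin_mono sphere_subset_closedBall
      (h2.eventually_codiscreteWithin_apply_ne_zero h3)
  have h2 : circleAverage (fun z => Real.log ‖g z‖) 0 r ≤ circleAverage φ 0 r := by
    have h3 : (fun z => Real.log ‖g z‖) =ᶠ[codiscreteWithin (sphere (0 : ℂ) |r|)]
        (fun z => if g z = 0 then φ z else Real.log ‖g z‖) := by
      filter_upwards [hne] with z hz
      simp [hz]
    rw [circleAverage_congr_codiscreteWithin h3 hr.ne']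
    refine circleAverage_mono ?_ hφ ?_
    · refine CircleIntegrable.congr_codiscreteWithin h3 ?_
      exact (hg'.mono sphere_subset_closedBall).meromorphicOn.circleIntegrable_log_norm
    · intro z hz
      rw [hr'] at hz
      by_cases hz0 : g z = 0
      · simp [hz0]
      · simp only [hz0, if_false]
        rw [Real.log_le_iff_le_exp (norm_pos_iff.2 hz0)]
        exact hbd z hz
  rw [← Real.log_le_iff_le_exp (norm_pos_iff.2 h0)]
  exact h1.trans h2

end Vale.P030.H205
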