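import Vale.Agent.P030.H205.DetBound
import Vale.Agent.P030.H205.Jensen

/-!
# The archimedean bound (finite certificate form)

`A k (f, a)` = value of the `k`-th functional at `u^a e_f`.  The functionals are ordered.  Functional
`k` is controlled, on the tuples killed by its predecessors, by an analytic function on a disc.
-/

namespace Vale.P030.H205

open Polynomial Metric Real
open scoped BigOperators

theorem gauge_pos {L : List Blk} (hL : ∀ b ∈ L, 0 < b.e) (u : ℂ) : 0 < gauge L u := by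
  induction L with
  | nil => simp [gauge]
  | cons b L ih =>
    rw [gauge]
    have hb : 0 < b.e := hL b (by simp)
    exact mul_pos (pow_pos (lt_max_of_lt_left hb) _) (ih (fun c hc => hL c (by simp [hc])))

theorem log_gauge {L : List Blk} (hL : ∀ b ∈ L, 0 < b.e) (u : ℂ) :
    Real.log (gauge L u) = (L.map fun b => (b.M : ℝ) * Real.log (max b.e ‖u - b.a‖)).sum := by
  induction L with
  | nil => simp [gauge]
  | cons b L ih =>
    have hb : 0 < b.e := hL b (by simp)
    have hL' : ∀ c ∈ L, 0 < c.e := fun c hc => hL c (by simp [hc])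
    rw [gauge, Real.log_mul (pow_pos (lt_max_of_lt_left hb) _).ne' (gauge_pos hL' u).ne',
      Real.log_pow, ih hL', List.map_cons, List.sum_cons]

/-- General archimedean bound. -/
theorem arch_bound_general {m K : ℕ} (L : Fin m → List Blk) (hL : ∀ f, ∀ b ∈ L f, 0 ≤ b.e)
    (e : Fin K ≃ (Σ f : Fin m, Fin (deg (L f))))
    (A : Matrix (Fin K) (Σ f : Fin m, Fin (deg (L f))) ℂ)
    (r : Fin K → ℝ) (hr : ∀ k, 0 < r k) (h : Fin K → ℂ → ℂ) (φ : Fin K → ℂ → ℝ)
    (hφ : ∀ k, CircleIntegrable (φ k) 0 (r k))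
    (hana : ∀ (k : Fin K) (P : Fin m → ℂ[X]), (∀ f, ∀ i, deg (L f) ≤ i → (P f).coeff i = 0) →
      (∀ j < k, ∑ i : Σ f : Fin m, Fin (deg (L f)), A j i * (P i.1).coeff i.2 = 0) →
      ∃ g : ℂ → ℂ, AnalyticOnNhd ℂ g (closedBall 0 (r k)) ∧
        ‖∑ i : Σ f : Fin m, Fin (deg (L f)), A k i * (P i.1).coeff i.2‖ ≤ ‖g 0‖ ∧
        ∀ z ∈ sphere (0 : ℂ) (r k), ∀ T : ℝ, 0 ≤ T →
          (∀ f, ‖(P f).eval (h k z)‖ ≤ T * gauge (L f) (h k z)) → ‖g z‖ ≤ T * Real.exp (φ k z)) :
    ‖(A.submatrix id e).det‖ * ∏ f, wt (L f) ≤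
      ∏ k, (√K * Real.exp (circleAverage (φ k) 0 (r k))) := by
  refine det_bound L hL e A _ fun k P hP hPg hPk => ?_
  obtain ⟨g, hg, hg0, hgz⟩ := hana k P hP hPk
  refine hg0.trans ?_
  have hKpos : 0 < (K : ℝ) := by exact_mod_cast (lt_of_le_of_lt (Nat.zero_le _) k.2)
  have hs : 0 < √(K : ℝ) := Real.sqrt_pos.2 hKpos
  have h1 : ‖g 0‖ ≤ Real.exp (circleAverage (fun z => Real.log √(K : ℝ) + φ k z) 0 (r k)) := by
    refine norm_le_exp_circleAverage (hr k) hg ?_ fun z hz => ?_
    · exact (circleIntegrable_const _ _ _).add (hφ k)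
    · rw [Real.exp_add, Real.exp_log hs]
      exact hgz z hz _ hs.le fun f => hPg f _
  rw [circleAverage_fun_add (circleIntegrable_const _ _ _) (hφ k), circleAverage_const,
    Real.exp_add, Real.exp_log hs] at h1
  exact h1

/-- The circle average of the logarithm of the gauge. -/
theorem circleAverage_log_gauge {L : List Blk} (hL : ∀ b ∈ L, 0 < b.e) (h : ℂ → ℂ) (r : ℝ)
    (hint : ∀ b ∈ L, CircleIntegrable (fun z => Real.log (max b.e ‖h z - b.a‖)) 0 r) :
    CircleIntegrable (fun z => Real.log (gauge L (h z))) 0 r ∧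
    circleAverage (fun z => Real.log (gauge L (h z))) 0 r =
      (L.map fun b => (b.M : ℝ) *
        circleAverage (fun z => Real.log (max b.e ‖h z - b.a‖)) 0 r).sum := by
  induction L with
  | nil =>
    simp only [gauge, Real.log_one, List.map_nil, List.sum_nil]
    exact ⟨circleIntegrable_const _ _ _, by simp [circleAverage]⟩
  | cons b L ih =>
    have hb : 0 < b.e := hL b (by simp)
    have hL' : ∀ c ∈ L, 0 < c.e := fun c hc => hL c (by simp [hc])
    obtain ⟨h1, h2⟩ := ih hL' (fun c hc => hint c (by simp [hc]))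
    have h3 : (fun z => Real.log (gauge (b :: L) (h z))) =
        fun z => (b.M : ℝ) • Real.log (max b.e ‖h z - b.a‖) + Real.log (gauge L (h z)) := by
      funext z
      rw [gauge, Real.log_mul (pow_pos (lt_max_of_lt_left hb) _).ne' (gauge_pos hL' _).ne',
        Real.log_pow, smul_eq_mul]
    have h4 : CircleIntegrable (fun z => (b.M : ℝ) • Real.log (max b.e ‖h z - b.a‖)) 0 r :=
      (hint b (by simp)).const_smul
    rw [h3]
    refine ⟨h4.add h1, ?_⟩
    rw [circleAverage_fun_add h4 h1, h2, circleAverage_fun_smul, List.map_cons, List.sum_cons,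
      smul_eq_mul]

/-- One-metric archimedean bound: all coefficient polynomials have the same degree bound
`D = deg L`; functional `k` has order `n k`, radius `r k`, coordinate `h k`. -/
theorem arch_bound {m K : ℕ} (L : List Blk) (hL : ∀ b ∈ L, 0 < b.e)
    (e : Fin K ≃ (Σ _ : Fin m, Fin (deg L)))
    (A : Matrix (Fin K) (Σ _ : Fin m, Fin (deg L)) ℂ)
    (r : Fin K → ℝ) (hr : ∀ k, 0 < r k) (h : Fin K → ℂ → ℂ) (n : Fin K → ℕ) (c : Fin K → ℝ)
    (hint : ∀ k, ∀ b ∈ L, CircleIntegrable (fun z => Real.log (max b.e ‖h k z - b.a‖)) 0 (r k))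
    (hana : ∀ (k : Fin K) (P : Fin m → ℂ[X]), (∀ f, ∀ i, deg L ≤ i → (P f).coeff i = 0) →
      (∀ j < k, ∑ i : Σ _ : Fin m, Fin (deg L), A j i * (P i.1).coeff i.2 = 0) →
      ∃ g : ℂ → ℂ, AnalyticOnNhd ℂ g (closedBall 0 (r k)) ∧
        ‖∑ i : Σ _ : Fin m, Fin (deg L), A k i * (P i.1).coeff i.2‖ ≤ ‖g 0‖ ∧
        ∀ z ∈ sphere (0 : ℂ) (r k), ∀ T : ℝ,
          (∀ f, ‖(P f).eval (h k z)‖ ≤ T) → ‖z ^ n k * g z‖ ≤ Real.exp (c k) * T) :
    ‖(A.submatrix id e).det‖ * wt L ^ m ≤
      Real.exp (∑ k, (Real.log √K + c k - n k * Real.log (r k) +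
        (L.map fun b => (b.M : ℝ) *
          circleAverage (fun z => Real.log (max b.e ‖h k z - b.a‖)) 0 (r k)).sum)) := by
  have key := arch_bound_general (m := m) (K := K) (fun _ => L) (fun _ b hb => (hL b hb).le) e A r hr
    h (fun k z => (c k - n k * Real.log (r k)) + Real.log (gauge L (h k z))) ?_ ?_
  · rw [Finset.prod_const, Finset.card_univ, Fintype.card_fin] at key
    refine key.trans ?_
    rw [Real.exp_sum]
    refine Finset.prod_le_prod (fun k _ => by positivity) fun k _ => ?_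
    have hKpos : 0 < (K : ℝ) := by exact_mod_cast (lt_of_le_of_lt (Nat.zero_le _) k.2)
    have hs : 0 < √(K : ℝ) := Real.sqrt_pos.2 hKpos
    obtain ⟨h1, h2⟩ := circleAverage_log_gauge hL (h k) (r k) (hint k)
    rw [circleAverage_fun_add (circleIntegrable_const _ _ _) h1, h2, circleAverage_const]
    have h3 : Real.log √K + c k - n k * Real.log (r k) +
        (L.map fun b => (b.M : ℝ) *
          circleAverage (fun z => Real.log (max b.e ‖h k z - b.a‖)) 0 (r k)).sum =
        Real.log √K + ((c k - n k * Real.log (r k)) + (L.map fun b => (b.M : ℝ) *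
          circleAverage (fun z => Real.log (max b.e ‖h k z - b.a‖)) 0 (r k)).sum) := by ring
    rw [h3, Real.exp_add (Real.log √(K : ℝ)), Real.exp_log hs]
  · intro k
    exact (circleIntegrable_const _ _ _).add (circleAverage_log_gauge hL (h k) (r k) (hint k)).1
  · intro k P hP hPk
    obtain ⟨g, hg, hg0, hgz⟩ := hana k P hP hPk
    refine ⟨g, hg, hg0, fun z hz T hT hPT => ?_⟩
    have h1 := hgz z hz (T * gauge L (h k z)) hPT
    have hz' : ‖z‖ = r k := by simpa using hz
    rw [norm_mul, norm_pow, hz'] at h1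
    have h2 : 0 < r k ^ n k := pow_pos (hr k) _
    have h3 : ‖g z‖ ≤ Real.exp (c k) * (T * gauge L (h k z)) / r k ^ n k := by
      rw [le_div_iff₀ h2, mul_comm]; exact h1
    refine h3.trans (le_of_eq ?_)
    rw [Real.exp_add, Real.exp_log (gauge_pos hL _), Real.exp_sub, ← Real.log_pow, Real.exp_log h2]
    ring

end Vale.P030.H205
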