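import Mathlib

/-!
# Block basis of polynomials with explicit determinant and explicit sup bound

For a list of blocks `(a, e, M)` (node, radius, multiplicity) the family
`e_i^(M_i - j) (X - a_i)^j ∏_{l ≠ i} (X - a_l)^{M_l}`, `j < M_i`, has an explicit determinant in the
monomial basis, and every member is bounded by `∏_i max (e_i, |u - a_i|)^{M_i}`.
-/

namespace Vale.P030.H205

open Polynomial
open scoped BigOperators

/-- A block: node `a`, radius `e`, multiplicity `M`. -/
structure Blk where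
  a : ℂ
  e : ℝ
  M : ℕ

/-- total degree -/
def deg : List Blk → ℕ
  | [] => 0
  | b :: L => b.M + deg L

/-- the product of all `(X - a)^M` -/
noncomputable def Q : List Blk → ℂ[X]
  | [] => 1
  | b :: L => (X - C b.a) ^ b.M * Q L

/-- the weighted block family -/
noncomputable def fam : (L : List Blk) → Fin (deg L) → ℂ[X]
  | [] => Fin.elim0
  | b :: L => Fin.append
      (fun j : Fin b.M => C ((b.e : ℂ) ^ (b.M - (j : ℕ))) * (X - C b.a) ^ (j : ℕ) * Q L)
      (fun i => (X - C b.a) ^ b.M * fam L i)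

/-- the gauge -/
noncomputable def gauge : List Blk → ℂ → ℝ
  | [], _ => 1
  | b :: L, u => (max b.e ‖u - b.a‖) ^ b.M * gauge L u

/-- the modulus of the determinant of the family in the monomial basis -/
noncomputable def wt : List Blk → ℝ
  | [] => 1
  | b :: L => (∏ j : Fin b.M, b.e ^ (b.M - (j : ℕ))) * ‖(Q L).eval b.a‖ ^ b.M * wt L

/-- coefficient matrix of a family -/
def cmat {D : ℕ} (p : Fin D → ℂ[X]) : Matrix (Fin D) (Fin D) ℂ :=
  Matrix.of fun i j => (p j).coeff i

theorem Q_natDegree (L : List Blk) : (Q L).natDegree = deg L := by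
  induction L with
  | nil => simp [Q, deg]
  | cons b L ih =>
    have hne : Q L ≠ 0 := by
      clear ih
      induction L with
      | nil => simp [Q]
      | cons c L ih => simp [Q, ih, X_sub_C_ne_zero]
    rw [Q, natDegree_mul (pow_ne_zero _ (X_sub_C_ne_zero _)) hne, natDegree_pow,
      natDegree_X_sub_C, ih, mul_one, deg]

theorem Q_ne_zero (L : List Blk) : Q L ≠ 0 := by
  induction L with
  | nil => simp [Q]
  | cons c L ih => simp [Q, ih, X_sub_C_ne_zero]

theorem fam_natDegree_lt (L : List Blk) (i : Fin (deg L)) : (fam L i).natDegree < deg L := by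
  induction L with
  | nil => exact i.elim0
  | cons b L ih =>
    refine Fin.addCases (m := b.M) (n := deg L) (motive := fun i =>
      (fam (b :: L) i).natDegree < deg (b :: L)) (fun j => ?_) (fun j => ?_) i
    · have : fam (b :: L) (Fin.castAdd (deg L) j) =
          C ((b.e : ℂ) ^ (b.M - (j : ℕ))) * (X - C b.a) ^ (j : ℕ) * Q L := by
        simp only [fam]; exact Fin.append_left _ _ _
      rw [this, mul_assoc]
      have h1 : (C ((b.e : ℂ) ^ (b.M - (j : ℕ))) * ((X - C b.a) ^ (j : ℕ) * Q L)).natDegree ≤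
          ((X - C b.a) ^ (j : ℕ) * Q L).natDegree := natDegree_C_mul_le _ _
      have h2 : ((X - C b.a) ^ (j : ℕ) * Q L).natDegree = j + deg L := by
        rw [natDegree_mul (pow_ne_zero _ (X_sub_C_ne_zero _)) (Q_ne_zero L), natDegree_pow,
          natDegree_X_sub_C, Q_natDegree, mul_one]
      have := j.2
      simp only [deg]
      omega
    · have : fam (b :: L) (Fin.natAdd b.M j) = (X - C b.a) ^ b.M * fam L j := by
        simp only [fam]; exact Fin.append_right _ _ _
      rw [this]
      have h1 := natDegree_mul_le (p := (X - C b.a) ^ b.M) (q := fam L j)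
      rw [natDegree_pow, natDegree_X_sub_C, mul_one] at h1
      have := ih j
      simp only [deg]
      omega

theorem gauge_nonneg (L : List Blk) (u : ℂ) : 0 ≤ gauge L u := by
  induction L with
  | nil => simp [gauge]
  | cons b L ih =>
    rw [gauge]
    exact mul_nonneg (pow_nonneg (le_max_of_le_right (norm_nonneg _)) _) ih

theorem norm_eval_Q_le (L : List Blk) (u : ℂ) : ‖(Q L).eval u‖ ≤ gauge L u := by
  induction L with
  | nil => simp [Q, gauge]
  | cons b L ih =>
    rw [Q, gauge, eval_mul, eval_pow, norm_mul, norm_pow]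
    refine mul_le_mul ?_ ih (norm_nonneg _) (pow_nonneg (le_max_of_le_right (norm_nonneg _)) _)
    simp only [eval_sub, eval_X, eval_C]
    exact pow_le_pow_left₀ (norm_nonneg _) (le_max_right _ _) _

theorem norm_eval_fam_le (L : List Blk) (hL : ∀ b ∈ L, 0 ≤ b.e) (u : ℂ) (i : Fin (deg L)) :
    ‖(fam L i).eval u‖ ≤ gauge L u := by
  induction L with
  | nil => exact i.elim0
  | cons b L ih =>
    refine Fin.addCases (m := b.M) (n := deg L) (motive := fun i =>
      ‖(fam (b :: L) i).eval u‖ ≤ gauge (b :: L) u) (fun j => ?_) (fun j => ?_) i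
    · have : fam (b :: L) (Fin.castAdd (deg L) j) =
          C ((b.e : ℂ) ^ (b.M - (j : ℕ))) * (X - C b.a) ^ (j : ℕ) * Q L := by
        simp only [fam]; exact Fin.append_left _ _ _
      rw [this, gauge, eval_mul, norm_mul]
      refine mul_le_mul ?_ (norm_eval_Q_le L u) (norm_nonneg _)
        (pow_nonneg (le_max_of_le_right (norm_nonneg _)) _)
      rw [eval_mul, eval_C, eval_pow, norm_mul, norm_pow, norm_pow]
      simp only [eval_sub, eval_X, eval_C]
      have hb : 0 ≤ b.e := hL b (by simp)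
      have h1 : ‖(b.e : ℂ)‖ = b.e := by simp [abs_of_nonneg hb]
      rw [h1]
      calc b.e ^ (b.M - (j : ℕ)) * ‖u - b.a‖ ^ (j : ℕ)
          ≤ (max b.e ‖u - b.a‖) ^ (b.M - (j : ℕ)) * (max b.e ‖u - b.a‖) ^ (j : ℕ) := by
            refine mul_le_mul (pow_le_pow_left₀ hb (le_max_left _ _) _)
              (pow_le_pow_left₀ (norm_nonneg _) (le_max_right _ _) _) (by positivity) ?_
            exact pow_nonneg (le_max_of_le_left hb) _
        _ = (max b.e ‖u - b.a‖) ^ b.M := by
            rw [← pow_add, Nat.sub_add_cancel j.2.le]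
    · have : fam (b :: L) (Fin.natAdd b.M j) = (X - C b.a) ^ b.M * fam L j := by
        simp only [fam]; exact Fin.append_right _ _ _
      rw [this, gauge, eval_mul, eval_pow, norm_mul, norm_pow]
      refine mul_le_mul ?_ (ih (fun c hc => hL c (by simp [hc])) j) (norm_nonneg _)
        (pow_nonneg (le_max_of_le_right (norm_nonneg _)) _)
      simp only [eval_sub, eval_X, eval_C]
      exact pow_le_pow_left₀ (norm_nonneg _) (le_max_right _ _) _

theorem sylv_left (f g : ℂ[X]) (m n : ℕ) (hg : g.natDegree ≤ n) (i : Fin (m + n)) (j : Fin m) :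
    sylvester f g m n i (Fin.castAdd n j) = (X ^ (j : ℕ) * g).coeff i := by
  rw [sylvester, Matrix.of_apply, Fin.addCases_left, coeff_X_pow_mul']
  by_cases h1 : (j : ℕ) ≤ i
  · by_cases h2 : (i : ℕ) ≤ j + n
    · rw [if_pos ⟨h1, h2⟩, if_pos h1]
    · rw [if_neg (fun h => h2 h.2), if_pos h1, coeff_eq_zero_of_natDegree_lt]
      omega
  · rw [if_neg (fun h => h1 h.1), if_neg h1]

theorem sylv_right (f g : ℂ[X]) (m n : ℕ) (hf : f.natDegree ≤ m) (i : Fin (m + n)) (j : Fin n) :
    sylvester f g m n i (Fin.natAdd m j) = (X ^ (j : ℕ) * f).coeff i := by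
  rw [sylvester, Matrix.of_apply, Fin.addCases_right, coeff_X_pow_mul']
  by_cases h1 : (j : ℕ) ≤ i
  · by_cases h2 : (i : ℕ) ≤ j + m
    · rw [if_pos ⟨h1, h2⟩, if_pos h1]
    · rw [if_neg (fun h => h2 h.2), if_pos h1, coeff_eq_zero_of_natDegree_lt]
      omega
  · rw [if_neg (fun h => h1 h.1), if_neg h1]

theorem sum_coeff_mul {m : ℕ} (p g : ℂ[X]) (hp : ∀ i, m ≤ i → p.coeff i = 0) (i : ℕ) :
    ∑ t : Fin m, (X ^ (t : ℕ) * g).coeff i * p.coeff t = (p * g).coeff i := by
  have h1 : p = ∑ t ∈ Finset.range m, C (p.coeff t) * X ^ t := by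
    ext k
    simp only [finsetSum_coeff, coeff_C_mul, coeff_X_pow, mul_ite, mul_one, mul_zero,
      Finset.sum_ite_eq, Finset.mem_range]
    split_ifs with h
    · rfl
    · exact hp k (not_lt.1 h)
  conv_rhs => rw [h1]
  rw [Finset.sum_mul, finsetSum_coeff]
  simp only [Finset.sum_range]
  refine Finset.sum_congr rfl fun t _ => ?_
  rw [mul_assoc, coeff_C_mul, mul_comm]

theorem det_step (M n : ℕ) (a : ℂ) (e : ℝ) (q : ℂ[X]) (hq : q.natDegree ≤ n)
    (p : Fin n → ℂ[X]) (hp : ∀ i, (p i).natDegree < n) :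
    (cmat (Fin.append (fun j : Fin M => C ((e : ℂ) ^ (M - (j : ℕ))) * (X - C a) ^ (j : ℕ) * q)
      (fun i => (X - C a) ^ M * p i))).det =
      (∏ j : Fin M, (e : ℂ) ^ (M - (j : ℕ))) * (q.eval a) ^ M * (cmat p).det := by
  let U : Matrix (Fin M) (Fin M) ℂ :=
    cmat (fun j : Fin M => C ((e : ℂ) ^ (M - (j : ℕ))) * (X - C a) ^ (j : ℕ))
  let S := sylvester ((X - C a) ^ M) q M n
  have hfd : ((X - C a : ℂ[X]) ^ M).natDegree ≤ M := by
    rw [natDegree_pow, natDegree_X_sub_C, mul_one]
  have hSl : ∀ (i : Fin (M + n)) (t : Fin M), S i (Fin.castAdd n t) = (X ^ (t : ℕ) * q).coeff i :=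
    fun i t => sylv_left _ _ _ _ hq i t
  have hSr : ∀ (i : Fin (M + n)) (t : Fin n), S i (Fin.natAdd M t) =
      (X ^ (t : ℕ) * (X - C a) ^ M).coeff i :=
    fun i t => sylv_right _ _ _ _ hfd i t
  have hmul : cmat (Fin.append (fun j : Fin M => C ((e : ℂ) ^ (M - (j : ℕ))) *
      (X - C a) ^ (j : ℕ) * q) (fun i => (X - C a) ^ M * p i)) =
      S * (Matrix.fromBlocks U 0 0 (cmat p)).submatrix finSumFinEquiv.symm
        finSumFinEquiv.symm := by
    ext i j
    rw [Matrix.mul_apply, Fin.sum_univ_add]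
    refine Fin.addCases (fun j => ?_) (fun j => ?_) j
    · simp only [Matrix.submatrix_apply, finSumFinEquiv_symm_apply_castAdd,
        finSumFinEquiv_symm_apply_natAdd, Matrix.fromBlocks_apply₁₁, Matrix.fromBlocks_apply₂₁,
        Matrix.zero_apply, mul_zero, Finset.sum_const_zero, add_zero]
      rw [cmat, Matrix.of_apply, Fin.append_left, ← sum_coeff_mul (m := M)]
      · refine Finset.sum_congr rfl fun t _ => ?_
        rw [hSl]
        rfl
      · intro k hk
        refine coeff_eq_zero_of_natDegree_lt ?_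
        have := natDegree_C_mul_le ((e : ℂ) ^ (M - (j : ℕ))) ((X - C a) ^ (j : ℕ))
        rw [natDegree_pow, natDegree_X_sub_C, mul_one] at this
        have := j.2
        omega
    · simp only [Matrix.submatrix_apply, finSumFinEquiv_symm_apply_castAdd,
        finSumFinEquiv_symm_apply_natAdd, Matrix.fromBlocks_apply₁₂, Matrix.fromBlocks_apply₂₂,
        Matrix.zero_apply, mul_zero, Finset.sum_const_zero, zero_add]
      rw [cmat, Matrix.of_apply, Fin.append_right, mul_comm ((X - C a) ^ M),
        ← sum_coeff_mul (m := n)]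
      · refine Finset.sum_congr rfl fun t _ => ?_
        rw [hSr]
        rfl
      · intro k hk
        exact coeff_eq_zero_of_natDegree_lt (lt_of_lt_of_le (hp j) hk)
  have hU : U.det = ∏ j : Fin M, (e : ℂ) ^ (M - (j : ℕ)) := by
    rw [Matrix.det_of_isUpperTriangular]
    · refine Finset.prod_congr rfl fun j _ => ?_
      change (C ((e : ℂ) ^ (M - (j : ℕ))) * (X - C a) ^ (j : ℕ)).coeff (j : ℕ) = _
      rw [coeff_C_mul]
      have h3 : ((X - C a : ℂ[X]) ^ (j : ℕ)).coeff (j : ℕ) = 1 := by
        have := ((monic_X_sub_C a).pow (j : ℕ))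
        rw [Monic, leadingCoeff, natDegree_pow, natDegree_X_sub_C, mul_one] at this
        exact this
      rw [h3, mul_one]
    · intro i j hij
      change (C ((e : ℂ) ^ (M - (j : ℕ))) * (X - C a) ^ (j : ℕ)).coeff (i : ℕ) = 0
      refine coeff_eq_zero_of_natDegree_lt ?_
      have := natDegree_C_mul_le ((e : ℂ) ^ (M - (j : ℕ))) ((X - C a) ^ (j : ℕ))
      rw [natDegree_pow, natDegree_X_sub_C, mul_one] at this
      have h4 : (j : ℕ) < i := hij
      omega
  have hS : S.det = q.eval a ^ M := resultant_X_sub_C_pow_left a q M n hq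
  rw [hmul, Matrix.det_mul, Matrix.det_submatrix_equiv_self, Matrix.det_fromBlocks_zero₂₁,
    hS, hU]
  ring

theorem norm_det_cmat_fam (L : List Blk) (hL : ∀ b ∈ L, 0 ≤ b.e) :
    ‖(cmat (fam L)).det‖ = wt L := by
  induction L with
  | nil =>
    have : (cmat (fam [])).det = 1 := by
      have : IsEmpty (Fin (deg [])) := by rw [deg]; infer_instance
      exact Matrix.det_isEmpty
    rw [this]; simp [wt]
  | cons b L ih =>
    have h := det_step b.M (deg L) b.a b.e (Q L) (Q_natDegree L).le (fam L) (fam_natDegree_lt L)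
    have h' : (cmat (fam (b :: L))).det = (∏ j : Fin b.M, (b.e : ℂ) ^ (b.M - (j : ℕ))) *
        ((Q L).eval b.a) ^ b.M * (cmat (fam L)).det := h
    rw [h', norm_mul, norm_mul, norm_prod, ih (fun c hc => hL c (by simp [hc])), wt, norm_pow]
    have hb : 0 ≤ b.e := hL b (by simp)
    have h1 : ∀ k : ℕ, ‖(b.e : ℂ) ^ k‖ = b.e ^ k := by
      intro k; rw [norm_pow]; simp [abs_of_nonneg hb]
    simp only [h1]

end Vale.P030.H205
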