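import Vale.Agent.P030.H205.Frame

/-!
# The bound with exponents, and Jensen with extra zeros

`frame_pivot_bound` : the algebraic theorem with arbitrary exponents `b n`.
`jensen_zeros` : Jensen's inequality which also uses zeros at other points of the disc.
`column_bound` : the exponent of one column: order `n` at `0` (leading coefficient), orders `k ζ` at
finitely many other points `ζ`, majorant `φ` on the circle.
-/

namespace Vale.P030.H205

open Polynomial Metric Real Filter MeromorphicOn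
open scoped BigOperators

theorem frame_pivot_bound {K N : ℕ} {ι : Type*} [Fintype ι] [DecidableEq ι] (e : Fin K ≃ ι)
    (A : Matrix (Fin N) ι ℂ) (F : Matrix ι ι ℂ) (hF : F.det ≠ 0)
    (hinj : ∀ x : ι → ℂ, (∀ n, ∑ i, A n i * x i = 0) → x = 0) (b : Fin N → ℝ)
    (hb : ∀ (n : Fin N) (x : ι → ℂ), (∀ j < n, ∑ i, (A * F) j i * x i = 0) →
      ‖∑ i, (A * F) n i * x i‖ ≤ (∑ i, ‖x i‖) * Real.exp (b n)) :
    ∃ σ : Fin K → Fin N, StrictMono σ ∧ (A.submatrix σ e).det ≠ 0 ∧
      Real.log ‖(A.submatrix σ e).det‖ + Real.log ‖F.det‖ ≤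
        ∑ k, b (σ k) + (K : ℝ) * Real.log √(K : ℝ) := by
  have hsum : ∀ (w : ι → ℂ) (x : Fin K → ℂ), ∑ i : Fin K, w (e i) * x i =
      ∑ i : ι, w i * x (e.symm i) := by
    intro w x
    rw [← Equiv.sum_comp e]
    simp
  have key := exists_pivot_det_le ((A * F).submatrix id e) (fun n => √K * Real.exp (b n)) ?_ ?_
  · obtain ⟨σ, hσ, hdet, hle⟩ := key
    have hmul : ∀ σ : Fin K → Fin N, (((A * F).submatrix id e).submatrix σ id) =
        (A.submatrix σ e) * (F.submatrix e e) := by
      intro σ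
      rw [Matrix.submatrix_mul_equiv, Matrix.submatrix_submatrix]
      rfl
    rw [hmul, Matrix.det_mul, Matrix.det_submatrix_equiv_self] at hdet hle
    have hA0 : (A.submatrix σ e).det ≠ 0 := left_ne_zero_of_mul hdet
    refine ⟨σ, hσ, hA0, ?_⟩
    rw [← Real.log_mul (norm_ne_zero_iff.2 hA0) (norm_ne_zero_iff.2 hF), ← norm_mul]
    rcases Nat.eq_zero_or_pos K with hK | hK
    · subst hK
      have h1 : ‖(A.submatrix σ e).det * F.det‖ ≤ 1 := by simpa using hle
      have h2 := Real.log_nonpos (norm_nonneg _) h1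
      simpa using h2
    · have hKpos : 0 < (K : ℝ) := by exact_mod_cast hK
      have hs : 0 < √(K : ℝ) := Real.sqrt_pos.2 hKpos
      refine (Real.log_le_log (norm_pos_iff.2 hdet) hle).trans (le_of_eq ?_)
      rw [Real.log_prod (fun k _ => (mul_pos hs (Real.exp_pos _)).ne')]
      simp only [Real.log_mul hs.ne' (Real.exp_pos _).ne', Real.log_exp, Finset.sum_add_distrib,
        Finset.sum_const, Finset.card_univ, Fintype.card_fin, nsmul_eq_mul]
      ring
  · intro x hx
    have h1 : ∀ n, ∑ i, A n i * (F.mulVec (fun i => x (e.symm i))) i = 0 := by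
      intro n
      have h2 := hx n
      have h3 : ∑ i : Fin K, (A * F).submatrix id e n i * x i =
          ∑ i : ι, (A * F) n i * x (e.symm i) := hsum (fun i => (A * F) n i) x
      rw [h3] at h2
      rw [← h2]
      simp only [Matrix.mulVec, dotProduct, Matrix.mul_apply, Finset.mul_sum, Finset.sum_mul]
      rw [Finset.sum_comm]
      refine Finset.sum_congr rfl fun i _ => Finset.sum_congr rfl fun j _ => ?_
      ring
    have h4 := hinj _ h1
    have h5 : (fun i => x (e.symm i)) = 0 := by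
      by_contra hne
      exact hne (Matrix.eq_zero_of_mulVec_eq_zero hF h4)
    funext i
    simpa using congrFun h5 (e i)
  · intro n x hx hn
    have h3 : ∀ n, ∑ i : Fin K, (A * F).submatrix id e n i * x i =
        ∑ i : ι, (A * F) n i * x (e.symm i) := fun n => hsum (fun i => (A * F) n i) x
    rw [h3]
    refine (hb n (fun i => x (e.symm i)) (fun j hj => by rw [← h3]; exact hn j hj)).trans ?_
    refine mul_le_mul_of_nonneg_right ?_ (Real.exp_pos _).le
    have h6 : ∑ i : ι, ‖x (e.symm i)‖ = ∑ i : Fin K, ‖x i‖ :=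
      Equiv.sum_comp e.symm (fun i => ‖x i‖)
    rw [h6]
    have h4 : (∑ i : Fin K, ‖x i‖) ^ 2 ≤ K * ∑ i : Fin K, ‖x i‖ ^ 2 := by
      have := sq_sum_le_card_mul_sum_sq (s := (Finset.univ : Finset (Fin K)))
        (f := fun i => ‖x i‖)
      simpa using this
    refine Real.le_sqrt_of_sq_le (h4.trans ?_)
    have : (0 : ℝ) ≤ K := Nat.cast_nonneg K
    nlinarith

/-- Jensen's inequality using zeros at other points. -/
theorem jensen_zeros {g : ℂ → ℂ} {φ : ℂ → ℝ} {r : ℝ} (hr : 0 < r)
    (hg : AnalyticOnNhd ℂ g (closedBall 0 r)) (hφ : CircleIntegrable φ 0 r)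
    (hbd : ∀ z ∈ sphere (0 : ℂ) r, ‖g z‖ ≤ Real.exp (φ z))
    (T : Finset ℂ) (k : ℂ → ℕ) (hT : ∀ ζ ∈ T, ζ ≠ 0 ∧ ‖ζ‖ ≤ r)
    (hord : ∀ ζ ∈ T, (k ζ : ℕ∞) ≤ analyticOrderAt g ζ) :
    ‖g 0‖ ≤ Real.exp (circleAverage φ 0 r - ∑ ζ ∈ T, (k ζ : ℝ) * Real.log (r / ‖ζ‖)) := by
  classical
  by_cases h0 : g 0 = 0
  · rw [h0, norm_zero]; exact (Real.exp_pos _).le
  have hr' : |r| = r := abs_of_pos hr
  have hg' : AnalyticOnNhd ℂ g (closedBall 0 |r|) := by rwa [hr']
  have hJ := hg'.circleAverage_log_norm hr.ne' h0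
  have hdiv : ∀ u, 0 ≤ (divisor g (closedBall 0 |r|)) u := fun u =>
    (AnalyticOnNhd.divisor_nonneg hg') u
  have htop : ∀ u ∈ closedBall (0 : ℂ) |r|, meromorphicOrderAt g u ≠ ⊤ := by
    have h2 : MeromorphicOn g (closedBall 0 |r|) := hg'.meromorphicOn
    have h4 := (h2.exists_meromorphicOrderAt_ne_top_iff_forall
      ⟨nonempty_closedBall.mpr (abs_nonneg r), (convex_closedBall 0 |r|).isPreconnected⟩).1
      ⟨⟨0, by simp⟩, by
        have h5 := (hg' 0 (by simp))
        rw [h5.meromorphicOrderAt_eq, h5.analyticOrderAt_eq_zero.2 h0]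
        simp⟩
    exact fun u hu => h4 ⟨u, hu⟩
  have hterm : ∀ u, 0 ≤ (divisor g (closedBall 0 |r|) u : ℝ) *
      Real.log (r * ‖(0 : ℂ) - u‖⁻¹) := by
    intro u
    by_cases hu : u ∈ closedBall (0 : ℂ) |r|
    · by_cases hu0 : u = 0
      · subst hu0; simp
      · refine mul_nonneg (by exact_mod_cast hdiv u) (Real.log_nonneg ?_)
        rw [zero_sub, norm_neg]
        have h3 : 0 < ‖u‖ := norm_pos_iff.2 hu0
        rw [hr', mem_closedBall, dist_zero_right] at hu
        rw [← div_eq_mul_inv, le_div_iff₀ h3, one_mul]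
        exact hu
    · rw [Function.locallyFinsuppWithin.apply_eq_zero_of_notMem _ hu]
      simp
  have hsupp : (Function.support fun u => (divisor g (closedBall 0 |r|) u : ℝ) *
      Real.log (r * ‖(0 : ℂ) - u‖⁻¹)).Finite := by
    refine ((divisor g (closedBall 0 |r|)).finiteSupport
      (isCompact_closedBall 0 |r|)).subset fun u hu => ?_
    simp only [Function.mem_support] at hu ⊢
    intro h
    apply hu
    simp [h]
  have h1 : Real.log ‖g 0‖ + ∑ ζ ∈ T, (k ζ : ℝ) * Real.log (r / ‖ζ‖) ≤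
      circleAverage (fun z => Real.log ‖g z‖) 0 r := by
    rw [hJ]
    have h3 : ∑ ζ ∈ T, (k ζ : ℝ) * Real.log (r / ‖ζ‖) ≤
        ∑ᶠ u, (divisor g (closedBall 0 |r|) u : ℝ) * Real.log (r * ‖(0 : ℂ) - u‖⁻¹) := by
      have h4 : ∑ᶠ u, (divisor g (closedBall 0 |r|) u : ℝ) * Real.log (r * ‖(0 : ℂ) - u‖⁻¹) =
          ∑ u ∈ hsupp.toFinset ∪ T, (divisor g (closedBall 0 |r|) u : ℝ) *
            Real.log (r * ‖(0 : ℂ) - u‖⁻¹) := by
        refine finsum_eq_sum_of_support_subset _ ?_
        intro u hu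
        simp only [Finset.coe_union, Set.Finite.coe_toFinset]
        exact Or.inl hu
      rw [h4]
      refine le_trans ?_ (Finset.sum_le_sum_of_subset_of_nonneg Finset.subset_union_right
        fun u _ _ => hterm u)
      refine Finset.sum_le_sum fun ζ hζ => ?_
      obtain ⟨hζ0, hζr⟩ := hT ζ hζ
      have h5 : 0 < ‖ζ‖ := norm_pos_iff.2 hζ0
      have hζmem : ζ ∈ closedBall (0 : ℂ) |r| := by
        rw [hr', mem_closedBall, dist_zero_right]; exact hζr
      have h6 : (k ζ : ℝ) ≤ (divisor g (closedBall 0 |r|) ζ : ℝ) := by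
        have h7 : ((k ζ : ℤ)) ≤ divisor g (closedBall 0 |r|) ζ := by
          rw [MeromorphicOn.divisor_apply hg'.meromorphicOn hζmem]
          have h8 : meromorphicOrderAt g ζ = (analyticOrderAt g ζ).map (↑) :=
            (hg' ζ hζmem).meromorphicOrderAt_eq
          have h9 := htop ζ hζmem
          have h10 := hord ζ hζ
          cases h11 : analyticOrderAt g ζ with
          | top => rw [h8, h11] at h9; simp at h9
          | coe m =>
            rw [h8, h11]
            rw [h11] at h10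
            have h12 : k ζ ≤ m := by exact_mod_cast h10
            have h13 : (k ζ : ℤ) ≤ (m : ℤ) := by exact_mod_cast h12
            simpa using h13
        exact_mod_cast h7
      rw [zero_sub, norm_neg, ← div_eq_mul_inv]
      exact mul_le_mul_of_nonneg_right h6
        (Real.log_nonneg ((le_div_iff₀ h5).2 (by rw [one_mul]; exact hζr)))
    linarith
  have hne : ∀ᶠ z in codiscreteWithin (sphere (0 : ℂ) |r|), g z ≠ 0 :=
    Filter.codiscreteWithin_mono sphere_subset_closedBall
      (hg'.meromorphicOn.eventually_codiscreteWithin_apply_ne_zero htop)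
  have h2 : circleAverage (fun z => Real.log ‖g z‖) 0 r ≤ circleAverage φ 0 r := by
    have h3 : (fun z => Real.log ‖g z‖) =ᶠ[codiscreteWithin (sphere (0 : ℂ) |r|)]
        (fun z => if g z = 0 then φ z else Real.log ‖g z‖) := by
      filter_upwards [hne] with z hz
      simp [hz]
    rw [circleAverage_congr_codiscreteWithin h3 hr.ne']
    refine circleAverage_mono ?_ hφ ?_
    · refine CircleIntegrable.congr_codiscreteWithin h3 ?_
      exact (hg'.mono sphere_subset_closedBall).meromorphicOn.circleIntegrable_log_norm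
    · intro z hz
      rw [hr'] at hz
      by_cases hz0 : g z = 0
      · simp [hz0]
      · simp only [hz0, if_false]
        rw [Real.log_le_iff_le_exp (norm_pos_iff.2 hz0)]
        exact hbd z hz
  rw [← Real.log_le_iff_le_exp (norm_pos_iff.2 h0)]
  linarith

/-- order at a point from a factorisation -/
theorem le_order_of_factor {g h : ℂ → ℂ} {ζ : ℂ} {k : ℕ} (hg : AnalyticAt ℂ g ζ)
    (hh : AnalyticAt ℂ h ζ) (hfac : ∀ᶠ z in nhds ζ, g z = (z - ζ) ^ k * h z) :
    (k : ℕ∞) ≤ analyticOrderAt g ζ := by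
  rw [natCast_le_analyticOrderAt hg]
  exact ⟨h, hh, by filter_upwards [hfac] with z hz; rw [hz, smul_eq_mul]⟩

/-- order at a point from vanishing Taylor coefficients -/
theorem le_order_of_coeff {s : ℂ → ℂ} {ζ : ℂ} {p : FormalMultilinearSeries ℂ ℂ ℂ}
    (hp : HasFPowerSeriesAt s p ζ) (k : ℕ) (hc : ∀ j < k, p.coeff j = 0) :
    (k : ℕ∞) ≤ analyticOrderAt s ζ := by
  have key : ∀ m ≤ k, ∀ z, s z = (z - ζ) ^ m * ((Function.swap dslope ζ)^[m] s) z := by
    intro m
    induction m with
    | zero => intro _ z; simp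
    | succ m ih =>
      intro hm z
      have h2 := ih (by omega) z
      have h4 : ((Function.swap dslope ζ)^[m] s) ζ = 0 := by
        have h5 := hp.has_fpower_series_iterate_dslope_fslope m
        have h6 := h5.coeff_zero (fun _ => 0)
        have h7 : (FormalMultilinearSeries.fslope^[m] p).coeff 0 = p.coeff m := by
          rw [FormalMultilinearSeries.coeff_iterate_fslope, zero_add]
        rw [← h6, coeff_zero_aux, h7]
        exact hc m (by omega)
      have h3 : (Function.swap dslope ζ)^[m + 1] s =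
          dslope ((Function.swap dslope ζ)^[m] s) ζ := by
        rw [Function.iterate_succ_apply']
      rw [h3, h2]
      have h5 := sub_smul_dslope ((Function.swap dslope ζ)^[m] s) ζ z
      rw [h4, sub_zero, smul_eq_mul] at h5
      rw [← h5]; ring
  refine le_order_of_factor ⟨p, hp⟩
    (h := (Function.swap dslope ζ)^[k] s) ⟨_, hp.has_fpower_series_iterate_dslope_fslope k⟩ ?_
  exact Filter.Eventually.of_forall fun z => key k le_rfl z

/-- The exponent of one column. `s` is holomorphic on a larger ball, its Taylor coefficients below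
`n` at `0` vanish, `|s| ≤ C exp φ` on the circle of radius `r`, and `s` has zeros of order `≥ k ζ` at
the points `ζ ∈ T`. Then the `n`-th coefficient is bounded. -/
theorem column_bound {R r : ℝ} (hr : 0 < r) (hrR : r < R) {s : ℂ → ℂ}
    (hs : DifferentiableOn ℂ s (ball 0 R))
    {p : FormalMultilinearSeries ℂ ℂ ℂ} (hp : HasFPowerSeriesAt s p 0) (n : ℕ)
    (hc : ∀ j < n, p.coeff j = 0) {C : ℝ} (hC : 0 ≤ C) {φ : ℂ → ℝ} (hφ : CircleIntegrable φ 0 r)
    (hbd : ∀ z ∈ sphere (0 : ℂ) r, ‖s z‖ ≤ C * Real.exp (φ z))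
    (T : Finset ℂ) (k : ℂ → ℕ) (hT : ∀ ζ ∈ T, ζ ≠ 0 ∧ ‖ζ‖ ≤ r)
    (hord : ∀ ζ ∈ T, (k ζ : ℕ∞) ≤ analyticOrderAt s ζ) :
    ‖p.coeff n‖ ≤ C * Real.exp (circleAverage φ 0 r - n * Real.log r -
      ∑ ζ ∈ T, (k ζ : ℝ) * Real.log (r / ‖ζ‖)) := by
  have hR : 0 < R := hr.trans hrR
  obtain ⟨g, hg, hfac, hg0⟩ := exists_quot hR hs hp n hc
  have hgan : AnalyticOnNhd ℂ g (closedBall 0 r) := fun z hz =>
    (hg.analyticOnNhd isOpen_ball) z (closedBall_subset_ball hrR hz)
  rcases hC.eq_or_lt with hC0 | hCpos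
  · -- `C = 0`
    have hz0 : ∀ z ∈ sphere (0 : ℂ) r, ‖g z‖ ≤ 0 := by
      intro z hz
      have h1 := hbd z hz
      rw [← hC0, zero_mul, hfac z, norm_mul, norm_pow] at h1
      have hz' : ‖z‖ = r := by simpa using hz
      rw [hz'] at h1
      have h2 : 0 < r ^ n := pow_pos hr n
      exact le_of_mul_le_mul_left (by simpa using h1) h2
    have hd : DiffContOnCl ℂ g (ball 0 r) := by
      refine ⟨hg.mono (ball_subset_ball hrR.le), ?_⟩
      rw [closure_ball _ hr.ne']
      exact hgan.continuousOn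
    have h9 : ‖g 0‖ ≤ 0 := by
      refine Complex.norm_le_of_forall_mem_frontier_norm_le (U := ball (0 : ℂ) r)
        isBounded_ball hd (fun z hz => ?_) (by
          rw [closure_ball _ hr.ne']; exact mem_closedBall_self hr.le)
      rw [frontier_ball _ hr.ne'] at hz
      exact hz0 z hz
    rw [← hg0, ← hC0, zero_mul]
    exact h9
  · have key := jensen_zeros (g := g) (φ := fun z => (Real.log C - n * Real.log r) + φ z) hr hgan
      ((circleIntegrable_const _ _ _).add hφ) (fun z hz => ?_) T k hT (fun ζ hζ => ?_)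
    · rw [circleAverage_fun_add (circleIntegrable_const _ _ _) hφ, circleAverage_const] at key
      rw [← hg0]
      refine key.trans (le_of_eq ?_)
      rw [← Real.exp_log hCpos, ← Real.exp_add, Real.exp_log hCpos]
      congr 1
      ring
    · have h1 := hbd z hz
      have hz' : ‖z‖ = r := by simpa using hz
      rw [hfac z, norm_mul, norm_pow, hz'] at h1
      have h2 : 0 < r ^ n := pow_pos hr n
      have h3 : ‖g z‖ ≤ C * Real.exp (φ z) / r ^ n := by
        rw [le_div_iff₀ h2, mul_comm]; exact h1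
      refine h3.trans (le_of_eq ?_)
      rw [Real.exp_add, Real.exp_sub, Real.exp_log hCpos, ← Real.log_pow, Real.exp_log h2]
      ring
    · obtain ⟨hζ0, hζr⟩ := hT ζ hζ
      have hζmem : ζ ∈ ball (0 : ℂ) R := by
        rw [mem_ball, dist_zero_right]; exact lt_of_le_of_lt hζr hrR
      have hga : AnalyticAt ℂ g ζ := (hg.analyticOnNhd isOpen_ball) ζ hζmem
      have hpa : AnalyticAt ℂ (fun z : ℂ => z ^ n) ζ := by fun_prop
      have h1 : analyticOrderAt s ζ = analyticOrderAt g ζ := by
        have h2 : s = (fun z : ℂ => z ^ n) * g := by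
          funext z; exact hfac z
        rw [h2, analyticOrderAt_mul hpa hga]
        have h3 : analyticOrderAt (fun z : ℂ => z ^ n) ζ = 0 := by
          rw [hpa.analyticOrderAt_eq_zero]
          exact pow_ne_zero n hζ0
        rw [h3, zero_add]
      rw [← h1]
      exact hord ζ hζ

end Vale.P030.H205
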