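import Vale.Agent.P030.H205.G3Frame
import Vale.Agent.P030.H352.HarmA
import Vale.Agent.P030.H810.Ser

/-!
# P030: the columns at c0, c1, c2 as Taylor coefficients in the `y`-plane

`yc c t` is the point `y = (u+1)/(u-1)` with local parameter `t` at the cusp `c`.
-/

open PowerSeries Finset

namespace Vale.P030.H205

open Vale.Agent.P030.T Vale.Agent.P030.H462 Vale.Agent.P030.AR

/-- the point with local parameter `t` -/
noncomputable def yc (c : Fin 4) (t : ℂ) : ℂ :=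
  match c with
  | 0 => (t + 1) / (t - 1)
  | 1 => t
  | 2 => (1 + t) / (1 - t)
  | 3 => t⁻¹

theorem evq_mul {f g : ℚ⟦X⟧} (hf : PG (Rat.castHom ℂ) f) (hg : PG (Rat.castHom ℂ) g) {t : ℂ}
    (ht : ‖t‖ < 1) : evq (f * g) t = evq f t * evq g t := ev_mul hf hg ht

theorem ne_one_of {t : ℂ} (ht : ‖t‖ < 1) : t ≠ 1 := fun h => by
  rw [h, norm_one] at ht
  exact lt_irrefl _ ht

theorem evq_pol {t : ℂ} (ht : ‖t‖ < 1) (q : ℚ) (a b : ℕ) :
    evq (sc q ((1 + X) ^ a * (1 - X) ^ b)) t = (q : ℂ) * ((1 + t) ^ a * (1 - t) ^ b) ∧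
      PG (Rat.castHom ℂ) (sc q ((1 + X) ^ a * (1 - X) ^ b)) := by
  have h1 : PG (Rat.castHom ℂ) (1 + X : ℚ⟦X⟧) := PG.one.add PG.varX
  have h2 : PG (Rat.castHom ℂ) (1 - X : ℚ⟦X⟧) := PG.one.sub PG.varX
  have h3 := (h1.pow a).mul (h2.pow b)
  refine ⟨?_, (PG.const q).mul h3⟩
  have e1 : ev (Rat.castHom ℂ) (1 + X : ℚ⟦X⟧) t = 1 + t := by
    rw [ev_add PG.one PG.varX ht, ev_one, ev_X]
  have e2 : ev (Rat.castHom ℂ) (1 - X : ℚ⟦X⟧) t = 1 - t := by
    rw [ev_sub PG.one PG.varX ht, ev_one, ev_X]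
  unfold evq sc
  rw [ev_mul (PG.const q) h3 ht, ev_C, ev_mul (h1.pow a) (h2.pow b) ht, ev_pow h1 a ht,
    ev_pow h2 b ht, e1, e2]
  rfl

theorem evq_geo {t : ℂ} (ht : ‖t‖ < 1) : evq geo t = 1 / (1 - t) := evQ_geo ht

theorem evq_mon0 {t : ℂ} (ht : ‖t‖ < 1) (a b : ℕ) :
    evq (X ^ a * geo ^ b) t = t ^ a * (1 / (1 - t)) ^ b ∧
      PG (Rat.castHom ℂ) (X ^ a * geo ^ b) := by
  have hg : PG (Rat.castHom ℂ) geo := pq_geo
  have h3 := (PG.varX (φ := Rat.castHom ℂ).pow a).mul (hg.pow b)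
  refine ⟨?_, h3⟩
  unfold evq
  rw [ev_mul (PG.varX.pow a) (hg.pow b) ht, ev_pow PG.varX a ht, ev_pow hg b ht, ev_X]
  congr 2
  exact evq_geo ht

theorem evq_sc {f : ℚ⟦X⟧} (hf : PG (Rat.castHom ℂ) f) {t : ℂ} (ht : ‖t‖ < 1) (q : ℚ) :
    evq (sc q f) t = (q : ℂ) * evq f t ∧ PG (Rat.castHom ℂ) (sc q f) := by
  refine ⟨?_, (PG.const q).mul hf⟩
  unfold evq sc
  rw [ev_mul (PG.const q) hf ht, ev_C]
  rfl

/-- all row monomials are one function of `y` -/
theorem evq_mon {D i : ℕ} (hi : i < D) {c : Fin 4} (hc : c ≠ 3) {t : ℂ} (ht : ‖t‖ < 1) :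
    evq (mon D c i) t = rowp D i (yc c t) ∧ PG (Rat.castHom ℂ) (mon D c i) := by
  have h1 : 1 - t ≠ 0 := sub_ne_zero.2 (ne_one_of ht).symm
  have h1' : t - 1 ≠ 0 := sub_ne_zero.2 (ne_one_of ht)
  have h2 : ((-2 : ℂ)) ≠ 0 := by norm_num
  obtain ⟨b, rfl⟩ : ∃ b, D = i + b + 1 := ⟨D - 1 - i, by omega⟩
  have hb : i + b + 1 - 1 - i = b := by omega
  have hb' : i + b + 1 - 1 = i + b := by omega
  fin_cases c
  · have h3 : mon (i + b + 1) 0 i = X ^ i * geo ^ (i + b + 1 - 1) := rfl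
    have h4 := evq_mon0 ht i (i + b + 1 - 1)
    rw [← h3] at h4
    refine ⟨?_, h4.2⟩
    show evq (mon (i + b + 1) 0 i) t = rowp (i + b + 1) i ((t + 1) / (t - 1))
    rw [h4.1]
    unfold rowp
    have e1 : (t + 1) / (t - 1) + 1 = (-2) * (t * (1 / (1 - t))) := by
      have : (1 - t) = -(t - 1) := by ring
      rw [this]
      field_simp
      ring
    have e2 : (t + 1) / (t - 1) - 1 = (-2) * (1 / (1 - t)) := by
      have : (1 - t) = -(t - 1) := by ring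
      rw [this]
      field_simp
      ring
    rw [e1, e2, hb, hb', mul_pow, mul_pow, mul_pow, pow_add, pow_add]
    have h5 : ((-2 : ℂ)) ^ i ≠ 0 := pow_ne_zero _ h2
    have h6 : ((-2 : ℂ)) ^ b ≠ 0 := pow_ne_zero _ h2
    field_simp
  · have h3 : mon (i + b + 1) 1 i
        = sc ((-1) ^ i / 2 ^ (i + b + 1 - 1)) ((1 + X) ^ i * (1 - X) ^ (i + b + 1 - 1 - i)) := rfl
    have h4 := evq_pol ht ((-1) ^ i / 2 ^ (i + b + 1 - 1)) i (i + b + 1 - 1 - i)
    rw [← h3] at h4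
    refine ⟨?_, h4.2⟩
    show evq (mon (i + b + 1) 1 i) t = rowp (i + b + 1) i t
    rw [h4.1]
    unfold rowp
    rw [hb, hb']
    have e1 : (1 - t) ^ b = (-1) ^ b * (t - 1) ^ b := by
      rw [← mul_pow]
      ring
    have e2 : ((-2 : ℂ) ^ (i + b))⁻¹ = (-1) ^ (i + b) * (2 ^ (i + b))⁻¹ := by
      rw [show (-2 : ℂ) = (-1) * 2 by norm_num, mul_pow, mul_inv]
      congr 1
      rw [← inv_pow]
      norm_num
    rw [e1, e2]
    push_cast
    have e3 : ((-1 : ℂ) ^ b) * (-1) ^ b = 1 := by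
      rw [← mul_pow]; norm_num
    rw [add_comm 1 t, pow_add (-1 : ℂ)]
    rw [div_eq_mul_inv]
    ring
  · have h3 : mon (i + b + 1) 2 i
        = sc ((-1) ^ (i + b + 1 - 1)) (X ^ (i + b + 1 - 1 - i) * geo ^ (i + b + 1 - 1)) := rfl
    have h4 := evq_mon0 ht (i + b + 1 - 1 - i) (i + b + 1 - 1)
    have h5 := evq_sc h4.2 ht ((-1) ^ (i + b + 1 - 1))
    rw [← h3] at h5
    refine ⟨?_, h5.2⟩
    show evq (mon (i + b + 1) 2 i) t = rowp (i + b + 1) i ((1 + t) / (1 - t))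
    rw [h5.1, h4.1]
    unfold rowp
    have e1 : (1 + t) / (1 - t) + 1 = 2 * (1 / (1 - t)) := by
      field_simp
      ring
    have e2 : (1 + t) / (1 - t) - 1 = 2 * (t * (1 / (1 - t))) := by
      field_simp
      ring
    have e4 : ((-2 : ℂ) ^ (i + b))⁻¹ = (-1) ^ (i + b) * (2 ^ (i + b))⁻¹ := by
      rw [show (-2 : ℂ) = (-1) * 2 by norm_num, mul_pow, mul_inv]
      congr 1
      rw [← inv_pow]
      norm_num
    rw [e1, e2, hb, hb', e4, mul_pow, mul_pow, mul_pow]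
    push_cast
    have h6 : (2 : ℂ) ^ (i + b) ≠ 0 := pow_ne_zero _ (by norm_num)
    rw [pow_add (1 / (1 - t)) i b]
    field_simp
    rw [pow_add]
    ring
  · exact absurd rfl hc

/-- **the column series** -/
theorem hasSum_val {D : ℕ} (v : Fin D × Fin 8 → ℂ) {g : Gp} (hg : g.cusp ≠ 3) {t : ℂ}
    (ht : ‖t‖ < 1) :
    HasSum (fun k => Vale.Agent.P030.T.val D (Gc / 2) v (g, k) * t ^ k)
      (∑ r, v r * (rowp D r.1 (yc g.cusp t) * tupC g t r.2)) := by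
  have h1 : ∀ r : Fin D × Fin 8,
      HasSum (fun k => v r * (((En D (Gc / 2) r (g, k) : ℝ) : ℂ)) * t ^ k)
        (v r * (rowp D r.1 (yc g.cusp t) * tupC g t r.2)) := by
    intro r
    have hm := evq_mon (D := D) r.1.2 hg ht
    have p0 := Vale.Agent.P030.H787.pg_tup0 g r.2
    have p1 := Vale.Agent.P030.H787.pg_tup1 g r.2
    have s0 := (hm.2.mul p0).hasSum ht
    have s1 := (hm.2.mul p1).hasSum ht
    have e0 : ev (Rat.castHom ℂ) (mon D g.cusp r.1 * tup0 g r.2) t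
        = rowp D r.1 (yc g.cusp t) * evq (tup0 g r.2) t := by
      rw [← hm.1]; exact evq_mul hm.2 p0 ht
    have e1 : ev (Rat.castHom ℂ) (mon D g.cusp r.1 * tup1 g r.2) t
        = rowp D r.1 (yc g.cusp t) * evq (tup1 g r.2) t := by
      rw [← hm.1]; exact evq_mul hm.2 p1 ht
    rw [e0] at s0
    rw [e1] at s1
    have s2 := (s0.add (s1.mul_left xc)).mul_left (v r)
    have e2 : v r * (rowp D r.1 (yc g.cusp t) * evq (tup0 g r.2) t
        + xc * (rowp D r.1 (yc g.cusp t) * evq (tup1 g r.2) t))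
        = v r * (rowp D r.1 (yc g.cusp t) * tupC g t r.2) := by
      unfold tupC
      ring
    rw [e2] at s2
    refine s2.congr_fun ?_
    intro k
    have e3 : ((En D (Gc / 2) r (g, k) : ℝ) : ℂ)
        = (Rat.castHom ℂ) (coeff k (mon D g.cusp r.1 * tup0 g r.2))
          + xc * (Rat.castHom ℂ) (coeff k (mon D g.cusp r.1 * tup1 g r.2)) := by
      unfold En ent0 ent1 xc
      simp
    rw [e3]
    ring
  have h2 := hasSum_sum (s := Finset.univ) fun r _ => h1 r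
  refine h2.congr_fun fun k => ?_
  unfold Vale.Agent.P030.T.val
  rw [Finset.sum_mul]

/-! ### Cauchy's estimate -/

theorem norm_coeff_le {S : ℂ → ℂ} {c : ℕ → ℂ}
    (hS : ∀ z ∈ Metric.ball (0 : ℂ) 1, HasSum (fun k => c k * z ^ k) (S z)) {r M : ℝ}
    (hr : 0 < r) (hr1 : r < 1) (hM : ∀ z, ‖z‖ = r → ‖S z‖ ≤ M) (k : ℕ) :
    ‖c k‖ ≤ M / r ^ k := by
  obtain ⟨G, hG, hSG, -⟩ := Vale.Agent.P030.H352.exists_div_pow hS (m := 0)
    (fun k hk => absurd hk (Nat.not_lt_zero k))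
  have hSG' : ∀ z ∈ Metric.ball (0 : ℂ) 1, S z = G z := fun z hz => by
    rw [hSG z hz, pow_zero, one_mul]
  have hps : Vale.Agent.P030.H810.PS (PowerSeries.mk c) G := by
    refine Vale.Agent.P030.H810.PS.of_hasSum ?_
    filter_upwards [Metric.ball_mem_nhds (0 : ℂ) one_pos] with z hz
    have h1 := hS z hz
    rw [hSG' z hz] at h1
    simpa using h1
  have h1 : DiffContOnCl ℂ G (Metric.ball 0 r) :=
    hG.diffContOnCl_ball (Metric.closedBall_subset_ball hr1)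
  have h2 := Complex.norm_iteratedDeriv_le_of_forall_mem_sphere_norm_le k hr h1 (C := M)
    (fun z hz => by
      rw [mem_sphere_zero_iff_norm] at hz
      rw [← hSG' z (by rw [mem_ball_zero_iff, hz]; exact hr1)]
      exact hM z hz)
  have h3 := hps.2 k
  rw [coeff_mk] at h3
  have hk : ((k.factorial : ℕ) : ℂ) ≠ 0 := by exact_mod_cast k.factorial_ne_zero
  have hk' : (0 : ℝ) < (k.factorial : ℕ) := by exact_mod_cast k.factorial_pos
  rw [h3, norm_div, Complex.norm_natCast, div_le_iff₀ hk']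
  refine h2.trans (le_of_eq ?_)
  ring

end Vale.P030.H205
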