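import Vale.Agent.P030.H205.QR
import Vale.Agent.P030.H205.Block

/-!
# The algebraic determinant bound

Let `A k (f, a)` be the value of the `k`-th functional on `u^a e_f`.  If, for every `k`, every tuple
`P` of polynomials with `|P_f| ≤ √K · gauge_f` killed by the previous functionals satisfies
`|λ_k(P)| ≤ B_k`, then `|det A| · ∏ wt_f ≤ ∏ B_k`.
-/

namespace Vale.P030.H205

open Polynomial
open scoped BigOperators

theorem det_blockDiagonal'_fin {m : ℕ} {n : Fin m → ℕ}
    (M : ∀ f : Fin m, Matrix (Fin (n f)) (Fin (n f)) ℂ) :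
    (Matrix.blockDiagonal' M).det = ∏ f, (M f).det := by
  rw [(Matrix.blockTriangular_blockDiagonal' M).det_fintype]
  refine Finset.prod_congr rfl fun k _ => ?_
  let e : Fin (n k) ≃ {x : Σ f : Fin m, Fin (n f) // x.1 = k} :=
    { toFun := fun j => ⟨⟨k, j⟩, rfl⟩
      invFun := fun x => Fin.cast (by rw [x.2]) x.1.2
      left_inv := fun j => rfl
      right_inv := by
        rintro ⟨⟨f, j⟩, rfl⟩
        rfl }
  rw [← Matrix.det_submatrix_equiv_self e]
  refine congrArg Matrix.det ?_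
  ext i j
  simp [Matrix.toSquareBlock_def, e, Matrix.blockDiagonal'_apply_eq]

theorem det_bound {m K : ℕ} (L : Fin m → List Blk) (hL : ∀ f, ∀ b ∈ L f, 0 ≤ b.e)
    (e : Fin K ≃ (Σ f : Fin m, Fin (deg (L f))))
    (A : Matrix (Fin K) (Σ f : Fin m, Fin (deg (L f))) ℂ) (B : Fin K → ℝ)
    (hB : ∀ (k : Fin K) (P : Fin m → ℂ[X]), (∀ f, ∀ i, deg (L f) ≤ i → (P f).coeff i = 0) →
      (∀ f u, ‖(P f).eval u‖ ≤ √K * gauge (L f) u) →
      (∀ j < k, ∑ i : Σ f : Fin m, Fin (deg (L f)), A j i * (P i.1).coeff i.2 = 0) →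
      ‖∑ i : Σ f : Fin m, Fin (deg (L f)), A k i * (P i.1).coeff i.2‖ ≤ B k) :
    ‖(A.submatrix id e).det‖ * ∏ f, wt (L f) ≤ ∏ k, B k := by
  let C' : Matrix (Σ f : Fin m, Fin (deg (L f))) (Σ f : Fin m, Fin (deg (L f))) ℂ :=
    Matrix.blockDiagonal' (fun f => cmat (fam (L f)))
  have hC : ‖C'.det‖ = ∏ f, wt (L f) := by
    rw [det_blockDiagonal'_fin, norm_prod]
    exact Finset.prod_congr rfl fun f _ => norm_det_cmat_fam (L f) (hL f)
  have hdet : ‖((A * C').submatrix id e).det‖ = ‖(A.submatrix id e).det‖ * ∏ f, wt (L f) := by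
    have h1 : (A * C').submatrix id e = (A.submatrix id e) * (C'.submatrix e e) := by
      rw [Matrix.submatrix_mul_equiv]
    rw [h1, Matrix.det_mul, norm_mul, Matrix.det_submatrix_equiv_self, hC]
  rw [← hdet]
  refine norm_det_le_prod _ B fun k x hx hk => ?_
  -- the tuple of polynomials
  let P : Fin m → ℂ[X] := fun f => ∑ i : Fin (deg (L f)), C (x (e.symm ⟨f, i⟩)) * fam (L f) i
  have hcoef : ∀ f i, (P f).coeff i = ∑ j : Fin (deg (L f)),
      x (e.symm ⟨f, j⟩) * (fam (L f) j).coeff i := by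
    intro f i
    simp only [P, finsetSum_coeff, coeff_C_mul]
  have hval : ∀ j : Fin K, ∑ i, ((A * C').submatrix id e) j i * x i =
      ∑ i : Σ f : Fin m, Fin (deg (L f)), A j i * (P i.1).coeff i.2 := by
    intro j
    have h1 : ∑ i, ((A * C').submatrix id e) j i * x i =
        ∑ t : Σ f : Fin m, Fin (deg (L f)), (A * C') j t * x (e.symm t) := by
      rw [← Equiv.sum_comp e]
      simp
    rw [h1]
    simp only [Matrix.mul_apply, Finset.sum_mul]
    rw [Finset.sum_comm]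
    refine Finset.sum_congr rfl fun i _ => ?_
    obtain ⟨f, a⟩ := i
    rw [hcoef, Finset.mul_sum, Fintype.sum_sigma]
    rw [Finset.sum_eq_single f]
    · refine Finset.sum_congr rfl fun j _ => ?_
      have : C' ⟨f, a⟩ ⟨f, j⟩ = (fam (L f) j).coeff a := by
        simp only [C', Matrix.blockDiagonal'_apply_eq]; rfl
      rw [this]; ring
    · intro g _ hg
      refine Finset.sum_eq_zero fun j _ => ?_
      have : C' ⟨f, a⟩ ⟨g, j⟩ = 0 := by
        simp only [C']
        exact Matrix.blockDiagonal'_apply_ne _ _ _ (Ne.symm hg)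
      rw [this]; ring
    · intro h; exact absurd (Finset.mem_univ f) h
  rw [hval]
  refine hB k P ?_ ?_ ?_
  · intro f i hi
    rw [hcoef]
    refine Finset.sum_eq_zero fun j _ => ?_
    rw [coeff_eq_zero_of_natDegree_lt (lt_of_lt_of_le (fam_natDegree_lt (L f) j) hi), mul_zero]
  · intro f u
    have h1 : ‖(P f).eval u‖ ≤ ∑ j : Fin (deg (L f)), ‖x (e.symm ⟨f, j⟩)‖ * gauge (L f) u := by
      simp only [P, eval_finsetSum]
      refine (norm_sum_le _ _).trans (Finset.sum_le_sum fun j _ => ?_)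
      rw [eval_mul, eval_C, norm_mul]
      exact mul_le_mul_of_nonneg_left (norm_eval_fam_le (L f) (hL f) u j) (norm_nonneg _)
    refine h1.trans ?_
    rw [← Finset.sum_mul]
    refine mul_le_mul_of_nonneg_right ?_ (gauge_nonneg _ _)
    have h2 : ∑ j : Fin (deg (L f)), ‖x (e.symm ⟨f, j⟩)‖ ≤ ∑ i : Fin K, ‖x i‖ := by
      have h3 : ∑ i : Fin K, ‖x i‖ = ∑ g : Fin m, ∑ j : Fin (deg (L g)), ‖x (e.symm ⟨g, j⟩)‖ := by
        rw [← Fintype.sum_sigma (fun t : Σ g : Fin m, Fin (deg (L g)) => ‖x (e.symm t)‖)]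
        exact (Equiv.sum_comp e.symm (fun i => ‖x i‖)).symm
      rw [h3]
      exact Finset.single_le_sum (f := fun g => ∑ j : Fin (deg (L g)), ‖x (e.symm ⟨g, j⟩)‖)
        (fun g _ => Finset.sum_nonneg fun j _ => norm_nonneg _) (Finset.mem_univ f)
    refine h2.trans ?_
    have h4 : (∑ i : Fin K, ‖x i‖) ^ 2 ≤ K * ∑ i : Fin K, ‖x i‖ ^ 2 := by
      have := sq_sum_le_card_mul_sum_sq (s := (Finset.univ : Finset (Fin K))) (f := fun i => ‖x i‖)
      simpa using this
    refine Real.le_sqrt_of_sq_le (h4.trans ?_)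
    have : (0 : ℝ) ≤ K := Nat.cast_nonneg K
    nlinarith
  · intro j hj
    rw [← hval]
    exact hk j hj

end Vale.P030.H205
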