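import Vale.Agent.P030.H205.Pivot
import Vale.Agent.P030.H205.Arch

/-!
# Archimedean bound for an arbitrary row frame, extended columns, pivots

* `N ≥ K` ordered functionals (rows of `A`) on `ℂ^ι`, `#ι = K`, without common zero;
* a row frame `F` (columns of `F` = the new basis vectors);
* on the combinations killed by all previous functionals the `n`-th one is `≤ |g 0|`, with `g`
  analytic on a disc and `|g| ≤ (∑ |x_i|) exp φ_n` on its circle.

Then some `K` of the functionals (strictly increasing choice `σ`) satisfy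
`0 ≠ |det A_σ| · |det F| ≤ ∏_k √K exp (mean φ_{σ k})`.
-/

namespace Vale.P030.H205

open Polynomial Metric Real
open scoped BigOperators

theorem arch_frame {K N : ℕ} {ι : Type*} [Fintype ι] [DecidableEq ι] (e : Fin K ≃ ι)
    (A : Matrix (Fin N) ι ℂ) (F : Matrix ι ι ℂ) (hF : F.det ≠ 0)
    (hinj : ∀ x : ι → ℂ, (∀ n, ∑ i, A n i * x i = 0) → x = 0)
    (r : Fin N → ℝ) (hr : ∀ n, 0 < r n) (φ : Fin N → ℂ → ℝ)
    (hφ : ∀ n, CircleIntegrable (φ n) 0 (r n))
    (hana : ∀ (n : Fin N) (x : ι → ℂ), (∀ j < n, ∑ i, (A * F) j i * x i = 0) →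
      ∃ g : ℂ → ℂ, AnalyticOnNhd ℂ g (closedBall 0 (r n)) ∧
        ‖∑ i, (A * F) n i * x i‖ ≤ ‖g 0‖ ∧
        ∀ z ∈ sphere (0 : ℂ) (r n), ‖g z‖ ≤ (∑ i, ‖x i‖) * Real.exp (φ n z)) :
    ∃ σ : Fin K → Fin N, StrictMono σ ∧ (A.submatrix σ e).det ≠ 0 ∧
      ‖(A.submatrix σ e).det‖ * ‖F.det‖ ≤
        ∏ k, (√K * Real.exp (circleAverage (φ (σ k)) 0 (r (σ k)))) := by
  have hsum : ∀ (w : ι → ℂ) (x : Fin K → ℂ), ∑ i : Fin K, w (e i) * x i =
      ∑ i : ι, w i * x (e.symm i) := by
    intro w x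
    rw [← Equiv.sum_comp e]
    simp
  have key := exists_pivot_det_le ((A * F).submatrix id e)
    (fun n => √K * Real.exp (circleAverage (φ n) 0 (r n))) ?_ ?_
  · obtain ⟨σ, hσ, hdet, hle⟩ := key
    have hmul : ∀ σ : Fin K → Fin N, (((A * F).submatrix id e).submatrix σ id) =
        (A.submatrix σ e) * (F.submatrix e e) := by
      intro σ
      rw [Matrix.submatrix_mul_equiv, Matrix.submatrix_submatrix]
      rfl
    rw [hmul, Matrix.det_mul, Matrix.det_submatrix_equiv_self] at hdet hle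
    refine ⟨σ, hσ, left_ne_zero_of_mul hdet, ?_⟩
    rw [← norm_mul]
    exact hle
  · intro x hx
    have h1 : ∀ n, ∑ i, A n i * (F.mulVec (fun i => x (e.symm i))) i = 0 := by
      intro n
      have h2 := hx n
      have h3 : ∑ i : Fin K, (A * F).submatrix id e n i * x i =
          ∑ i : ι, (A * F) n i * x (e.symm i) := hsum (fun i => (A * F) n i) x
      rw [h3] at h2
      rw [← h2]
      simp only [Matrix.mulVec, dotProduct, Matrix.mul_apply, Finset.mul_sum, Finset.sum_mul]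
      rw [Finset.sum_comm]
      refine Finset.sum_congr rfl fun i _ => Finset.sum_congr rfl fun j _ => ?_
      ring
    have h4 := hinj _ h1
    have h5 : (fun i => x (e.symm i)) = 0 := by
      by_contra hne
      exact hne (Matrix.eq_zero_of_mulVec_eq_zero hF h4)
    funext i
    simpa using congrFun h5 (e i)
  · intro n x hx hn
    have h3 : ∀ n, ∑ i : Fin K, (A * F).submatrix id e n i * x i =
        ∑ i : ι, (A * F) n i * x (e.symm i) := fun n => hsum (fun i => (A * F) n i) x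
    rw [h3]
    obtain ⟨g, hg, hg0, hgz⟩ := hana n (fun i => x (e.symm i)) (fun j hj => by
      rw [← h3]; exact hn j hj)
    refine hg0.trans ?_
    have hxs : ∑ i : ι, ‖x (e.symm i)‖ ≤ √(K : ℝ) := by
      have h6 : ∑ i : ι, ‖x (e.symm i)‖ = ∑ i : Fin K, ‖x i‖ :=
        Equiv.sum_comp e.symm (fun i => ‖x i‖)
      rw [h6]
      have h4 : (∑ i : Fin K, ‖x i‖) ^ 2 ≤ K * ∑ i : Fin K, ‖x i‖ ^ 2 := by
        have := sq_sum_le_card_mul_sum_sq (s := (Finset.univ : Finset (Fin K)))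
          (f := fun i => ‖x i‖)
        simpa using this
      refine Real.le_sqrt_of_sq_le (h4.trans ?_)
      have : (0 : ℝ) ≤ K := Nat.cast_nonneg K
      nlinarith
    rcases Nat.eq_zero_or_pos K with hK | hK
    · subst hK
      have h7 : ∀ z ∈ sphere (0 : ℂ) (r n), ‖g z‖ ≤ 0 := by
        intro z hz
        refine (hgz z hz).trans ?_
        have h8 : ∑ i : ι, ‖x (e.symm i)‖ ≤ 0 := by simpa using hxs
        exact mul_nonpos_of_nonpos_of_nonneg h8 (Real.exp_pos _).le
      have h9 : ‖g 0‖ ≤ 0 := by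
        have hc : ContinuousOn g (closedBall 0 (r n)) := hg.continuousOn
        have hd : DiffContOnCl ℂ g (ball 0 (r n)) := by
          refine ⟨hg.differentiableOn.mono ball_subset_closedBall, ?_⟩
          rw [closure_ball _ (hr n).ne']
          exact hc
        refine Complex.norm_le_of_forall_mem_frontier_norm_le (U := ball (0 : ℂ) (r n))
          isBounded_ball hd (fun z hz => ?_) (by
            rw [closure_ball _ (hr n).ne']; exact mem_closedBall_self (hr n).le)
        rw [frontier_ball _ (hr n).ne'] at hz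
        exact h7 z hz
      simpa using h9
    · have hKpos : 0 < (K : ℝ) := by exact_mod_cast hK
      have hs : 0 < √(K : ℝ) := Real.sqrt_pos.2 hKpos
      have h1 : ‖g 0‖ ≤ Real.exp (circleAverage (fun z => Real.log √(K : ℝ) + φ n z) 0 (r n)) := by
        refine norm_le_exp_circleAverage (hr n) hg ?_ fun z hz => ?_
        · exact (circleIntegrable_const _ _ _).add (hφ n)
        · rw [Real.exp_add, Real.exp_log hs]
          exact (hgz z hz).trans (mul_le_mul_of_nonneg_right hxs (Real.exp_pos _).le)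
      rw [circleAverage_fun_add (circleIntegrable_const _ _ _) (hφ n), circleAverage_const,
        Real.exp_add, Real.exp_log hs] at h1
      exact h1

/-- The block frame. -/
noncomputable def blockFrame {m : ℕ} (L : Fin m → List Blk) :
    Matrix (Σ f : Fin m, Fin (deg (L f))) (Σ f : Fin m, Fin (deg (L f))) ℂ :=
  Matrix.blockDiagonal' (fun f => cmat (fam (L f)))

theorem norm_det_blockFrame {m : ℕ} (L : Fin m → List Blk) (hL : ∀ f, ∀ b ∈ L f, 0 ≤ b.e) :
    ‖(blockFrame L).det‖ = ∏ f, wt (L f) := by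
  rw [blockFrame, det_blockDiagonal'_fin, norm_prod]
  exact Finset.prod_congr rfl fun f _ => norm_det_cmat_fam (L f) (hL f)

/-- the polynomial tuple of a coordinate vector in the block frame -/
noncomputable def tup {m : ℕ} (L : Fin m → List Blk) (x : (Σ f : Fin m, Fin (deg (L f))) → ℂ)
    (f : Fin m) : ℂ[X] :=
  ∑ i : Fin (deg (L f)), C (x ⟨f, i⟩) * fam (L f) i

theorem sum_mul_blockFrame {m N : ℕ} (L : Fin m → List Blk)
    (A : Matrix (Fin N) (Σ f : Fin m, Fin (deg (L f))) ℂ)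
    (x : (Σ f : Fin m, Fin (deg (L f))) → ℂ) (n : Fin N) :
    ∑ i, (A * blockFrame L) n i * x i =
      ∑ i : Σ f : Fin m, Fin (deg (L f)), A n i * (tup L x i.1).coeff i.2 := by
  simp only [Matrix.mul_apply, Finset.sum_mul]
  rw [Finset.sum_comm]
  refine Finset.sum_congr rfl fun i _ => ?_
  obtain ⟨f, a⟩ := i
  have hcoef : (tup L x f).coeff a = ∑ j : Fin (deg (L f)), x ⟨f, j⟩ * (fam (L f) j).coeff a := by
    simp only [tup, finsetSum_coeff, coeff_C_mul]
  rw [hcoef, Finset.mul_sum, Fintype.sum_sigma]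
  rw [Finset.sum_eq_single f]
  · refine Finset.sum_congr rfl fun j _ => ?_
    have : blockFrame L ⟨f, a⟩ ⟨f, j⟩ = (fam (L f) j).coeff a := by
      simp only [blockFrame, Matrix.blockDiagonal'_apply_eq]; rfl
    rw [this]; ring
  · intro g _ hg
    refine Finset.sum_eq_zero fun j _ => ?_
    have : blockFrame L ⟨f, a⟩ ⟨g, j⟩ = 0 := by
      simp only [blockFrame]
      exact Matrix.blockDiagonal'_apply_ne _ _ _ (Ne.symm hg)
    rw [this]; ring
  · intro h; exact absurd (Finset.mem_univ f) h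

theorem tup_coeff_eq_zero {m : ℕ} (L : Fin m → List Blk)
    (x : (Σ f : Fin m, Fin (deg (L f))) → ℂ) (f : Fin m) (i : ℕ) (hi : deg (L f) ≤ i) :
    (tup L x f).coeff i = 0 := by
  simp only [tup, finsetSum_coeff, coeff_C_mul]
  refine Finset.sum_eq_zero fun j _ => ?_
  rw [coeff_eq_zero_of_natDegree_lt (lt_of_lt_of_le (fam_natDegree_lt (L f) j) hi), mul_zero]

theorem norm_eval_tup_le {m : ℕ} (L : Fin m → List Blk) (hL : ∀ f, ∀ b ∈ L f, 0 ≤ b.e)
    (x : (Σ f : Fin m, Fin (deg (L f))) → ℂ) (f : Fin m) (u : ℂ) :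
    ‖(tup L x f).eval u‖ ≤ (∑ i, ‖x i‖) * gauge (L f) u := by
  have h1 : ‖(tup L x f).eval u‖ ≤ ∑ j : Fin (deg (L f)), ‖x ⟨f, j⟩‖ * gauge (L f) u := by
    simp only [tup, eval_finsetSum]
    refine (norm_sum_le _ _).trans (Finset.sum_le_sum fun j _ => ?_)
    rw [eval_mul, eval_C, norm_mul]
    exact mul_le_mul_of_nonneg_left (norm_eval_fam_le (L f) (hL f) u j) (norm_nonneg _)
  refine h1.trans ?_
  rw [← Finset.sum_mul]
  refine mul_le_mul_of_nonneg_right ?_ (gauge_nonneg _ _)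
  rw [Fintype.sum_sigma]
  exact Finset.single_le_sum (f := fun g => ∑ j : Fin (deg (L g)), ‖x ⟨g, j⟩‖)
    (fun g _ => Finset.sum_nonneg fun j _ => norm_nonneg _) (Finset.mem_univ f)

/-- Block version with extended columns: the statement to be used with the one-metric or the
per-function metric. -/
theorem arch_block {m K N : ℕ} (L : Fin m → List Blk) (hL : ∀ f, ∀ b ∈ L f, 0 ≤ b.e)
    (hwt : ∀ f, 0 < wt (L f)) (e : Fin K ≃ (Σ f : Fin m, Fin (deg (L f))))
    (A : Matrix (Fin N) (Σ f : Fin m, Fin (deg (L f))) ℂ)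
    (hinj : ∀ x : (Σ f : Fin m, Fin (deg (L f))) → ℂ, (∀ n, ∑ i, A n i * x i = 0) → x = 0)
    (r : Fin N → ℝ) (hr : ∀ n, 0 < r n) (h : Fin N → ℂ → ℂ) (φ : Fin N → ℂ → ℝ)
    (hφ : ∀ n, CircleIntegrable (φ n) 0 (r n))
    (hana : ∀ (n : Fin N) (P : Fin m → ℂ[X]), (∀ f, ∀ i, deg (L f) ≤ i → (P f).coeff i = 0) →
      (∀ j < n, ∑ i : Σ f : Fin m, Fin (deg (L f)), A j i * (P i.1).coeff i.2 = 0) →
      ∃ g : ℂ → ℂ, AnalyticOnNhd ℂ g (closedBall 0 (r n)) ∧
        ‖∑ i : Σ f : Fin m, Fin (deg (L f)), A n i * (P i.1).coeff i.2‖ ≤ ‖g 0‖ ∧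
        ∀ z ∈ sphere (0 : ℂ) (r n), ∀ T : ℝ, 0 ≤ T →
          (∀ f, ‖(P f).eval (h n z)‖ ≤ T * gauge (L f) (h n z)) → ‖g z‖ ≤ T * Real.exp (φ n z)) :
    ∃ σ : Fin K → Fin N, StrictMono σ ∧ (A.submatrix σ e).det ≠ 0 ∧
      ‖(A.submatrix σ e).det‖ * ∏ f, wt (L f) ≤
        ∏ k, (√K * Real.exp (circleAverage (φ (σ k)) 0 (r (σ k)))) := by
  have hdetF : (blockFrame L).det ≠ 0 := by
    rw [← norm_ne_zero_iff, norm_det_blockFrame L hL]
    exact (Finset.prod_pos fun f _ => hwt f).ne'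
  rw [← norm_det_blockFrame L hL]
  refine arch_frame e A (blockFrame L) hdetF hinj r hr φ hφ fun n x hx => ?_
  obtain ⟨g, hg, hg0, hgz⟩ := hana n (tup L x) (fun f i hi => tup_coeff_eq_zero L x f i hi)
    (fun j hj => by rw [← sum_mul_blockFrame]; exact hx j hj)
  refine ⟨g, hg, ?_, fun z hz => ?_⟩
  · rw [sum_mul_blockFrame]; exact hg0
  · exact hgz z hz _ (Finset.sum_nonneg fun i _ => norm_nonneg _)
      (fun f => norm_eval_tup_le L hL x f _)

theorem coeff_zero_aux (q : FormalMultilinearSeries ℂ ℂ ℂ) (v : Fin 0 → ℂ) :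
    q 0 v = q.coeff 0 := by
  change q 0 v = q 0 1
  exact congrArg (q 0) (funext fun i => i.elim0)

/-- Order extraction: if the Taylor coefficients of `s` below `n` vanish, then `s = z^n g`. -/
theorem exists_quot {R : ℝ} (hR : 0 < R) {s : ℂ → ℂ} (hs : DifferentiableOn ℂ s (ball 0 R))
    {p : FormalMultilinearSeries ℂ ℂ ℂ} (hp : HasFPowerSeriesAt s p 0) (n : ℕ)
    (hc : ∀ j < n, p.coeff j = 0) :
    ∃ g : ℂ → ℂ, DifferentiableOn ℂ g (ball 0 R) ∧ (∀ z, s z = z ^ n * g z) ∧
      g 0 = p.coeff n := by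
  have key : ∀ k ≤ n, DifferentiableOn ℂ ((Function.swap dslope (0 : ℂ))^[k] s) (ball 0 R) ∧
      ∀ z, s z = z ^ k * ((Function.swap dslope (0 : ℂ))^[k] s) z := by
    intro k
    induction k with
    | zero => intro _; exact ⟨hs, fun z => by simp⟩
    | succ k ih =>
      intro hk
      obtain ⟨h1, h2⟩ := ih (by omega)
      have h3 : (Function.swap dslope (0 : ℂ))^[k + 1] s =
          dslope ((Function.swap dslope (0 : ℂ))^[k] s) 0 := by
        rw [Function.iterate_succ_apply']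
      have h4 : ((Function.swap dslope (0 : ℂ))^[k] s) 0 = 0 := by
        have h5 := hp.has_fpower_series_iterate_dslope_fslope k
        have h6 := h5.coeff_zero (fun _ => 0)
        have h7 : (FormalMultilinearSeries.fslope^[k] p).coeff 0 = p.coeff k := by
          rw [FormalMultilinearSeries.coeff_iterate_fslope, zero_add]
        rw [← h6, coeff_zero_aux, h7]
        exact hc k (by omega)
      refine ⟨?_, fun z => ?_⟩
      · rw [h3]
        exact (Complex.differentiableOn_dslope (ball_mem_nhds 0 hR)).2 h1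
      · rw [h3, h2 z]
        have h5 := sub_smul_dslope ((Function.swap dslope (0 : ℂ))^[k] s) 0 z
        rw [h4, sub_zero, sub_zero, smul_eq_mul] at h5
        rw [← h5]; ring
  obtain ⟨h1, h2⟩ := key n le_rfl
  refine ⟨_, h1, h2, ?_⟩
  have h5 := hp.has_fpower_series_iterate_dslope_fslope n
  have h6 := h5.coeff_zero (fun _ => 0)
  have h7 : (FormalMultilinearSeries.fslope^[n] p).coeff 0 = p.coeff n := by
    rw [FormalMultilinearSeries.coeff_iterate_fslope, zero_add]
  rw [← h7, ← h6, coeff_zero_aux]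

end Vale.P030.H205
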