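import Vale.Agent.P030.H205.InvSer

/-!
# P030: the frame at the cusp c3, abstract form

`y = 1/t` is the polynomial variable.  The row monomials are
`(-2)^(-(D-1)) (y+1)^i (y-1)^(D-1-i)`; the frame vectors are the polynomial parts of
`y^a b_i(1/y) R_i^(-a)`, where `b_i` are the columns of the inverse of a matrix `G` of power
series in `t`.
-/

open PowerSeries Finset Matrix

namespace Vale.P030.H205

/-- the row monomial in `t` (times `t^(D-1)`), a polynomial -/
noncomputable def mp (D i : ℕ) : Polynomial ℂ :=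
  Polynomial.C (((-2 : ℂ) ^ (D - 1))⁻¹) *
    ((1 + Polynomial.X) ^ i * (1 - Polynomial.X) ^ (D - 1 - i))

theorem natDegree_mp {D i : ℕ} (hi : i < D) : (mp D i).natDegree < D := by
  unfold mp
  have h1 : ((1 : Polynomial ℂ) + Polynomial.X).natDegree ≤ 1 := by
    refine (Polynomial.natDegree_add_le _ _).trans ?_
    simp
  have h2 : ((1 : Polynomial ℂ) - Polynomial.X).natDegree ≤ 1 := by
    refine (Polynomial.natDegree_sub_le _ _).trans ?_
    simp
  have h3 := Polynomial.natDegree_pow_le_of_le i h1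
  have h4 := Polynomial.natDegree_pow_le_of_le (D - 1 - i) h2
  have h5 := Polynomial.natDegree_mul_le (p := ((1 : Polynomial ℂ) + Polynomial.X) ^ i)
    (q := ((1 : Polynomial ℂ) - Polynomial.X) ^ (D - 1 - i))
  have h6 := Polynomial.natDegree_C_mul_le (((-2 : ℂ) ^ (D - 1))⁻¹)
    (((1 : Polynomial ℂ) + Polynomial.X) ^ i * (1 - Polynomial.X) ^ (D - 1 - i))
  omega

/-- the matrix of the row monomials in the basis `y^b` -/
noncomputable def MM (D : ℕ) : Matrix (Fin D) (Fin D) ℂ :=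
  Matrix.of fun i b => (mp D i).coeff (D - 1 - b)

theorem eval_mp (D i : ℕ) (t : ℂ) : (mp D i).eval t
    = ((-2 : ℂ) ^ (D - 1))⁻¹ * ((1 + t) ^ i * (1 - t) ^ (D - 1 - i)) := by
  unfold mp
  simp

theorem sum_MM {D : ℕ} (i : Fin D) {y : ℂ} (hy : y ≠ 0) :
    ∑ b : Fin D, MM D i b * y ^ (b : ℕ)
      = ((-2 : ℂ) ^ (D - 1))⁻¹ * ((y + 1) ^ (i : ℕ) * (y - 1) ^ (D - 1 - i)) := by
  have h1 : ∑ b : Fin D, MM D i b * y ^ (b : ℕ)
      = ∑ b ∈ range D, (mp D i).coeff (D - 1 - b) * y ^ b := by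
    rw [Finset.sum_range]
    rfl
  have h2 : y ^ (D - 1) * (mp D i).eval y⁻¹
      = ∑ b ∈ range D, (mp D i).coeff (D - 1 - b) * y ^ b := by
    rw [Polynomial.eval_eq_sum_range' (natDegree_mp i.2), ← Finset.sum_range_reflect,
      Finset.mul_sum]
    refine Finset.sum_congr rfl fun b hb => ?_
    have hb' : b < D := mem_range.1 hb
    have : D - 1 = b + (D - 1 - b) := by omega
    rw [show y ^ (D - 1) = y ^ b * y ^ (D - 1 - b) by rw [← pow_add, ← this], inv_pow]
    field_simp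
  rw [h1, ← h2, eval_mp]
  have h3 : D - 1 = i + (D - 1 - i) := by omega
  have h4 : y ^ (D - 1) = y ^ (i : ℕ) * y ^ (D - 1 - i) := by rw [← pow_add, ← h3]
  have h5 : y ^ (i : ℕ) * (1 + y⁻¹) ^ (i : ℕ) = (y + 1) ^ (i : ℕ) := by
    rw [← mul_pow]
    congr 1
    field_simp
  have h6 : y ^ (D - 1 - i) * (1 - y⁻¹) ^ (D - 1 - i) = (y - 1) ^ (D - 1 - i) := by
    rw [← mul_pow]
    congr 1
    field_simp
  rw [h4, ← h5, ← h6]
  ring

theorem card_pairs (D : ℕ) : ∑ i : Fin D, ((Ioi i).card) = D * (D - 1) / 2 := by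
  have h1 : ∀ i : Fin D, (Ioi i).card = D - 1 - i := fun i => Fin.card_Ioi i
  simp_rw [h1]
  rw [← Finset.sum_range (fun i => D - 1 - i), ← Finset.sum_range_reflect, Finset.sum_congr rfl
    (g := fun i => i), Finset.sum_range_id]
  intro i hi
  have := mem_range.1 hi
  omega

theorem det_MM (D : ℕ) : (MM D).det
    = (((-2 : ℂ) ^ (D - 1))⁻¹) ^ D * (-2) ^ (D * (D - 1) / 2) := by
  classical
  set y : Fin D → ℂ := fun k => (k : ℂ) + 1 with hy
  have hy0 : ∀ k, y k ≠ 0 := fun k => by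
    simp only [hy]
    exact_mod_cast Nat.succ_ne_zero k
  have h1 : vandermonde y * (MM D)ᵀ
      = ((-2 : ℂ) ^ (D - 1))⁻¹ • projVandermonde (fun k => y k + 1) (fun k => y k - 1) := by
    ext k i
    rw [Matrix.mul_apply, Matrix.smul_apply, projVandermonde_apply, smul_eq_mul, Fin.val_rev]
    simp_rw [Matrix.vandermonde_apply, Matrix.transpose_apply]
    have := sum_MM i (hy0 k)
    simp_rw [mul_comm (MM D i _)] at this
    rw [this]
    congr 3
    omega
  have h2 := congrArg Matrix.det h1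
  rw [Matrix.det_mul, Matrix.det_transpose, Matrix.det_smul, Fintype.card_fin,
    det_projVandermonde] at h2
  have h3 : ∏ i : Fin D, ∏ j ∈ Ioi i, ((y j + 1) * (y i - 1) - (y i + 1) * (y j - 1))
      = (-2) ^ (D * (D - 1) / 2) * (vandermonde y).det := by
    rw [Matrix.det_vandermonde, ← card_pairs, ← Finset.prod_pow_eq_pow_sum,
      ← Finset.prod_mul_distrib]
    refine Finset.prod_congr rfl fun i _ => ?_
    rw [← Finset.prod_const, ← Finset.prod_mul_distrib]
    refine Finset.prod_congr rfl fun j _ => ?_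
    ring
  rw [h3] at h2
  have h4 : (vandermonde y).det ≠ 0 := by
    rw [Matrix.det_vandermonde_ne_zero_iff]
    intro a b hab
    simp only [hy] at hab
    have : ((a : ℕ) : ℂ) = ((b : ℕ) : ℂ) := by
      simpa using hab
    exact Fin.ext (Nat.cast_injective this)
  refine mul_left_cancel₀ h4 ?_
  rw [h2]
  ring

theorem norm_det_MM {D : ℕ} (hD : 0 < D) :
    ‖(MM D).det‖ = Real.exp (-((D : ℝ) * (D - 1) / 2) * Real.log 2) := by
  have h2 : (2 : ℝ) = Real.exp (Real.log 2) := (Real.exp_log (by norm_num)).symm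
  rw [det_MM, norm_mul, norm_pow, norm_inv, norm_pow, norm_pow, norm_neg, Complex.norm_ofNat]
  have hpar : D * (D - 1) / 2 * 2 = D * (D - 1) :=
    Nat.div_mul_cancel (Nat.even_mul_pred_self D).two_dvd
  have h3 : ((D * (D - 1) / 2 : ℕ) : ℝ) = (D : ℝ) * (D - 1) / 2 := by
    have := congrArg (Nat.cast (R := ℝ)) hpar
    rw [Nat.cast_mul, Nat.cast_mul, Nat.cast_sub hD] at this
    push_cast at this
    linarith
  have h4 : ∀ n : ℕ, (2 : ℝ) ^ n = Real.exp (n * Real.log 2) := by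
    intro n
    rw [Real.exp_nat_mul, Real.exp_log (by norm_num)]
  rw [inv_pow, ← pow_mul, h4, h4, ← Real.exp_neg, ← Real.exp_add, h3]
  congr 1
  rw [Nat.cast_mul, Nat.cast_sub hD]
  push_cast
  ring

variable {ι : Type*} [Fintype ι] [DecidableEq ι]

/-- frame vectors in the basis `y^b e_j` -/
noncomputable def BB (D : ℕ) (B : Matrix ι ι ℂ⟦X⟧) (R : ι → ℝ) :
    Matrix (Fin D × ι) (Fin D × ι) ℂ :=
  Matrix.of fun r c => if (c.1 : ℕ) ≤ r.1 then
    ((R r.2 : ℂ) ^ (r.1 : ℕ))⁻¹ * coeff ((r.1 : ℕ) - c.1) (B c.2 r.2) else 0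

theorem det_BB (D : ℕ) (B : Matrix ι ι ℂ⟦X⟧) (R : ι → ℝ) : (BB D B R).det
    = ∏ a : Fin D, ((∏ i, ((R i : ℂ) ^ (a : ℕ))⁻¹) * (cst B).det) := by
  classical
  rw [← Matrix.det_transpose]
  have htri : (BB D B R)ᵀ.BlockTriangular (Prod.fst : Fin D × ι → Fin D) := by
    intro r c h
    have h' : (c.1 : ℕ) < r.1 := h
    rw [Matrix.transpose_apply]
    unfold BB
    rw [Matrix.of_apply, if_neg (by omega)]
  rw [htri.det_fintype]
  refine Finset.prod_congr rfl fun a _ => ?_
  let e : ι ≃ { x : Fin D × ι // x.1 = a } :=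
    { toFun := fun i => ⟨(a, i), rfl⟩
      invFun := fun x => x.1.2
      left_inv := fun i => rfl
      right_inv := fun x => by
        obtain ⟨⟨b, i⟩, hb⟩ := x
        simp only at hb
        subst hb
        rfl }
  rw [← Matrix.det_submatrix_equiv_self e, ← Matrix.det_mul_row]
  congr 1
  ext j i
  simp only [Matrix.submatrix_apply, Matrix.toSquareBlock_def, Matrix.of_apply,
    Matrix.transpose_apply, BB, e, Equiv.coe_fn_mk, le_refl, if_true, Nat.sub_self, cst,
    Matrix.map_apply, coeff_zero_eq_constantCoeff_apply]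

theorem norm_det_BB {D : ℕ} (hD : 0 < D) (B : Matrix ι ι ℂ⟦X⟧) {R : ι → ℝ} (hR : ∀ i, 0 < R i)
    (hB : (cst B).det ≠ 0) : ‖(BB D B R).det‖
    = Real.exp (-((D : ℝ) * (D - 1) / 2) * (∑ i, Real.log (R i))
      + D * Real.log ‖(cst B).det‖) := by
  rw [det_BB, norm_prod]
  have h1 : ∀ a : Fin D, ‖(∏ i, ((R i : ℂ) ^ (a : ℕ))⁻¹) * (cst B).det‖
      = Real.exp (-(a : ℕ) * (∑ i, Real.log (R i)) + Real.log ‖(cst B).det‖) := by
    intro a
    rw [norm_mul, norm_prod, Real.exp_add, Real.exp_log (norm_pos_iff.2 hB), Finset.mul_sum,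
      Real.exp_sum]
    congr 1
    refine Finset.prod_congr rfl fun i _ => ?_
    rw [norm_inv, norm_pow, Complex.norm_real, Real.norm_of_nonneg (hR i).le, neg_mul,
      Real.exp_neg, Real.exp_nat_mul, Real.exp_log (hR i)]
  simp_rw [h1]
  rw [← Real.exp_sum, Finset.sum_add_distrib, ← Finset.sum_mul, Finset.sum_const, card_univ,
    Fintype.card_fin, nsmul_eq_mul, Finset.sum_neg_distrib]
  have h2 : ∑ a : Fin D, ((a : ℕ) : ℝ) = (D : ℝ) * (D - 1) / 2 := by
    rw [← Finset.sum_range (fun a => (a : ℝ)), ← Nat.cast_sum, Finset.sum_range_id]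
    have hpar : D * (D - 1) / 2 * 2 = D * (D - 1) :=
      Nat.div_mul_cancel (Nat.even_mul_pred_self D).two_dvd
    have := congrArg (Nat.cast (R := ℝ)) hpar
    rw [Nat.cast_mul, Nat.cast_mul, Nat.cast_sub hD] at this
    push_cast at this
    linarith
  rw [h2]

end Vale.P030.H205
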