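import Vale.Agent.P030.H205.FrameC3b
import Vale.Agent.P030.T.ArRed
import Vale.Agent.P030.AR.Vec

/-!
# P030: the frame at the cusp c3 for the frame T

`rowp D i y` is the row monomial as a function of `y = (u+1)/(u-1)`.
-/

open PowerSeries Finset Matrix

namespace Vale.P030.H205

open Vale.Agent.P030.T Vale.Agent.P030.H462 Vale.Agent.P030.AR

/-- complex version of a rational power series -/
noncomputable abbrev cs (f : ℚ⟦X⟧) : ℂ⟦X⟧ := PowerSeries.map (Rat.castHom ℂ) f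

theorem evl_cs (f : ℚ⟦X⟧) (t : ℂ) : evl (cs f) t = evq f t := by
  unfold evl evq ev
  refine tsum_congr fun n => ?_
  rw [PowerSeries.coeff_map]

theorem gb_of_pg {f : ℚ⟦X⟧} (h : PG (Rat.castHom ℂ) f) : ∃ C, GB C 2 (cs f) := by
  obtain ⟨C, k, hC, h⟩ := h
  have hs := summable_pg_aux k (r := 1 / 2) (by norm_num) (by norm_num)
  obtain ⟨M, hM⟩ := hs.tendsto_atTop_zero.bddAbove_range
  have hM' : ∀ n : ℕ, ((n : ℝ) + 1) ^ k * (1 / 2) ^ n ≤ M := fun n => hM ⟨n, rfl⟩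
  refine ⟨C * M, fun n => ?_⟩
  rw [PowerSeries.coeff_map]
  refine (h n).trans ?_
  have h1 := hM' n
  rw [one_div, inv_pow, mul_inv_le_iff₀ (by positivity)] at h1
  rw [mul_assoc]
  exact mul_le_mul_of_nonneg_left h1 hC

theorem cs_mon (D i : ℕ) : cs (mon D 3 i) = (mp D i : ℂ⟦X⟧) := by
  have h1 : mon D 3 i
      = sc (1 / (-2) ^ (D - 1)) ((1 + X) ^ i * (1 - X) ^ (D - 1 - i)) := rfl
  rw [h1, mp, sc]
  simp only [map_mul, map_pow, map_add, map_sub, map_one, PowerSeries.map_X, PowerSeries.map_C,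
    Polynomial.coe_mul, Polynomial.coe_C, Polynomial.coe_pow, Polynomial.coe_add,
    Polynomial.coe_sub, Polynomial.coe_one, Polynomial.coe_X]
  congr 2
  simp

/-- the columns at c3 as coefficients of the section -/
theorem val_c3 (D : ℕ) (x : ℝ) (v : Fin D × Fin 8 → ℂ) {g : Gp} (hg : g.cusp = 3) (k : ℕ) :
    Vale.Agent.P030.T.val D x v (g, k) = coeff k (sect D (fun j => cs (tup0 g j)) v) := by
  have hz : ∀ j, tup1 g j = 0 := by
    intro j
    cases g <;> first | rfl | (exfalso; revert hg; decide)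
  have h1 : ∀ r : Fin D × Fin 8, ((En D x r (g, k) : ℝ) : ℂ)
      = coeff k ((mp D r.1 : ℂ⟦X⟧) * cs (tup0 g r.2)) := by
    intro r
    have h2 : ent1 D g k r.1 r.2 = 0 := by
      rw [ent1, hz, mul_zero, map_zero]
    have h3 : ent0 D g k r.1 r.2 = coeff k (mon D 3 r.1 * tup0 g r.2) := by
      rw [ent0, hg]
    have h4 : coeff k ((mp D r.1 : ℂ⟦X⟧) * cs (tup0 g r.2))
        = ((coeff k (mon D 3 r.1 * tup0 g r.2) : ℚ) : ℂ) := by
      rw [← cs_mon, ← map_mul, PowerSeries.coeff_map]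
      rfl
    unfold En
    simp only
    rw [h2, h3, h4, map_zero, mul_zero, add_zero]
    simp
  unfold Vale.Agent.P030.T.val sect rw1
  simp_rw [h1]
  rw [Fintype.sum_prod_type, Finset.sum_comm, map_sum]
  refine Finset.sum_congr rfl fun j _ => ?_
  have h5 : ((∑ i : Fin D, Polynomial.C (v (i, j)) * mp D i : Polynomial ℂ) : ℂ⟦X⟧)
      = ∑ i : Fin D, ((Polynomial.C (v (i, j)) * mp D i : Polynomial ℂ) : ℂ⟦X⟧) := by
    ext m
    rw [Polynomial.coeff_coe, Polynomial.finsetSum_coeff, map_sum]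
    exact Finset.sum_congr rfl fun i _ => (Polynomial.coeff_coe _ _).symm
  rw [h5, Finset.sum_mul, map_sum]
  refine Finset.sum_congr rfl fun i _ => ?_
  rw [Polynomial.coe_mul, Polynomial.coe_C, mul_assoc, coeff_C_mul]

/-- the row monomial as a function of `y` -/
noncomputable def rowp (D i : ℕ) (y : ℂ) : ℂ :=
  ((-2 : ℂ) ^ (D - 1))⁻¹ * ((y + 1) ^ i * (y - 1) ^ (D - 1 - i))

/-- **the frame at c3 for the frame T** -/
theorem frame_T (G : Matrix (Fin 8) (Fin 8) ℂ⟦X⟧) {C0 R0 : ℝ} (hR0 : 0 < R0)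
    (hG : ∀ i j, GB C0 R0 (G i j)) (hdet : (cst G).det ≠ 0) :
    ∃ C1 R1 : ℝ, 0 < C1 ∧ R0 ≤ R1 ∧ 1 ≤ R1 ∧
      ∀ D : ℕ, 0 < D → ∀ R : Fin 8 → ℝ, (∀ i, R1 ≤ R i) →
      ∃ W : Matrix (Fin D × Fin 8) (Fin D × Fin 8) ℂ,
        Real.exp (-((D : ℝ) * (D - 1) / 2) * (∑ i, Real.log (R i))
          + 4 * (D : ℝ) * (D - 1) * Real.log 2 - C1 * D) ≤ ‖W.det‖ ∧
        ∀ u : Fin D × Fin 8 → ℂ, (∀ r, ‖u r‖ ≤ 1) → ∀ κ,
          (∀ y : ℂ, R1 ≤ ‖y‖ → ‖y‖ ≤ R κ →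
            ‖∑ r, (u ᵥ* W) r * (rowp D r.1 y * evl (G κ r.2) y⁻¹)‖ ≤ C1 * (D : ℝ) ^ 2) ∧
          ∀ g : Gp, g.cusp = 3 → (∀ j, G κ j = cs (tup0 g j)) → ∀ (x : ℝ) (k : ℕ) (hk : k < D),
            Vale.Agent.P030.T.val D x (u ᵥ* W) (g, k) = u (⟨D - 1 - k, by omega⟩, κ) * ((R κ : ℂ) ^ (D - 1 - k))⁻¹ ∧
            ‖Vale.Agent.P030.T.val D x (u ᵥ* W) (g, k)‖ ≤ Real.exp (-((D : ℝ) - 1 - k) * Real.log (R κ)) := by
  obtain ⟨C1, R1, hC1, hR1, hmain⟩ := frame_c3 G hR0 hG hdet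
  refine ⟨C1 + |Real.log ‖(cst G).det‖|, max R1 1, by positivity, hR1.trans (le_max_left _ _),
    le_max_right _ _, fun D hD R hR => ?_⟩
  obtain ⟨W, hW, h⟩ := hmain D hD R fun i => (le_max_left _ _).trans (hR i)
  have hD1 : (1 : ℝ) ≤ D := by exact_mod_cast hD
  refine ⟨W, ?_, fun u hu κ => ⟨fun y hy hy2 => ?_, fun g hg hGg x k hk => ?_⟩⟩
  · rw [hW]
    refine Real.exp_le_exp.2 ?_
    have h1 := le_abs_self (Real.log ‖(cst G).det‖)
    have h2 : (D : ℝ) * Real.log ‖(cst G).det‖ ≤ D * |Real.log ‖(cst G).det‖| := by gcongr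
    have h3 : 0 ≤ C1 * D := by positivity
    rw [Fintype.card_fin]
    push_cast
    nlinarith
  · have h1 := (h u hu κ).1 y ((le_max_left _ _).trans hy) hy2
    have h2 : ∑ r, (u ᵥ* W) r * (rowp D r.1 y * evl (G κ r.2) y⁻¹)
        = ∑ j, (∑ i : Fin D, (u ᵥ* W) (i, j) *
              (((-2 : ℂ) ^ (D - 1))⁻¹ * ((y + 1) ^ (i : ℕ) * (y - 1) ^ (D - 1 - i)))) *
                evl (G κ j) y⁻¹ := by
      rw [Fintype.sum_prod_type, Finset.sum_comm]
      refine Finset.sum_congr rfl fun j _ => ?_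
      rw [Finset.sum_mul]
      refine Finset.sum_congr rfl fun i _ => ?_
      unfold rowp
      ring
    rw [h2]
    refine h1.trans ?_
    have : 0 ≤ |Real.log ‖(cst G).det‖| := abs_nonneg _
    gcongr
    linarith
  · have hRk : 0 < R κ := lt_of_lt_of_le one_pos ((le_max_right _ _).trans (hR κ))
    have h1 : Vale.Agent.P030.T.val D x (u ᵥ* W) (g, k)
        = u (⟨D - 1 - k, by omega⟩, κ) * ((R κ : ℂ) ^ (D - 1 - k))⁻¹ := by
      rw [val_c3 D x _ hg, ← (h u hu κ).2 k hk]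
      congr 2
      funext j
      exact (hGg j).symm
    refine ⟨h1, ?_⟩
    rw [h1, norm_mul, norm_inv, norm_pow, Complex.norm_real, Real.norm_of_nonneg hRk.le]
    have h2 : Real.exp (-((D : ℝ) - 1 - k) * Real.log (R κ)) = (R κ ^ (D - 1 - k))⁻¹ := by
      have h3 : ((D - 1 - k : ℕ) : ℝ) = (D : ℝ) - 1 - k := by
        rw [Nat.sub_sub, Nat.cast_sub (by omega)]
        push_cast
        ring
      rw [← h3, neg_mul, Real.exp_neg, Real.exp_nat_mul, Real.exp_log hRk]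
    rw [h2]
    have h4 : 0 ≤ (R κ ^ (D - 1 - k))⁻¹ := by positivity
    calc _ ≤ 1 * (R κ ^ (D - 1 - k))⁻¹ := mul_le_mul_of_nonneg_right (hu _) h4
      _ = _ := one_mul _

end Vale.P030.H205
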