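import Vale.Agent.P030.H205.FrameC3

/-!
# P030: the frame at the cusp c3, the bounds
-/

open PowerSeries Finset Matrix
open scoped Kronecker

namespace Vale.P030.H205

variable {ι : Type*} [Fintype ι] [DecidableEq ι]

/-- the frame matrix -/
noncomputable def WW (D : ℕ) (B : Matrix ι ι ℂ⟦X⟧) (R : ι → ℝ) :
    Matrix (Fin D × ι) (Fin D × ι) ℂ :=
  BB D B R * (MM D ⊗ₖ (1 : Matrix ι ι ℂ))⁻¹

theorem det_kron (D : ℕ) : (MM D ⊗ₖ (1 : Matrix ι ι ℂ)).det = (MM D).det ^ Fintype.card ι := by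
  rw [Matrix.det_kronecker, Matrix.det_one, one_pow, mul_one]

theorem isUnit_kron {D : ℕ} (hD : 0 < D) : IsUnit (MM D ⊗ₖ (1 : Matrix ι ι ℂ)).det := by
  rw [det_kron]
  refine isUnit_iff_ne_zero.2 (pow_ne_zero _ ?_)
  rw [← norm_pos_iff, norm_det_MM hD]
  exact Real.exp_pos _

theorem norm_det_WW {D : ℕ} (hD : 0 < D) (B : Matrix ι ι ℂ⟦X⟧) {R : ι → ℝ} (hR : ∀ i, 0 < R i)
    (hB : (cst B).det ≠ 0) : ‖(WW D B R).det‖
    = Real.exp (-((D : ℝ) * (D - 1) / 2) * (∑ i, Real.log (R i))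
      + Fintype.card ι * ((D : ℝ) * (D - 1) / 2) * Real.log 2
      + D * Real.log ‖(cst B).det‖) := by
  rw [WW, Matrix.det_mul, Matrix.det_nonsing_inv, norm_mul, norm_det_BB hD B hR hB,
    Ring.inverse_eq_inv', norm_inv, det_kron, norm_pow, norm_det_MM hD, ← Real.exp_nat_mul,
    ← Real.exp_neg, ← Real.exp_add]
  congr 1
  ring

theorem vecMul_WW {D : ℕ} (hD : 0 < D) (B : Matrix ι ι ℂ⟦X⟧) (R : ι → ℝ) (u : Fin D × ι → ℂ)
    (b : Fin D) (j : ι) :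
    ∑ i : Fin D, (u ᵥ* WW D B R) (i, j) * MM D i b = (u ᵥ* BB D B R) (b, j) := by
  have h1 : (u ᵥ* WW D B R) ᵥ* (MM D ⊗ₖ (1 : Matrix ι ι ℂ)) = u ᵥ* BB D B R := by
    rw [WW, Matrix.vecMul_vecMul, Matrix.mul_assoc, Matrix.nonsing_inv_mul _ (isUnit_kron hD),
      Matrix.mul_one]
  rw [← h1]
  simp only [Matrix.vecMul, dotProduct, Matrix.kroneckerMap_apply]
  rw [Fintype.sum_prod_type]
  refine Finset.sum_congr rfl fun i _ => ?_
  simp only [Matrix.one_apply, mul_ite, mul_one, mul_zero]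
  rw [Finset.sum_ite_eq']
  simp

/-- the polynomial in `t` of a row vector, component `j` -/
noncomputable def rw1 (D : ℕ) (v : Fin D × ι → ℂ) (j : ι) : Polynomial ℂ :=
  ∑ i : Fin D, Polynomial.C (v (i, j)) * mp D i

theorem coeff_rw1 {D : ℕ} (hD : 0 < D) (B : Matrix ι ι ℂ⟦X⟧) (R : ι → ℝ) (u : Fin D × ι → ℂ)
    (j : ι) (m : ℕ) : (rw1 D (u ᵥ* WW D B R) j).coeff m
    = ∑ r : Fin D × ι, u r * ((R r.2 : ℂ) ^ (r.1 : ℕ))⁻¹ *
        (if D - 1 - r.1 ≤ m then (if m - (D - 1 - r.1) < r.1 + 1 then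
          coeff (m - (D - 1 - r.1)) (B j r.2) else 0) else 0) := by
  unfold rw1
  rw [Polynomial.finsetSum_coeff]
  simp_rw [Polynomial.coeff_C_mul]
  by_cases hm : m < D
  · have h1 := vecMul_WW hD B R u ⟨D - 1 - m, by omega⟩ j
    have h2 : ∀ i : Fin D, MM D i ⟨D - 1 - m, by omega⟩ = (mp D i).coeff m := by
      intro i
      rw [MM, Matrix.of_apply]
      congr 1
      simp only
      omega
    simp_rw [h2] at h1
    rw [h1]
    simp only [Matrix.vecMul, dotProduct, BB, Matrix.of_apply]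
    refine Finset.sum_congr rfl fun r _ => ?_
    have hr := r.1.2
    rw [mul_assoc]
    congr 1
    by_cases h3 : D - 1 - m ≤ r.1
    · rw [if_pos h3, if_pos (by omega), if_pos (by omega)]
      congr 3
      omega
    · rw [if_neg h3, if_neg (by omega), mul_zero]
  · have h1 : ∀ i : Fin D, (mp D i).coeff m = 0 := fun i =>
      Polynomial.coeff_eq_zero_of_natDegree_lt (lt_of_lt_of_le (natDegree_mp i.2) (by omega))
    simp_rw [h1, mul_zero]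
    rw [Finset.sum_const_zero]
    symm
    refine Finset.sum_eq_zero fun r _ => ?_
    have hr := r.1.2
    rw [if_pos (by omega), if_neg (by omega), mul_zero]

/-- the section of the row vector `v` in the tuple `g` (times `t^(D-1)`) -/
noncomputable def sect (D : ℕ) (g : ι → ℂ⟦X⟧) (v : Fin D × ι → ℂ) : ℂ⟦X⟧ :=
  ∑ j, (rw1 D v j : ℂ⟦X⟧) * g j

/-- the product of the truncation with a row of `G` -/
noncomputable def TT (B : Matrix ι ι ℂ⟦X⟧) (g : ι → ℂ⟦X⟧) (a : ℕ) (i : ι) : ℂ⟦X⟧ :=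
  ∑ j, (trunc (a + 1) (B j i) : ℂ⟦X⟧) * g j

theorem sect_eq {D : ℕ} (hD : 0 < D) (B : Matrix ι ι ℂ⟦X⟧) (R : ι → ℝ) (u : Fin D × ι → ℂ)
    (g : ι → ℂ⟦X⟧) : sect D g (u ᵥ* WW D B R)
    = ∑ r : Fin D × ι, C (u r * ((R r.2 : ℂ) ^ (r.1 : ℕ))⁻¹) *
        (X ^ (D - 1 - r.1) * TT B g r.1 r.2) := by
  have h1 : ∀ j, (rw1 D (u ᵥ* WW D B R) j : ℂ⟦X⟧)
      = ∑ r : Fin D × ι, C (u r * ((R r.2 : ℂ) ^ (r.1 : ℕ))⁻¹) *
        (X ^ (D - 1 - r.1) * (trunc ((r.1 : ℕ) + 1) (B j r.2) : ℂ⟦X⟧)) := by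
    intro j
    ext m
    rw [Polynomial.coeff_coe, coeff_rw1 hD, map_sum]
    refine Finset.sum_congr rfl fun r _ => ?_
    rw [coeff_C_mul, coeff_X_pow_mul']
    congr 1
    split_ifs with h2 h3
    · rw [Polynomial.coeff_coe, coeff_trunc, if_pos h3]
    · rw [Polynomial.coeff_coe, coeff_trunc, if_neg h3]
    · rfl
  unfold sect TT
  simp_rw [h1, Finset.sum_mul, Finset.mul_sum]
  rw [Finset.sum_comm]
  refine Finset.sum_congr rfl fun r _ => Finset.sum_congr rfl fun j _ => by ring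

theorem coeff_TT_low {G B : Matrix ι ι ℂ⟦X⟧} (h : G * B = 1) (κ i : ι) {a m : ℕ} (hm : m ≤ a) :
    coeff m (TT B (G κ) a i) = if m = 0 ∧ κ = i then 1 else 0 := by
  have h1 : coeff m (TT B (G κ) a i) = coeff m ((G * B) κ i) := by
    unfold TT
    rw [Matrix.mul_apply, map_sum, map_sum]
    refine Finset.sum_congr rfl fun j _ => ?_
    rw [mul_comm (G κ j), coeff_mul, coeff_mul]
    refine Finset.sum_congr rfl fun p hp => ?_
    have := mem_antidiagonal.1 hp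
    rw [Polynomial.coeff_coe, coeff_trunc, if_pos (by omega)]
  rw [h1, h, Matrix.one_apply]
  by_cases hk : κ = i
  · rw [if_pos hk, coeff_one]
    by_cases hm0 : m = 0
    · rw [if_pos hm0, if_pos ⟨hm0, hk⟩]
    · rw [if_neg hm0, if_neg (fun h => hm0 h.1)]
  · rw [if_neg hk, map_zero, if_neg (fun h => hk h.2)]

theorem norm_coeff_TT_le {G B : Matrix ι ι ℂ⟦X⟧} {C0 R0 C1 R1 : ℝ} (hR0 : 0 < R0) (hR1 : R0 ≤ R1)
    (hG : ∀ i j, GB C0 R0 (G i j)) (hB : ∀ i j, GB C1 R1 (B i j)) (κ i : ι) (a m : ℕ) :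
    ‖coeff m (TT B (G κ) a i)‖ ≤ Fintype.card ι * (a + 1) * (C0 * C1) * R1 ^ m := by
  have hR1' : 0 < R1 := hR0.trans_le hR1
  have hC0 : 0 ≤ C0 := (hG κ κ).nonneg
  have hC1 : 0 ≤ C1 := (hB κ κ).nonneg
  unfold TT
  rw [map_sum]
  have h1 : ∀ j, ‖coeff m ((trunc (a + 1) (B j i) : ℂ⟦X⟧) * G κ j)‖
      ≤ (a + 1) * (C0 * C1) * R1 ^ m := by
    intro j
    rw [coeff_mul]
    refine (norm_sum_le _ _).trans ?_
    rw [Finset.Nat.sum_antidiagonal_eq_sum_range_succ_mk]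
    have h2 : ∀ p ∈ range (m + 1), ‖coeff p (trunc (a + 1) (B j i) : ℂ⟦X⟧) * coeff (m - p) (G κ j)‖
        ≤ if p < a + 1 then C0 * C1 * R1 ^ m else 0 := by
      intro p hp
      have hpm : p ≤ m := Nat.lt_succ_iff.1 (mem_range.1 hp)
      rw [Polynomial.coeff_coe, coeff_trunc]
      split_ifs with h3
      · rw [norm_mul]
        calc ‖coeff p (B j i)‖ * ‖coeff (m - p) (G κ j)‖
            ≤ (C1 * R1 ^ p) * (C0 * R0 ^ (m - p)) :=
              mul_le_mul (hB j i p) (hG κ j (m - p)) (norm_nonneg _) (by positivity)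
          _ ≤ (C1 * R1 ^ p) * (C0 * R1 ^ (m - p)) := by gcongr
          _ = C0 * C1 * R1 ^ m := by
              rw [show R1 ^ m = R1 ^ p * R1 ^ (m - p) by rw [← pow_add, Nat.add_sub_cancel' hpm]]
              ring
      · rw [zero_mul, norm_zero]
    refine (Finset.sum_le_sum h2).trans ?_
    rw [← Finset.sum_filter, Finset.sum_const, nsmul_eq_mul, mul_assoc ((a : ℝ) + 1)]
    refine mul_le_mul_of_nonneg_right ?_ (by positivity)
    have h4 : (Finset.filter (fun p => p < a + 1) (range (m + 1))).card ≤ (range (a + 1)).card := by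
      refine Finset.card_le_card fun p hp => ?_
      rw [mem_filter] at hp
      exact mem_range.2 hp.2
    rw [card_range] at h4
    exact_mod_cast h4
  refine (norm_sum_le _ _).trans ((Finset.sum_le_sum fun j _ => h1 j).trans ?_)
  rw [Finset.sum_const, card_univ, nsmul_eq_mul]
  exact le_of_eq (by ring)

/-- the columns at c3 are coordinates -/
theorem coeff_sect {G B : Matrix ι ι ℂ⟦X⟧} (h : G * B = 1) {D : ℕ} (hD : 0 < D) (R : ι → ℝ)
    (u : Fin D × ι → ℂ) (κ : ι) {k : ℕ} (hk : k < D) :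
    coeff k (sect D (G κ) (u ᵥ* WW D B R))
      = u (⟨D - 1 - k, by omega⟩, κ) * ((R κ : ℂ) ^ (D - 1 - k))⁻¹ := by
  rw [sect_eq hD, map_sum, Finset.sum_eq_single (⟨D - 1 - k, by omega⟩, κ)]
  · rw [coeff_C_mul, coeff_X_pow_mul']
    simp only
    rw [if_pos (by omega), coeff_TT_low h κ κ (by omega), if_pos ⟨by omega, rfl⟩, mul_one]
  · intro r _ hr
    have hr1 := r.1.2
    rw [coeff_C_mul, coeff_X_pow_mul']
    split_ifs with h1
    · rw [coeff_TT_low h κ r.2 (by omega), if_neg, mul_zero]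
      rintro ⟨h2, h3⟩
      refine hr (Prod.ext (Fin.ext ?_) h3.symm)
      simp only
      omega
    · rw [mul_zero]
  · intro h1
    exact absurd (mem_univ _) h1

theorem norm_coeff_sect_le {G B : Matrix ι ι ℂ⟦X⟧} {C0 R0 C1 R1 : ℝ} (hR0 : 0 < R0)
    (hR1 : R0 ≤ R1) (hG : ∀ i j, GB C0 R0 (G i j)) (hB : ∀ i j, GB C1 R1 (B i j)) {D : ℕ}
    (hD : 0 < D) {R : ι → ℝ} (hR : ∀ i, R1 ≤ R i) {u : Fin D × ι → ℂ} (hu : ∀ r, ‖u r‖ ≤ 1)
    (κ : ι) (m : ℕ) :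
    ‖coeff (m + D) (sect D (G κ) (u ᵥ* WW D B R))‖
      ≤ (Fintype.card ι : ℝ) ^ 2 * (C0 * C1) * (D : ℝ) ^ 2 * R1 ^ (m + 1) := by
  have hR1' : 0 < R1 := hR0.trans_le hR1
  have hC0 : 0 ≤ C0 := (hG κ κ).nonneg
  have hC1 : 0 ≤ C1 := (hB κ κ).nonneg
  rw [sect_eq hD, map_sum]
  have h1 : ∀ r : Fin D × ι, ‖coeff (m + D) (C (u r * ((R r.2 : ℂ) ^ (r.1 : ℕ))⁻¹) *
        (X ^ (D - 1 - r.1) * TT B (G κ) r.1 r.2))‖
      ≤ Fintype.card ι * D * (C0 * C1) * R1 ^ (m + 1) := by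
    intro r
    have hr1 := r.1.2
    have hRr : 0 < R r.2 := hR1'.trans_le (hR _)
    rw [coeff_C_mul, coeff_X_pow_mul', if_pos (by omega), norm_mul, norm_mul, norm_inv, norm_pow,
      Complex.norm_real, Real.norm_of_nonneg hRr.le]
    have h2 := norm_coeff_TT_le hR0 hR1 hG hB κ r.2 r.1 (m + D - (D - 1 - r.1))
    have h3 : m + D - (D - 1 - (r.1 : ℕ)) = m + 1 + r.1 := by omega
    rw [h3] at h2 ⊢
    have h4 : ((r.1 : ℕ) : ℝ) + 1 ≤ D := by exact_mod_cast hr1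
    calc ‖u r‖ * (R r.2 ^ (r.1 : ℕ))⁻¹ * ‖coeff (m + 1 + r.1) (TT B (G κ) r.1 r.2)‖
        ≤ 1 * (R1 ^ (r.1 : ℕ))⁻¹ * (Fintype.card ι * ((r.1 : ℕ) + 1) * (C0 * C1)
            * R1 ^ (m + 1 + (r.1 : ℕ))) := by
          gcongr
          · exact hu r
          · exact hR _
      _ = (Fintype.card ι * ((r.1 : ℕ) + 1) * (C0 * C1)) * R1 ^ (m + 1) := by
          rw [pow_add R1 (m + 1)]
          have : R1 ^ (r.1 : ℕ) ≠ 0 := pow_ne_zero _ hR1'.ne'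
          field_simp
      _ ≤ Fintype.card ι * D * (C0 * C1) * R1 ^ (m + 1) := by gcongr
  refine (norm_sum_le _ _).trans ((Finset.sum_le_sum fun r _ => h1 r).trans ?_)
  rw [Finset.sum_const, card_univ, Fintype.card_prod, Fintype.card_fin, nsmul_eq_mul]
  push_cast
  exact le_of_eq (by ring)

/-- evaluation of a product with a polynomial -/
theorem summable_poly (P : Polynomial ℂ) (t : ℂ) :
    Summable fun n => ‖coeff n (P : ℂ⟦X⟧) * t ^ n‖ := by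
  refine summable_of_ne_finset_zero (s := P.support) fun n hn => ?_
  rw [Polynomial.coeff_coe, Polynomial.notMem_support_iff.1 hn, zero_mul, norm_zero]

theorem evl_poly (P : Polynomial ℂ) (t : ℂ) : evl (P : ℂ⟦X⟧) t = P.eval t := by
  unfold evl
  rw [Polynomial.eval_eq_sum_range, tsum_eq_sum (s := range (P.natDegree + 1))]
  · refine Finset.sum_congr rfl fun n _ => ?_
    rw [Polynomial.coeff_coe]
  · intro n hn
    rw [Polynomial.coeff_coe, Polynomial.coeff_eq_zero_of_natDegree_lt, zero_mul]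
    rw [mem_range] at hn
    omega

theorem evl_sum {κ : Type*} (s : Finset κ) (f : κ → ℂ⟦X⟧) {t : ℂ}
    (h : ∀ j ∈ s, Summable fun n => ‖coeff n (f j) * t ^ n‖) :
    evl (∑ j ∈ s, f j) t = ∑ j ∈ s, evl (f j) t := by
  unfold evl
  rw [← Summable.tsum_finsetSum fun j hj => (h j hj).of_norm]
  refine tsum_congr fun n => ?_
  rw [map_sum, Finset.sum_mul]

theorem evl_mul' {f g : ℂ⟦X⟧} {t : ℂ} (hf : Summable fun n => ‖coeff n f * t ^ n‖)
    (hg : Summable fun n => ‖coeff n g * t ^ n‖) :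
    evl (f * g) t = evl f t * evl g t ∧ Summable fun n => ‖coeff n (f * g) * t ^ n‖ := by
  have key : ∀ n, coeff n (f * g) * t ^ n
      = ∑ p ∈ antidiagonal n, (coeff p.1 f * t ^ p.1) * (coeff p.2 g * t ^ p.2) := by
    intro n
    rw [coeff_mul, Finset.sum_mul]
    refine Finset.sum_congr rfl fun p hp => ?_
    rw [← mem_antidiagonal.1 hp, pow_add]
    ring
  constructor
  · unfold evl
    rw [tsum_mul_tsum_eq_tsum_sum_antidiagonal_of_summable_norm hf hg]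
    exact tsum_congr key
  · have h1 := summable_norm_sum_mul_antidiagonal_of_summable_norm
      (f := fun n => coeff n f * t ^ n) (g := fun n => coeff n g * t ^ n) hf hg
    refine h1.congr fun n => ?_
    rw [key n]

theorem eval_rw1 {D : ℕ} (v : Fin D × ι → ℂ) (j : ι) {y : ℂ} (hy : y ≠ 0) :
    y ^ (D - 1) * (rw1 D v j).eval y⁻¹ = ∑ i : Fin D, v (i, j) *
      (((-2 : ℂ) ^ (D - 1))⁻¹ * ((y + 1) ^ (i : ℕ) * (y - 1) ^ (D - 1 - i))) := by
  unfold rw1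
  rw [Polynomial.eval_finsetSum, Finset.mul_sum]
  refine Finset.sum_congr rfl fun i _ => ?_
  rw [Polynomial.eval_mul, Polynomial.eval_C, eval_mp]
  have h3 : D - 1 = i + (D - 1 - i) := by omega
  have h4 : y ^ (D - 1) = y ^ (i : ℕ) * y ^ (D - 1 - i) := by rw [← pow_add, ← h3]
  have h5 : y ^ (i : ℕ) * (1 + y⁻¹) ^ (i : ℕ) = (y + 1) ^ (i : ℕ) := by
    rw [← mul_pow]
    congr 1
    field_simp
  have h6 : y ^ (D - 1 - i) * (1 - y⁻¹) ^ (D - 1 - i) = (y - 1) ^ (D - 1 - i) := by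
    rw [← mul_pow]
    congr 1
    field_simp
  rw [← h5, ← h6, h4]
  ring

/-- the section as a function of `y` -/
theorem evl_sect {G : Matrix ι ι ℂ⟦X⟧} {C0 R0 : ℝ} (hR0 : 0 < R0)
    (hG : ∀ i j, GB C0 R0 (G i j)) {D : ℕ} (v : Fin D × ι → ℂ) (κ : ι) {y : ℂ}
    (hy : R0 < ‖y‖) :
    y ^ (D - 1) * evl (sect D (G κ) v) y⁻¹
      = ∑ j, (∑ i : Fin D, v (i, j) *
      (((-2 : ℂ) ^ (D - 1))⁻¹ * ((y + 1) ^ (i : ℕ) * (y - 1) ^ (D - 1 - i)))) *
        evl (G κ j) y⁻¹ ∧ Summable fun n => ‖coeff n (sect D (G κ) v) * y⁻¹ ^ n‖ := by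
  have hy0 : y ≠ 0 := by
    rw [← norm_pos_iff]
    exact hR0.trans hy
  have hyn : 0 < ‖y‖ := norm_pos_iff.2 hy0
  have ht : R0 * ‖y⁻¹‖ < 1 := by
    rw [norm_inv, ← div_eq_mul_inv, div_lt_one hyn]
    exact hy
  have h1 : ∀ j, Summable fun n => ‖coeff n (G κ j) * y⁻¹ ^ n‖ := fun j =>
    (hG κ j).summable hR0.le ht
  have h2 := fun j => evl_mul' (summable_poly (rw1 D v j) y⁻¹) (h1 j)
  constructor
  · unfold sect
    rw [evl_sum _ _ fun j _ => (h2 j).2, Finset.mul_sum]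
    refine Finset.sum_congr rfl fun j _ => ?_
    rw [(h2 j).1, evl_poly, ← mul_assoc, eval_rw1 v j hy0]
  · unfold sect
    have h3 : Summable fun n => ∑ j, ‖coeff n ((rw1 D v j : ℂ⟦X⟧) * G κ j) * y⁻¹ ^ n‖ :=
      summable_sum fun j _ => (h2 j).2
    refine Summable.of_nonneg_of_le (fun n => norm_nonneg _) (fun n => ?_) h3
    rw [map_sum, Finset.sum_mul]
    exact norm_sum_le _ _

theorem norm_sect_le {G B : Matrix ι ι ℂ⟦X⟧} (h : G * B = 1) {C0 R0 C1 R1 : ℝ} (hR0 : 0 < R0)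
    (hR1 : R0 ≤ R1) (hG : ∀ i j, GB C0 R0 (G i j)) (hB : ∀ i j, GB C1 R1 (B i j)) {D : ℕ}
    (hD : 0 < D) {R : ι → ℝ} (hR : ∀ i, R1 ≤ R i) {u : Fin D × ι → ℂ} (hu : ∀ r, ‖u r‖ ≤ 1)
    (κ : ι) {y : ℂ} (hy : 2 * R1 ≤ ‖y‖) (hy2 : ‖y‖ ≤ R κ) :
    ‖y ^ (D - 1) * evl (sect D (G κ) (u ᵥ* WW D B R)) y⁻¹‖
      ≤ (1 + (Fintype.card ι : ℝ) ^ 2 * (C0 * C1)) * (D : ℝ) ^ 2 := by
  have hR1' : 0 < R1 := hR0.trans_le hR1
  have hC0 : 0 ≤ C0 := (hG κ κ).nonneg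
  have hC1 : 0 ≤ C1 := (hB κ κ).nonneg
  have hyn : 0 < ‖y‖ := by linarith
  have hy0 : y ≠ 0 := norm_pos_iff.1 hyn
  have hRk : 0 < R κ := hyn.trans_le hy2
  set S := sect D (G κ) (u ᵥ* WW D B R) with hS
  have hsum : Summable fun n => ‖coeff n S * y⁻¹ ^ n‖ :=
    (evl_sect hR0 hG (u ᵥ* WW D B R) κ (by linarith)).2
  have hD1 : (1 : ℝ) ≤ D := by exact_mod_cast hD
  rw [norm_mul]
  have h1 : ‖evl S y⁻¹‖ ≤ ∑' n, ‖coeff n S * y⁻¹ ^ n‖ := norm_tsum_le_tsum_norm hsum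
  rw [← hsum.sum_add_tsum_nat_add D] at h1
  have h2 : ‖y ^ (D - 1)‖ * ∑ n ∈ range D, ‖coeff n S * y⁻¹ ^ n‖ ≤ D := by
    rw [Finset.mul_sum]
    calc ∑ n ∈ range D, ‖y ^ (D - 1)‖ * ‖coeff n S * y⁻¹ ^ n‖ ≤ ∑ n ∈ range D, (1 : ℝ) := by
          refine Finset.sum_le_sum fun n hn => ?_
          have hn' : n < D := mem_range.1 hn
          rw [hS, coeff_sect h hD R u κ hn', norm_mul, norm_mul, norm_inv, norm_pow, norm_pow,
            norm_pow, norm_inv, Complex.norm_real, Real.norm_of_nonneg hRk.le]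
          have h3 : ‖y‖ ^ (D - 1) = ‖y‖ ^ (D - 1 - n) * ‖y‖ ^ n := by
            rw [← pow_add]; congr 1; omega
          have h4 : ‖y‖ ^ (D - 1) * (‖u (⟨D - 1 - n, by omega⟩, κ)‖ * (R κ ^ (D - 1 - n))⁻¹
              * ‖y‖⁻¹ ^ n) = ‖u (⟨D - 1 - n, by omega⟩, κ)‖ * (‖y‖ / R κ) ^ (D - 1 - n) := by
            rw [h3, div_pow, inv_pow]
            field_simp
          rw [h4]
          have h5 : (‖y‖ / R κ) ^ (D - 1 - n) ≤ 1 := by
            refine pow_le_one₀ (by positivity) ?_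
            rw [div_le_one hRk]
            exact hy2
          calc _ ≤ (1 : ℝ) * 1 := mul_le_mul (hu _) h5 (by positivity) zero_le_one
            _ = 1 := one_mul 1
      _ = D := by rw [Finset.sum_const, card_range, nsmul_eq_mul, mul_one]
  set M : ℝ := (Fintype.card ι : ℝ) ^ 2 * (C0 * C1) * (D : ℝ) ^ 2 with hM
  have hM0 : 0 ≤ M := by positivity
  have h3 : ‖y ^ (D - 1)‖ * ∑' n, ‖coeff (n + D) S * y⁻¹ ^ (n + D)‖ ≤ M := by
    rw [← tsum_mul_left]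
    have h4 : ∀ n, ‖y ^ (D - 1)‖ * ‖coeff (n + D) S * y⁻¹ ^ (n + D)‖
        ≤ M / 2 * (1 / 2) ^ n := by
      intro n
      have h5 := norm_coeff_sect_le hR0 hR1 hG hB hD hR hu κ n
      rw [← hS, ← hM] at h5
      rw [norm_mul, norm_pow, norm_pow, norm_inv]
      have h6 : ‖y‖ ^ (D - 1) * (‖coeff (n + D) S‖ * ‖y‖⁻¹ ^ (n + D))
          = ‖coeff (n + D) S‖ * ‖y‖⁻¹ ^ (n + 1) := by
        have : n + D = (D - 1) + (n + 1) := by omega
        rw [this, pow_add ‖y‖⁻¹ (D - 1), inv_pow, ← mul_assoc, ← mul_assoc, mul_comm (‖y‖ ^ (D - 1)),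
          mul_assoc ‖_‖, mul_inv_cancel₀ (pow_ne_zero _ hyn.ne'), mul_one]
      rw [h6]
      have h7 : R1 * ‖y‖⁻¹ ≤ 1 / 2 := by
        rw [← div_eq_mul_inv, div_le_iff₀ hyn]
        linarith
      calc ‖coeff (n + D) S‖ * ‖y‖⁻¹ ^ (n + 1) ≤ (M * R1 ^ (n + 1)) * ‖y‖⁻¹ ^ (n + 1) := by
            gcongr
        _ = M * (R1 * ‖y‖⁻¹) ^ (n + 1) := by rw [mul_pow]; ring
        _ ≤ M * (1 / 2) ^ (n + 1) := by gcongr
        _ = M / 2 * (1 / 2) ^ n := by rw [pow_succ]; ring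
    have h8 : Summable fun n => ‖y ^ (D - 1)‖ * ‖coeff (n + D) S * y⁻¹ ^ (n + D)‖ :=
      ((summable_nat_add_iff D).2 hsum).mul_left _
    have h9 : Summable fun n : ℕ => M / 2 * (1 / 2 : ℝ) ^ n :=
      (summable_geometric_of_lt_one (by norm_num) (by norm_num)).mul_left _
    refine (Summable.tsum_le_tsum h4 h8 h9).trans (le_of_eq ?_)
    rw [tsum_mul_left, tsum_geometric_two]
    ring
  calc ‖y ^ (D - 1)‖ * ‖evl S y⁻¹‖
      ≤ ‖y ^ (D - 1)‖ * (∑ n ∈ range D, ‖coeff n S * y⁻¹ ^ n‖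
        + ∑' n, ‖coeff (n + D) S * y⁻¹ ^ (n + D)‖) := mul_le_mul_of_nonneg_left h1 (norm_nonneg _)
    _ ≤ D + M := by rw [mul_add]; exact add_le_add h2 h3
    _ ≤ (D : ℝ) ^ 2 + M := by nlinarith
    _ = _ := by rw [hM]; ring

/-- **the frame at c3** -/
theorem frame_c3 (G : Matrix ι ι ℂ⟦X⟧) {C0 R0 : ℝ} (hR0 : 0 < R0)
    (hG : ∀ i j, GB C0 R0 (G i j)) (hdet : (cst G).det ≠ 0) :
    ∃ C1 R1 : ℝ, 0 < C1 ∧ R0 ≤ R1 ∧ ∀ D : ℕ, 0 < D → ∀ R : ι → ℝ, (∀ i, R1 ≤ R i) →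
      ∃ W : Matrix (Fin D × ι) (Fin D × ι) ℂ,
        ‖W.det‖ = Real.exp (-((D : ℝ) * (D - 1) / 2) * (∑ i, Real.log (R i))
          + Fintype.card ι * ((D : ℝ) * (D - 1) / 2) * Real.log 2
          - D * Real.log ‖(cst G).det‖) ∧
        ∀ u : Fin D × ι → ℂ, (∀ r, ‖u r‖ ≤ 1) → ∀ κ,
          (∀ y : ℂ, R1 ≤ ‖y‖ → ‖y‖ ≤ R κ →
            ‖∑ j, (∑ i : Fin D, (u ᵥ* W) (i, j) *
              (((-2 : ℂ) ^ (D - 1))⁻¹ * ((y + 1) ^ (i : ℕ) * (y - 1) ^ (D - 1 - i)))) *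
                evl (G κ j) y⁻¹‖ ≤ C1 * (D : ℝ) ^ 2) ∧
          ∀ k (hk : k < D), coeff k (sect D (G κ) (u ᵥ* W))
            = u (⟨D - 1 - k, by omega⟩, κ) * ((R κ : ℂ) ^ (D - 1 - k))⁻¹ := by
  obtain ⟨B, hGB, hBG, hcst, C1, R1, hC1, hR1, hB⟩ := exists_inv G hR0 hG hdet
  have hR1' : 0 < R1 := hR0.trans_le hR1
  have hdetB : (cst B).det = ((cst G).det)⁻¹ := by
    rw [hcst, Matrix.det_nonsing_inv, Ring.inverse_eq_inv']
  refine ⟨1 + (Fintype.card ι : ℝ) ^ 2 * (|C0| * C1), 2 * R1, by positivity, by linarith,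
    fun D hD R hR => ⟨WW D B R, ?_, fun u hu κ => ⟨fun y hy hy2 => ?_, fun k hk => ?_⟩⟩⟩
  · rw [norm_det_WW hD B (fun i => by linarith [hR i]) (by rw [hdetB]; exact inv_ne_zero hdet),
      hdetB, norm_inv, Real.log_inv]
    congr 1
    ring
  · have h1 := norm_sect_le hGB hR0 hR1 hG hB hD (fun i => by linarith [hR i]) hu κ hy hy2
    rw [(evl_sect hR0 hG (u ᵥ* WW D B R) κ (by linarith)).1] at h1
    refine h1.trans ?_
    have : C0 ≤ |C0| := le_abs_self C0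
    gcongr
  · exact coeff_sect hGB hD R u κ hk

end Vale.P030.H205
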