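import Vale.Agent.P030.H205.FrameX
import Vale.Agent.P030.H552.TopH
import Vale.Agent.P030.H676.HarmTop

/-!
# P030, route H: the frame at c3 in the literal forms of the top theorems
-/

open PowerSeries Finset Matrix

namespace Vale.P030.H205

open Vale.Agent.P030.T Vale.Agent.P030.H462 Vale.Agent.P030.AR Vale.Agent.P030.H352
  Vale.Agent.P030.H676

/-- the frame matrix `M * G3` -/
noncomputable def MG (M : Matrix (Fin 8) (Fin 8) ℂ) : Matrix (Fin 8) (Fin 8) ℂ⟦X⟧ :=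
  M.map (PowerSeries.C (R := ℂ)) * G3

theorem MG_row {M : Matrix (Fin 8) (Fin 8) ℂ} {κ : Fin 8}
    (h : ∀ j, M κ j = if j = κ then 1 else 0) (j : Fin 8) : MG M κ j = cs (g3 κ j) := by
  unfold MG
  rw [Matrix.mul_apply, Finset.sum_eq_single κ]
  · rw [Matrix.map_apply, h κ, if_pos rfl, map_one, one_mul]
    rfl
  · intro i _ hi
    rw [Matrix.map_apply, h i, if_neg hi, map_zero, zero_mul]
  · intro h'
    exact absurd (mem_univ _) h'

/-- values of the rows : `outv (MG M) κ y = Σ_i M κ i * g3 i (1/y)` for `1 < ‖y‖` -/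
theorem outv_MG (M : Matrix (Fin 8) (Fin 8) ℂ) (κ j : Fin 8) {y : ℂ} (hy : 1 < ‖y‖) :
    outv (MG M) κ y j = ∑ i, M κ i * evq (g3 i j) y⁻¹ := by
  have : ‖y⁻¹‖ < 1 := by
    rw [norm_inv]
    exact inv_lt_one_of_one_lt₀ hy
  exact evl_MG3 M κ j this

theorem row_of_cusp {M : Matrix (Fin 8) (Fin 8) ℂ}
    (h0 : ∀ j, M 0 j = if j = 0 then 1 else 0) (h1 : ∀ j, M 1 j = if j = 1 then 1 else 0)
    (h2 : ∀ j, M 2 j = if j = 2 then 1 else 0) {g : Gp} (hg : g.cusp = 3) (j : Fin 8) :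
    MG M (ixr g) j = cs (tup0 g j) := by
  cases g
  case x2 => exact MG_row h0 j
  case xl => exact MG_row h1 j
  case x1 => exact MG_row h2 j
  all_goals exact absurd hg (by decide)

/-- **the frame for `H676.stAF_of_fam`** -/
theorem frameG (M : Matrix (Fin 8) (Fin 8) ℂ) (hM : M.det ≠ 0)
    (h0 : ∀ j, M 0 j = if j = 0 then 1 else 0) (h1 : ∀ j, M 1 j = if j = 1 then 1 else 0)
    (h2 : ∀ j, M 2 j = if j = 2 then 1 else 0) {R : Fin 8 → ℝ} (hR : ∀ i, 3 ≤ R i) :
    Vale.Agent.P030.H676.FrameG (MG M) R := by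
  obtain ⟨C1, hC1, h⟩ := frame_G3 M hM
  refine ⟨C1 + 2, by linarith, fun D hD => ?_⟩
  obtain ⟨W, hW, hu⟩ := h D hD R hR
  refine ⟨W, (Real.exp_le_exp.2 ?_).trans hW, fun u hu1 => ?_⟩
  · have : (0 : ℝ) ≤ D := Nat.cast_nonneg D
    nlinarith
  · obtain ⟨a1, a2, -, a4⟩ := hu u hu1
    have hD2 : (0 : ℝ) ≤ (D : ℝ) ^ 2 := by positivity
    refine ⟨fun κ y hy => (a1 κ y (by rw [hy]; exact hR κ) hy.le).trans ?_, fun g hg k hk => ?_,
      fun g hg k => (a4 g hg k).trans ?_⟩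
    · exact mul_le_mul_of_nonneg_right (by linarith) hD2
    · exact (a2 (ixr g) g hg (fun j => row_of_cusp h0 h1 h2 hg j) (Gc / 2) k hk).2
    · refine mul_le_mul (mul_le_mul_of_nonneg_right (by linarith) hD2)
        (pow_le_pow_left₀ (by norm_num) (by linarith) k) (by positivity) (by positivity)

/-- **the frame for `H552.stAF_of_fam`** -/
theorem frameAt (M : Matrix (Fin 8) (Fin 8) ℂ) (hM : M.det ≠ 0)
    (h0 : ∀ j, M 0 j = if j = 0 then 1 else 0) (h1 : ∀ j, M 1 j = if j = 1 then 1 else 0)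
    (h2 : ∀ j, M 2 j = if j = 2 then 1 else 0) {R : Fin 8 → ℝ} (hR : ∀ i, 3 ≤ R i) :
    Vale.Agent.P030.H552.FrameAt (MG M) R := by
  obtain ⟨C1, hC1, h⟩ := frame_G3 M hM
  refine ⟨C1 + 3, by linarith, fun D hD => ?_⟩
  obtain ⟨W, hW, hu⟩ := h D hD R hR
  refine ⟨W, (Real.exp_le_exp.2 ?_).trans hW, fun u hu1 => ?_⟩
  · have : (0 : ℝ) ≤ D := Nat.cast_nonneg D
    nlinarith
  · obtain ⟨a1, a2, -, a4⟩ := hu u hu1
    have hD2 : (0 : ℝ) ≤ (D : ℝ) ^ 2 := by positivity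
    have hD1 : (1 : ℝ) ≤ D := by exact_mod_cast hD
    refine ⟨fun κ y hy => (a1 κ y (by rw [hy]; exact hR κ) hy.le).trans ?_, fun g hg k hk => ?_,
      fun g hg k => (a4 g hg k).trans ?_⟩
    · exact mul_le_mul_of_nonneg_right (by linarith) hD2
    · exact (a2 (ixr g) g hg (fun j => row_of_cusp h0 h1 h2 hg j) (Gc / 2) k hk).2
    · have e1 : C1 ≤ Real.exp C1 := by linarith [Real.add_one_le_exp C1]
      have e2 : (D : ℝ) ≤ Real.exp D := by linarith [Real.add_one_le_exp (D : ℝ)]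
      have e3 : (D : ℝ) ^ 2 ≤ Real.exp (2 * D) := by
        rw [two_mul, Real.exp_add, sq]
        exact mul_le_mul e2 e2 (by positivity) (by positivity)
      have e4 : (2 : ℝ) ^ k ≤ Real.exp k := by
        have : (2 : ℝ) ≤ Real.exp 1 := by linarith [Real.add_one_le_exp (1 : ℝ)]
        calc (2 : ℝ) ^ k ≤ Real.exp 1 ^ k := pow_le_pow_left₀ (by norm_num) this k
          _ = Real.exp k := by rw [← Real.exp_nat_mul, mul_one]
      calc C1 * (D : ℝ) ^ 2 * 2 ^ k ≤ Real.exp C1 * Real.exp (2 * D) * Real.exp k := by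
            gcongr
        _ = Real.exp (C1 + 2 * D + k) := by rw [← Real.exp_add, ← Real.exp_add]
        _ ≤ _ := by
            refine Real.exp_le_exp.2 ?_
            have hk : (0 : ℝ) ≤ k := Nat.cast_nonneg k
            nlinarith

/-- the case `M = 1` -/
theorem MG_one : MG 1 = G3 := by
  unfold MG
  have : (1 : Matrix (Fin 8) (Fin 8) ℂ).map (PowerSeries.C (R := ℂ)) = 1 :=
    Matrix.map_one _ (map_zero _) (map_one _)
  rw [this, Matrix.one_mul]

theorem frameAt_one {R : Fin 8 → ℝ} (hR : ∀ i, 3 ≤ R i) :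
    Vale.Agent.P030.H552.FrameAt G3 R := by
  have h := frameAt 1 (by rw [Matrix.det_one]; exact one_ne_zero)
    (fun j => by rw [Matrix.one_apply]; simp [eq_comm])
    (fun j => by rw [Matrix.one_apply]; simp [eq_comm])
    (fun j => by rw [Matrix.one_apply]; simp [eq_comm]) hR
  rwa [MG_one] at h

theorem frameG_one {R : Fin 8 → ℝ} (hR : ∀ i, 3 ≤ R i) :
    Vale.Agent.P030.H676.FrameG G3 R := by
  have h := frameG 1 (by rw [Matrix.det_one]; exact one_ne_zero)
    (fun j => by rw [Matrix.one_apply]; simp [eq_comm])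
    (fun j => by rw [Matrix.one_apply]; simp [eq_comm])
    (fun j => by rw [Matrix.one_apply]; simp [eq_comm]) hR
  rwa [MG_one] at h

end Vale.P030.H205
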