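import Vale.Agent.P030.H205.G3Inv
import Vale.Agent.P030.H205.Cols

/-!
# P030: the frame at c3 with an explicit radius, and the trivial bound for all columns
-/

open PowerSeries Finset Matrix

namespace Vale.P030.H205

open Vale.Agent.P030.T Vale.Agent.P030.H462 Vale.Agent.P030.AR

/-- a common bound for the tuples on the disc of radius one half -/
theorem exists_tup_bound : ∃ M : ℝ, 0 < M ∧ ∀ (g : Gp) (j : Fin 8) (t : ℂ), ‖t‖ ≤ 1 / 2 →
    ‖tupC g t j‖ ≤ M := by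
  have h1 : ∀ (g : Gp) (j : Fin 8), ∃ M : ℝ, ∀ t ∈ Metric.closedBall (0 : ℂ) (1 / 2),
      ‖tupC g t j‖ ≤ M := by
    intro g j
    have h2 : ContinuousOn (fun t => tupC g t j) (Metric.closedBall (0 : ℂ) (1 / 2)) :=
      (Vale.Agent.P030.H787.diff_tupC g j).continuousOn.mono
        (Metric.closedBall_subset_ball (by norm_num))
    exact (isCompact_closedBall (0 : ℂ) (1 / 2)).exists_bound_of_continuousOn h2
  choose M hM using h1
  refine ⟨1 + ∑ g, ∑ j, |M g j|, ?_, fun g j t ht => ?_⟩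
  · have : 0 ≤ ∑ g, ∑ j, |M g j| := Finset.sum_nonneg fun _ _ => Finset.sum_nonneg fun _ _ =>
      abs_nonneg _
    linarith
  · have h2 := hM g j t (by rwa [mem_closedBall_zero_iff])
    have h3 : |M g j| ≤ ∑ j, |M g j| :=
      Finset.single_le_sum (f := fun j => |M g j|) (fun _ _ => abs_nonneg _) (mem_univ j)
    have h4 : ∑ j, |M g j| ≤ ∑ g, ∑ j, |M g j| :=
      Finset.single_le_sum (f := fun g => ∑ j, |M g j|)
        (fun _ _ => Finset.sum_nonneg fun _ _ => abs_nonneg _) (mem_univ g)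
    linarith [le_abs_self (M g j)]

theorem norm_yc_le {c : Fin 4} (hc : c ≠ 3) {t : ℂ} (ht : ‖t‖ ≤ 1 / 2) : ‖yc c t‖ ≤ 3 := by
  have h1 : 1 / 2 ≤ ‖1 - t‖ := by
    have := norm_sub_norm_le (1 : ℂ) t
    rw [norm_one] at this
    linarith
  have h1' : 1 / 2 ≤ ‖t - 1‖ := by rw [norm_sub_rev]; exact h1
  have h2 : ‖1 + t‖ ≤ 3 / 2 := by
    have := norm_add_le (1 : ℂ) t
    rw [norm_one] at this
    linarith
  have h2' : ‖t + 1‖ ≤ 3 / 2 := by rw [add_comm]; exact h2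
  fin_cases c
  · show ‖(t + 1) / (t - 1)‖ ≤ 3
    rw [norm_div, div_le_iff₀ (by linarith)]
    linarith
  · show ‖t‖ ≤ 3
    linarith
  · show ‖(1 + t) / (1 - t)‖ ≤ 3
    rw [norm_div, div_le_iff₀ (by linarith)]
    linarith
  · exact absurd rfl hc

theorem differentiable_rowp (D i : ℕ) : Differentiable ℂ (rowp D i) := by
  unfold rowp
  fun_prop

/-- component polynomials -/
noncomputable def pj {D : ℕ} (v : Fin D × Fin 8 → ℂ) (j : Fin 8) (y : ℂ) : ℂ :=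
  ∑ i : Fin D, v (i, j) * rowp D i y

theorem sum_eq_pj {D : ℕ} (v : Fin D × Fin 8 → ℂ) (e : Fin 8 → ℂ) (y : ℂ) :
    ∑ r, v r * (rowp D r.1 y * e r.2) = ∑ j, e j * pj v j y := by
  rw [Fintype.sum_prod_type, Finset.sum_comm]
  refine Finset.sum_congr rfl fun j _ => ?_
  rw [pj, Finset.mul_sum]
  exact Finset.sum_congr rfl fun i _ => by ring

/-- evaluation of a matrix product -/
theorem evl_mat {B G : Matrix (Fin 8) (Fin 8) ℂ⟦X⟧} {K K' r : ℝ} (hr : 0 < r)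
    (hB : ∀ i j, GB K r (B i j)) (hG : ∀ i j, GB K' r (G i j)) (hBG : B * G = 1) {t : ℂ}
    (ht : r * ‖t‖ < 1) (j j' : Fin 8) :
    ∑ κ, evl (B j κ) t * evl (G κ j') t = if j = j' then 1 else 0 := by
  have h1 : ∀ κ, evl (B j κ * G κ j') t = evl (B j κ) t * evl (G κ j') t ∧
      Summable fun n => ‖coeff n (B j κ * G κ j') * t ^ n‖ := fun κ =>
    evl_mul' ((hB j κ).summable hr.le ht) ((hG κ j').summable hr.le ht)
  have h2 : evl (∑ κ, B j κ * G κ j') t = ∑ κ, evl (B j κ * G κ j') t :=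
    evl_sum _ _ fun κ _ => (h1 κ).2
  have h3 : ∑ κ, B j κ * G κ j' = (1 : Matrix (Fin 8) (Fin 8) ℂ⟦X⟧) j j' := by
    rw [← hBG, Matrix.mul_apply]
  simp_rw [← (h1 _).1]
  rw [← h2, h3, Matrix.one_apply]
  split_ifs
  · have : evl ((1 : Polynomial ℂ) : ℂ⟦X⟧) t = (1 : Polynomial ℂ).eval t := evl_poly 1 t
    simpa using this
  · have : evl ((0 : Polynomial ℂ) : ℂ⟦X⟧) t = (0 : Polynomial ℂ).eval t := evl_poly 0 t
    simpa using this

/-- **the frame at c3, explicit radius** -/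
theorem frame_X {G B : Matrix (Fin 8) (Fin 8) ℂ⟦X⟧} (hGB : G * B = 1) (hBG : B * G = 1)
    {r : ℝ} (hr : 0 < r) (h2r : 2 * r ≤ 3) (hG : ∃ K, ∀ i j, GB K r (G i j))
    (hB : ∃ K, ∀ i j, GB K r (B i j)) :
    ∃ C1 : ℝ, 0 < C1 ∧ ∀ D : ℕ, 0 < D → ∀ R : Fin 8 → ℝ, (∀ i, 3 ≤ R i) →
      ∃ W : Matrix (Fin D × Fin 8) (Fin D × Fin 8) ℂ,
        Real.exp (-((D : ℝ) * (D - 1) / 2) * (∑ i, Real.log (R i))
          + 4 * (D : ℝ) * (D - 1) * Real.log 2 - C1 * D) ≤ ‖W.det‖ ∧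
        ∀ u : Fin D × Fin 8 → ℂ, (∀ r, ‖u r‖ ≤ 1) →
          (∀ κ, ∀ y : ℂ, 3 ≤ ‖y‖ → ‖y‖ ≤ R κ →
            ‖∑ r, (u ᵥ* W) r * (rowp D r.1 y * evl (G κ r.2) y⁻¹)‖ ≤ C1 * (D : ℝ) ^ 2) ∧
          (∀ κ, ∀ g : Gp, g.cusp = 3 → (∀ j, G κ j = cs (tup0 g j)) →
            ∀ (x : ℝ) (k : ℕ) (hk : k < D),
            Vale.Agent.P030.T.val D x (u ᵥ* W) (g, k)
              = u (⟨D - 1 - k, by omega⟩, κ) * ((R κ : ℂ) ^ (D - 1 - k))⁻¹ ∧
            ‖Vale.Agent.P030.T.val D x (u ᵥ* W) (g, k)‖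
              ≤ Real.exp (-((D : ℝ) - 1 - k) * Real.log (R κ))) ∧
          (∀ j, ∀ y : ℂ, ‖y‖ ≤ 3 → ‖pj (u ᵥ* W) j y‖ ≤ C1 * (D : ℝ) ^ 2) ∧
          (∀ g : Gp, g.cusp ≠ 3 → ∀ k : ℕ,
            ‖Vale.Agent.P030.T.val D (Gc / 2) (u ᵥ* W) (g, k)‖ ≤ C1 * (D : ℝ) ^ 2 * 2 ^ k) := by
  obtain ⟨K0, hG⟩ := hG
  obtain ⟨K1, hB⟩ := hB
  obtain ⟨M, hM0, hM⟩ := exists_tup_bound
  have hK0 : 0 ≤ K0 := (hG 0 0).nonneg
  have hK1 : 0 ≤ K1 := (hB 0 0).nonneg
  have hcst : cst G * cst B = 1 := by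
    have h : cst (G * B) = cst G * cst B := by rw [cst, cst, cst, Matrix.map_mul]
    rw [← h, hGB, cst]
    ext i j
    by_cases hij : i = j
    · subst hij; simp
    · simp [hij]
  have hdB : (cst B).det ≠ 0 := by
    intro h
    have := congrArg Matrix.det hcst
    rw [Matrix.det_mul, h, mul_zero, Matrix.det_one] at this
    exact zero_ne_one this
  set a : ℝ := 1 + (Fintype.card (Fin 8) : ℝ) ^ 2 * (K0 * K1) with ha
  have ha0 : 0 < a := by positivity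
  set b : ℝ := 8 * (2 * K1) * a with hb
  have hb0 : 0 ≤ b := by positivity
  set l : ℝ := |Real.log ‖(cst B).det‖| with hl
  have hl0 : 0 ≤ l := abs_nonneg _
  refine ⟨a + b + l + 8 * M * b, by positivity, fun D hD R hR => ⟨WW D B R, ?_, fun u hu => ?_⟩⟩
  · rw [norm_det_WW hD B (fun i => by linarith [hR i]) hdB]
    refine Real.exp_le_exp.2 ?_
    have hD1 : (1 : ℝ) ≤ D := by exact_mod_cast hD
    have h1 : -l ≤ Real.log ‖(cst B).det‖ := neg_abs_le _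
    have h2 : (D : ℝ) * (-l) ≤ D * Real.log ‖(cst B).det‖ := by gcongr
    have h3 : 0 ≤ (a + b + 8 * M * b) * D := by positivity
    rw [Fintype.card_fin]
    push_cast
    nlinarith
  · have hrow : ∀ κ, ∀ y : ℂ, 3 ≤ ‖y‖ → ‖y‖ ≤ R κ →
        ‖∑ r, (u ᵥ* WW D B R) r * (rowp D r.1 y * evl (G κ r.2) y⁻¹)‖ ≤ a * (D : ℝ) ^ 2 := by
      intro κ y hy hy2
      have h1 := norm_sect_le hGB hr le_rfl hG hB hD (fun i => by linarith [hR i]) hu κ
        (y := y) (by linarith) hy2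
      rw [(evl_sect hr hG (u ᵥ* WW D B R) κ (by linarith)).1] at h1
      have h2 : ∑ r, (u ᵥ* WW D B R) r * (rowp D r.1 y * evl (G κ r.2) y⁻¹)
          = ∑ j, (∑ i : Fin D, (u ᵥ* WW D B R) (i, j) *
                (((-2 : ℂ) ^ (D - 1))⁻¹ * ((y + 1) ^ (i : ℕ) * (y - 1) ^ (D - 1 - i)))) *
                  evl (G κ j) y⁻¹ := by
        rw [sum_eq_pj (u ᵥ* WW D B R) (fun j => evl (G κ j) y⁻¹) y]
        exact Finset.sum_congr rfl fun j _ => mul_comm _ _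
      rw [h2]
      exact h1
    -- the components on the circle
    have hcirc : ∀ j, ∀ y : ℂ, ‖y‖ = 3 → ‖pj (u ᵥ* WW D B R) j y‖ ≤ b * (D : ℝ) ^ 2 := by
      intro j y hy
      have ht : r * ‖y⁻¹‖ ≤ 1 / 2 := by
        rw [norm_inv, hy]
        linarith
      have h1 : pj (u ᵥ* WW D B R) j y = ∑ κ, evl (B j κ) y⁻¹ *
          ∑ r, (u ᵥ* WW D B R) r * (rowp D r.1 y * evl (G κ r.2) y⁻¹) := by
        have h2 : ∀ κ, ∑ r, (u ᵥ* WW D B R) r * (rowp D r.1 y * evl (G κ r.2) y⁻¹)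
            = ∑ j', evl (G κ j') y⁻¹ * pj (u ᵥ* WW D B R) j' y := fun κ =>
          sum_eq_pj (u ᵥ* WW D B R) (fun j => evl (G κ j) y⁻¹) y
        simp_rw [h2, Finset.mul_sum]
        rw [Finset.sum_comm]
        have h3 : ∀ j', ∑ κ, evl (B j κ) y⁻¹ * (evl (G κ j') y⁻¹ * pj (u ᵥ* WW D B R) j' y)
            = (if j = j' then 1 else 0) * pj (u ᵥ* WW D B R) j' y := by
          intro j'
          rw [← evl_mat hr hB hG hBG (by linarith) j j', Finset.sum_mul]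
          exact Finset.sum_congr rfl fun κ _ => by ring
        simp_rw [h3, ite_mul, one_mul, zero_mul]
        rw [Finset.sum_ite_eq]
        simp
      rw [h1]
      have h4 : ∀ κ, ‖evl (B j κ) y⁻¹ *
          ∑ r, (u ᵥ* WW D B R) r * (rowp D r.1 y * evl (G κ r.2) y⁻¹)‖
          ≤ 2 * K1 * (a * (D : ℝ) ^ 2) := by
        intro κ
        rw [norm_mul]
        exact mul_le_mul ((hB j κ).norm_evl_le hr.le ht)
          (hrow κ y hy.ge (by rw [hy]; exact hR κ)) (norm_nonneg _) (by positivity)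
      refine (norm_sum_le _ _).trans ((Finset.sum_le_sum fun κ _ => h4 κ).trans (le_of_eq ?_))
      rw [Finset.sum_const, card_univ, Fintype.card_fin, nsmul_eq_mul, hb]
      push_cast
      ring
    have hdisc : ∀ j, ∀ y : ℂ, ‖y‖ ≤ 3 → ‖pj (u ᵥ* WW D B R) j y‖ ≤ b * (D : ℝ) ^ 2 := by
      intro j y hy
      have hd : Differentiable ℂ (pj (u ᵥ* WW D B R) j) := by
        unfold pj
        exact Differentiable.fun_sum fun i _ => (differentiable_rowp D i).const_mul _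
      refine Complex.norm_le_of_forall_mem_frontier_norm_le (U := Metric.ball (0 : ℂ) 3)
        Metric.isBounded_ball hd.diffContOnCl (fun z hz => ?_) ?_
      · rw [frontier_ball (0 : ℂ) (by norm_num), mem_sphere_zero_iff_norm] at hz
        exact hcirc j z hz
      · rw [closure_ball (0 : ℂ) (by norm_num), mem_closedBall_zero_iff]
        exact hy
    have hD2 : (0 : ℝ) ≤ (D : ℝ) ^ 2 := by positivity
    refine ⟨fun κ y hy hy2 => (hrow κ y hy hy2).trans ?_, fun κ g hg hGg x k hk => ?_,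
      fun j y hy => (hdisc j y hy).trans ?_, fun g hg k => ?_⟩
    · refine mul_le_mul_of_nonneg_right ?_ hD2
      have : 0 ≤ 8 * M * b := by positivity
      linarith
    · have hRk : 0 < R κ := by linarith [hR κ]
      have h1 : Vale.Agent.P030.T.val D x (u ᵥ* WW D B R) (g, k)
          = u (⟨D - 1 - k, by omega⟩, κ) * ((R κ : ℂ) ^ (D - 1 - k))⁻¹ := by
        rw [val_c3 D x _ hg, ← coeff_sect hGB hD R u κ hk]
        congr 2
        funext j
        exact (hGg j).symm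
      refine ⟨h1, ?_⟩
      rw [h1, norm_mul, norm_inv, norm_pow, Complex.norm_real, Real.norm_of_nonneg hRk.le]
      have h2 : Real.exp (-((D : ℝ) - 1 - k) * Real.log (R κ)) = (R κ ^ (D - 1 - k))⁻¹ := by
        have h3 : ((D - 1 - k : ℕ) : ℝ) = (D : ℝ) - 1 - k := by
          rw [Nat.sub_sub, Nat.cast_sub (by omega)]
          push_cast
          ring
        rw [← h3, neg_mul, Real.exp_neg, Real.exp_nat_mul, Real.exp_log hRk]
      rw [h2]
      have h4 : 0 ≤ (R κ ^ (D - 1 - k))⁻¹ := by positivity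
      calc _ ≤ 1 * (R κ ^ (D - 1 - k))⁻¹ := mul_le_mul_of_nonneg_right (hu _) h4
        _ = _ := one_mul _
    · refine mul_le_mul_of_nonneg_right ?_ hD2
      have : 0 ≤ 8 * M * b := by positivity
      linarith
    · have h1 := norm_coeff_le (S := fun t => ∑ r, (u ᵥ* WW D B R) r *
        (rowp D r.1 (yc g.cusp t) * tupC g t r.2))
        (c := fun k => Vale.Agent.P030.T.val D (Gc / 2) (u ᵥ* WW D B R) (g, k))
        (fun z hz => hasSum_val _ hg (by rwa [mem_ball_zero_iff] at hz))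
        (r := 1 / 2) (M := 8 * (M * (b * (D : ℝ) ^ 2))) (by norm_num) (by norm_num)
        (fun z hz => ?_) k
      · refine h1.trans ?_
        have h5 : 8 * (M * (b * (D : ℝ) ^ 2)) / (1 / 2) ^ k
            = 8 * M * b * (D : ℝ) ^ 2 * 2 ^ k := by
          rw [one_div, inv_pow, div_inv_eq_mul]
          ring
        rw [h5]
        refine mul_le_mul_of_nonneg_right (mul_le_mul_of_nonneg_right ?_ hD2) (by positivity)
        linarith
      · rw [sum_eq_pj (u ᵥ* WW D B R) (tupC g z) (yc g.cusp z)]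
        have h6 : ∀ j, ‖tupC g z j * pj (u ᵥ* WW D B R) j (yc g.cusp z)‖
            ≤ M * (b * (D : ℝ) ^ 2) := by
          intro j
          rw [norm_mul]
          exact mul_le_mul (hM g j z hz.le) (hdisc j _ (norm_yc_le hg hz.le)) (norm_nonneg _)
            hM0.le
        refine (norm_sum_le _ _).trans ((Finset.sum_le_sum fun j _ => h6 j).trans (le_of_eq ?_))
        rw [Finset.sum_const, card_univ, Fintype.card_fin, nsmul_eq_mul]
        push_cast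
        ring

/-- the frame of a constant change of `G3` -/
theorem frame_G3 (M : Matrix (Fin 8) (Fin 8) ℂ) (hM : M.det ≠ 0) :
    let G := M.map (PowerSeries.C (R := ℂ)) * G3
    ∃ C1 : ℝ, 0 < C1 ∧ ∀ D : ℕ, 0 < D → ∀ R : Fin 8 → ℝ, (∀ i, 3 ≤ R i) →
      ∃ W : Matrix (Fin D × Fin 8) (Fin D × Fin 8) ℂ,
        Real.exp (-((D : ℝ) * (D - 1) / 2) * (∑ i, Real.log (R i))
          + 4 * (D : ℝ) * (D - 1) * Real.log 2 - C1 * D) ≤ ‖W.det‖ ∧
        ∀ u : Fin D × Fin 8 → ℂ, (∀ r, ‖u r‖ ≤ 1) →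
          (∀ κ, ∀ y : ℂ, 3 ≤ ‖y‖ → ‖y‖ ≤ R κ →
            ‖∑ r, (u ᵥ* W) r * (rowp D r.1 y * evl (G κ r.2) y⁻¹)‖ ≤ C1 * (D : ℝ) ^ 2) ∧
          (∀ κ, ∀ g : Gp, g.cusp = 3 → (∀ j, G κ j = cs (tup0 g j)) →
            ∀ (x : ℝ) (k : ℕ) (hk : k < D),
            Vale.Agent.P030.T.val D x (u ᵥ* W) (g, k)
              = u (⟨D - 1 - k, by omega⟩, κ) * ((R κ : ℂ) ^ (D - 1 - k))⁻¹ ∧
            ‖Vale.Agent.P030.T.val D x (u ᵥ* W) (g, k)‖
              ≤ Real.exp (-((D : ℝ) - 1 - k) * Real.log (R κ))) ∧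
          (∀ j, ∀ y : ℂ, ‖y‖ ≤ 3 → ‖pj (u ᵥ* W) j y‖ ≤ C1 * (D : ℝ) ^ 2) ∧
          (∀ g : Gp, g.cusp ≠ 3 → ∀ k : ℕ,
            ‖Vale.Agent.P030.T.val D (Gc / 2) (u ᵥ* W) (g, k)‖ ≤ C1 * (D : ℝ) ^ 2 * 2 ^ k) := by
  intro G
  obtain ⟨B, h1, h2, ⟨K, hK⟩, ⟨K', hK'⟩⟩ := exists_B3 (r := 5 / 4) (by norm_num)
  have hu : IsUnit M.det := isUnit_iff_ne_zero.2 hM
  have e1 : M.map (PowerSeries.C (R := ℂ)) * (M⁻¹).map (PowerSeries.C (R := ℂ)) = 1 := by
    rw [← Matrix.map_mul, Matrix.mul_nonsing_inv M hu]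
    exact Matrix.map_one _ (map_zero _) (map_one _)
  have hGB : G * (B * (M⁻¹).map (PowerSeries.C (R := ℂ))) = 1 := by
    show M.map (PowerSeries.C (R := ℂ)) * G3 * (B * (M⁻¹).map (PowerSeries.C (R := ℂ))) = 1
    rw [Matrix.mul_assoc, ← Matrix.mul_assoc G3, h1, Matrix.one_mul, e1]
  refine frame_X hGB (mul_eq_one_comm.1 hGB) (r := 5 / 4) (by norm_num) (by norm_num)
    (frame_const hM ⟨K', hK'⟩ det_G3).1 ⟨∑ _i : Fin 8, ∑ j : Fin 8, K * ∑ k : Fin 8, ‖M⁻¹ k j‖, fun i j n => ?_⟩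
  have hK0 : 0 ≤ K := (hK i j).nonneg
  rw [Matrix.mul_apply, map_sum]
  have h3 : ∀ k, ‖coeff n (B i k * (M⁻¹).map (PowerSeries.C (R := ℂ)) k j)‖
      ≤ K * (5 / 4) ^ n * ‖M⁻¹ k j‖ := by
    intro k
    rw [Matrix.map_apply, coeff_mul_C, norm_mul]
    exact mul_le_mul_of_nonneg_right (hK i k n) (norm_nonneg _)
  refine (norm_sum_le _ _).trans ((Finset.sum_le_sum fun k _ => h3 k).trans ?_)
  rw [← Finset.mul_sum]
  have h4 : K * ∑ k, ‖M⁻¹ k j‖ ≤ ∑ j, K * ∑ k, ‖M⁻¹ k j‖ :=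
    Finset.single_le_sum (f := fun j => K * ∑ k, ‖M⁻¹ k j‖)
      (fun _ _ => mul_nonneg hK0 (Finset.sum_nonneg fun _ _ => norm_nonneg _)) (mem_univ j)
  have h5 : ∑ j, K * ∑ k, ‖M⁻¹ k j‖ ≤ ∑ _i : Fin 8, ∑ j, K * ∑ k, ‖M⁻¹ k j‖ :=
    Finset.single_le_sum (f := fun _ : Fin 8 => ∑ j, K * ∑ k, ‖M⁻¹ k j‖)
      (fun _ _ => Finset.sum_nonneg fun _ _ => mul_nonneg hK0
        (Finset.sum_nonneg fun _ _ => norm_nonneg _)) (mem_univ i)
  calc K * (5 / 4) ^ n * ∑ k, ‖M⁻¹ k j‖ = (K * ∑ k, ‖M⁻¹ k j‖) * (5 / 4) ^ n := by ring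
    _ ≤ _ := mul_le_mul_of_nonneg_right (h4.trans h5) (by positivity)

/-- the entries of the changed frame as functions -/
theorem evl_MG3 (M : Matrix (Fin 8) (Fin 8) ℂ) (κ j : Fin 8) {t : ℂ} (ht : ‖t‖ < 1) :
    evl ((M.map (PowerSeries.C (R := ℂ)) * G3) κ j) t = ∑ i, M κ i * evq (g3 i j) t := by
  rw [Matrix.mul_apply]
  have h0 : ∀ i, Summable fun n => ‖coeff n (G3 i j) * t ^ n‖ := by
    intro i
    have := (pg_g3 i j).summable_norm ht
    refine this.congr fun n => ?_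
    rw [G3, Matrix.of_apply, PowerSeries.coeff_map]
  have h1 : ∀ i, evl ((M.map (PowerSeries.C (R := ℂ))) κ i * G3 i j) t
      = M κ i * evq (g3 i j) t ∧
      Summable fun n => ‖coeff n ((M.map (PowerSeries.C (R := ℂ))) κ i * G3 i j) * t ^ n‖ := by
    intro i
    have h2 : ((M.map (PowerSeries.C (R := ℂ))) κ i : ℂ⟦X⟧)
        = ((Polynomial.C (M κ i) : Polynomial ℂ) : ℂ⟦X⟧) := by
      rw [Matrix.map_apply, Polynomial.coe_C]
    rw [h2]
    have h3 := evl_mul' (summable_poly (Polynomial.C (M κ i)) t) (h0 i)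
    refine ⟨?_, h3.2⟩
    rw [h3.1, evl_poly, Polynomial.eval_C, ← evl_cs (g3 i j) t]
    rfl
  rw [evl_sum _ _ fun i _ => (h1 i).2]
  exact Finset.sum_congr rfl fun i _ => (h1 i).1

end Vale.P030.H205
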