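import Vale.Agent.P030.H205.G3
import Vale.Agent.P030.H787.PGVec

/-!
# P030: the frame at c3 with the frame matrix `G3`, unconditional
-/

open PowerSeries Finset Matrix

namespace Vale.P030.H205

open Vale.Agent.P030.T Vale.Agent.P030.H462 Vale.Agent.P030.AR

theorem pg_g3 (i j : Fin 8) : PG (Rat.castHom ℂ) (g3 i j) := by
  have hc : ∀ q : ℚ, PG (Rat.castHom ℂ) (C q : ℚ⟦X⟧) := fun q => PG.const q
  fin_cases i
  · exact Vale.Agent.P030.H787.pg_tup0 .x2 j
  · exact Vale.Agent.P030.H787.pg_tup0 .xl j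
  · exact Vale.Agent.P030.H787.pg_tup0 .x1 j
  · exact Vale.Agent.P030.H787.pg_xO0 j
  · exact Vale.Agent.P030.H787.pg_xE0 j
  · fin_cases j <;> first | exact PG.zero | exact PG.one
  · fin_cases j <;> first | exact PG.zero | exact pq_serK.neg | exact (pq_tw pq_serK).neg
  · exact Vale.Agent.P030.H787.pg_xM0 j

theorem gb_G3' : ∃ K, ∀ i j, GB K 2 (G3 i j) := gb_G3 pg_g3

end Vale.P030.H205
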