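import Vale.Agent.P030.H205.G3Frame
import Vale.Agent.P030.H392.Wr

/-!
# P030: the inverse of the log-free frame at c3 has coefficients of polynomial growth
-/

open PowerSeries Finset Matrix

namespace Vale.P030.H205


open Vale.Agent.P030.T Vale.Agent.P030.H462 Vale.Agent.P030.AR Vale.Agent.P030.H787

theorem serK_wr : (1 - X ^ 2) * (X * (serK * dd serM - dd serK * serM) + serK ^ 2) = 1 := by
  have h1 := Vale.Agent.P030.H392.wronskian serK serM
  rw [Vale.Agent.P030.H392.MM_serK, Vale.Agent.P030.H392.MM_serM] at h1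
  set F := (1 - X ^ 2) * (X * (serK * dd serM - dd serK * serM) + serK ^ 2) with hF
  have hd : dd F = 0 := by
    have e1 : F = X * (1 - X ^ 2) * (serK * dd serM - dd serK * serM)
        + (1 - X ^ 2) * (serK * serK) := by rw [hF]; ring
    have e2 : dd ((1 - X ^ 2 : ℚ⟦X⟧)) = -(C 2 * X) := by
      have : (1 - X ^ 2 : ℚ⟦X⟧) = 1 - X * X := by ring
      rw [this, Vale.Agent.P030.H392.dd_sub, Vale.Agent.P030.H392.dd_one,
        Vale.Agent.P030.H392.dd_mul, Vale.Agent.P030.H392.dd_X,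
        show (C 2 : ℚ⟦X⟧) = 2 from map_ofNat C 2]
      ring
    rw [e1, Vale.Agent.P030.H392.dd_add, h1, Vale.Agent.P030.H392.dd_mul (1 - X ^ 2),
      Vale.Agent.P030.H392.dd_mul serK, e2, show (C 2 : ℚ⟦X⟧) = 2 from map_ofNat C 2]
    ring
  ext n
  rcases n with _ | n
  · rw [coeff_zero_eq_constantCoeff_apply, coeff_zero_eq_constantCoeff_apply, hF]
    simp [cc_serK]
  · have h2 := Vale.Agent.P030.H392.coeff_dd n F
    rw [hd, map_zero] at h2
    have h3 : ((n : ℚ) + 1) ≠ 0 := by positivity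
    have h4 : coeff (n + 1) F = 0 := by
      rcases mul_eq_zero.1 h2.symm with h | h
      · exact absurd h h3
      · exact h
    rw [h4, coeff_one, if_neg (Nat.succ_ne_zero n)]

/-- the second entry of `xM0` -/
noncomputable def serP : ℚ⟦X⟧ := X * tw serM + sc (1 / 2) ((1 - X ^ 2) * serK)

theorem tw_eq (f : ℚ⟦X⟧) : tw f = C (1 / 2) * ((1 + X) * ((1 - X) * dd f - f)) := by
  have h1 : dd ((1 - X) * f) = (1 - X) * dd f - f := by
    rw [Vale.Agent.P030.H392.dd_mul, Vale.Agent.P030.H392.dd_sub, Vale.Agent.P030.H392.dd_one,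
      Vale.Agent.P030.H392.dd_X]
    ring
  rw [tw, sc, h1]

theorem half_two : (C (1 / 2) : ℚ⟦X⟧) * 2 = 1 := by
  rw [← map_ofNat (C (R := ℚ)) 2, ← map_mul, ← map_one (C (R := ℚ))]
  norm_num

/-- the determinant of the `K`-block -/
theorem K_block : serK * serP - X * serM * tw serK = C (1 / 2) := by
  have h1 := serK_wr
  unfold serP sc
  rw [tw_eq, tw_eq]
  linear_combination (C (1 / 2) : ℚ⟦X⟧) * h1

/-- representable vectors -/
def Rp (v : Fin 8 → ℚ⟦X⟧) : Prop :=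
  ∃ c : Fin 8 → ℚ⟦X⟧, (∀ i, PG (Rat.castHom ℂ) (c i)) ∧ ∀ j, ∑ i, c i * g3 i j = v j

theorem Rp.row (i : Fin 8) : Rp (g3 i) := by
  classical
  refine ⟨Pi.single i 1, fun k => ?_, fun j => ?_⟩
  · by_cases h : k = i
    · subst h; rw [Pi.single_eq_same]; exact PG.one
    · rw [Pi.single_eq_of_ne h]; exact PG.zero
  · rw [Finset.sum_eq_single i]
    · rw [Pi.single_eq_same, one_mul]
    · intro k _ hk
      rw [Pi.single_eq_of_ne hk, zero_mul]
    · intro h; exact absurd (mem_univ i) h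

theorem Rp.lin {v w : Fin 8 → ℚ⟦X⟧} {a b : ℚ⟦X⟧} (ha : PG (Rat.castHom ℂ) a)
    (hb : PG (Rat.castHom ℂ) b) (hv : Rp v) (hw : Rp w) :
    Rp fun j => a * v j + b * w j := by
  obtain ⟨c, hc, hc'⟩ := hv
  obtain ⟨d, hd, hd'⟩ := hw
  refine ⟨fun i => a * c i + b * d i, fun i => (ha.mul (hc i)).add (hb.mul (hd i)), fun j => ?_⟩
  show ∑ i, (a * c i + b * d i) * g3 i j = a * v j + b * w j
  rw [← hc' j, ← hd' j, Finset.mul_sum, Finset.mul_sum, ← Finset.sum_add_distrib]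
  exact Finset.sum_congr rfl fun i _ => by ring

theorem Rp.congr {v w : Fin 8 → ℚ⟦X⟧} (hv : Rp v) (h : ∀ j, v j = w j) : Rp w := by
  obtain ⟨c, hc, hc'⟩ := hv
  exact ⟨c, hc, fun j => (hc' j).trans (h j)⟩

theorem pgC (q : ℚ) : PG (Rat.castHom ℂ) (C q : ℚ⟦X⟧) := PG.const q

theorem Rp.smul {v : Fin 8 → ℚ⟦X⟧} {a : ℚ⟦X⟧} (ha : PG (Rat.castHom ℂ) a) (hv : Rp v) :
    Rp fun j => a * v j :=
  (Rp.lin ha PG.zero hv hv).congr fun j => by ring

theorem Rp.add {v w : Fin 8 → ℚ⟦X⟧} (hv : Rp v) (hw : Rp w) : Rp fun j => v j + w j :=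
  (Rp.lin PG.one PG.one hv hw).congr fun j => by ring

/-- unit vectors -/
noncomputable def un (i : Fin 8) : Fin 8 → ℚ⟦X⟧ := Pi.single i 1

theorem C_half : (C (1 / 2) : ℚ⟦X⟧) * C 2 = 1 := by
  rw [← map_mul]; norm_num

theorem rp3 : Rp (un 3) := (Rp.row 5).congr fun j => by
  fin_cases j <;> simp [g3, un]

theorem pgX : PG (Rat.castHom ℂ) (X : ℚ⟦X⟧) := PG.varX

theorem rp5 : Rp (un 5) := by
  refine (Rp.lin (pgC 2) (pgX.mul (pgC (1 / 4))) (Rp.row 0) (Rp.row 6)).congr fun j => ?_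
  have h1 : (C 2 : ℚ⟦X⟧) * C (1 / 2) = 1 := by rw [← map_mul]; norm_num
  have h2 : (C 2 : ℚ⟦X⟧) * C (1 / 8) = C (1 / 4) := by rw [← map_mul]; norm_num
  fin_cases j
  · simp [g3, un, tup0]
  · simp [g3, un, tup0]
  · simp [g3, un, tup0]
  · simp [g3, un, tup0]
  · simp [g3, un, tup0]
  · simpa [g3, un, tup0] using h1
  · simp only [g3, un, tup0, sc]
    show C 2 * (C (1 / 8) * (X * serK)) + X * C (1 / 4) * (-serK) = 0
    linear_combination (X * serK) * h2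
  · simp only [g3, un, tup0, sc]
    show C 2 * (C (1 / 8) * (X * tw serK)) + X * C (1 / 4) * (-(tw serK)) = 0
    linear_combination (X * tw serK) * h2

theorem rp45 : Rp fun j => un 4 j - un 5 j := by
  refine (Rp.lin PG.one.neg pgX (Rp.row 1) (Rp.row 6)).congr fun j => ?_
  fin_cases j
  · simp [g3, un, tup0]
  · simp [g3, un, tup0]
  · simp [g3, un, tup0]
  · simp [g3, un, tup0]
  · simp [g3, un, tup0]
  · simp [g3, un, tup0]
  · show -1 * (-(X * serK)) + X * (-serK) = 0 - 0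
    ring
  · show -1 * (-(X * tw serK)) + X * (-(tw serK)) = 0 - 0
    ring

theorem rp4 : Rp (un 4) := (Rp.add rp45 rp5).congr fun j => by ring

theorem rp6 : Rp (un 6) := by
  have hP : PG (Rat.castHom ℂ) serP := by
    have h := pg_xM0 7
    have e : xM0 7 = -serP := rfl
    rw [e] at h
    have := h.neg
    rwa [neg_neg] at this
  refine (Rp.lin ((pgC 2).mul hP).neg ((pgC 2).mul (pq_tw pq_serK)) (Rp.row 6) (Rp.row 7)).congr
    fun j => ?_
  have h1 := K_block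
  have h2 : (C 2 : ℚ⟦X⟧) * C (1 / 2) = 1 := by rw [← map_mul]; norm_num
  fin_cases j
  · simp [g3, un, xM0]
  · simp [g3, un, xM0]
  · simp [g3, un, xM0]
  · simp [g3, un, xM0]
  · simp [g3, un, xM0]
  · simp [g3, un, xM0]
  · show -(C 2 * serP) * (-serK) + C 2 * tw serK * (-(X * serM)) = 1
    linear_combination (C 2 : ℚ⟦X⟧) * h1 + h2
  · show -(C 2 * serP) * (-(tw serK)) + C 2 * tw serK * (-serP) = 0
    ring

theorem rp7 : Rp (un 7) := by
  refine (Rp.lin ((pgC 2).mul (pgX.mul pg_serM)) ((pgC 2).mul pg_serK).neg (Rp.row 6)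
    (Rp.row 7)).congr fun j => ?_
  have h1 := K_block
  have h2 : (C 2 : ℚ⟦X⟧) * C (1 / 2) = 1 := by rw [← map_mul]; norm_num
  fin_cases j
  · simp [g3, un, xM0]
  · simp [g3, un, xM0]
  · simp [g3, un, xM0]
  · simp [g3, un, xM0]
  · simp [g3, un, xM0]
  · simp [g3, un, xM0]
  · show C 2 * (X * serM) * (-serK) + -(C 2 * serK) * (-(X * serM)) = 0
    ring
  · show C 2 * (X * serM) * (-(tw serK)) + -(C 2 * serK) * (-serP) = 1
    linear_combination (C 2 : ℚ⟦X⟧) * h1 + h2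

theorem rp1 : Rp (un 1) := by
  refine (Rp.lin PG.one ((pgC (1 / 2)).mul pg_lgm).neg (Rp.row 4) rp45).congr fun j => ?_
  fin_cases j
  · simp [g3, un, xE0]
  · simp [g3, un, xE0]
  · simp [g3, un, xE0]
  · simp [g3, un, xE0]
  · show 1 * (C (1 / 2) * lgm) + -(C (1 / 2) * lgm) * (1 - 0) = 0
    ring
  · show 1 * (-(C (1 / 2) * lgm)) + -(C (1 / 2) * lgm) * (0 - 1) = 0
    ring
  · simp [g3, un, xE0]
  · simp [g3, un, xE0]

theorem rp2 : Rp (un 2) := by
  have h := Rp.lin PG.one (pgC (1 / 4)) (Rp.row 2) (Rp.row 7)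
  have h' := Rp.lin PG.one (pg_lgp.add pg_lgm) h rp3
  have h'' := Rp.lin PG.one.neg pg_lgm.neg h' rp45
  refine h''.congr fun j => ?_
  fin_cases j
  · simp [g3, un, xM0, tup0]
  · simp [g3, un, xM0, tup0]
  · simp [g3, un, xM0, tup0]
  · show -1 * (1 * (1 * (-(lgp + lgm)) + C (1 / 4) * 0) + (lgp + lgm) * 1) + -lgm * (0 - 0) = 0
    ring
  · show -1 * (1 * (1 * (-lgm) + C (1 / 4) * 0) + (lgp + lgm) * 0) + -lgm * (1 - 0) = 0
    ring
  · show -1 * (1 * (1 * lgm + C (1 / 4) * 0) + (lgp + lgm) * 0) + -lgm * (0 - 1) = 0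
    ring
  · show -1 * (1 * (1 * (C (1 / 4) * (X * serM)) + C (1 / 4) * (-(X * serM))) + (lgp + lgm) * 0)
      + -lgm * (0 - 0) = 0
    ring
  · show -1 * (1 * (1 * (C (1 / 4) * serP) + C (1 / 4) * (-serP)) + (lgp + lgm) * 0)
      + -lgm * (0 - 0) = 0
    ring

theorem rp0_aux {w : Fin 8 → ℚ⟦X⟧} (hw : Rp w) (hp : ∀ j, PG (Rat.castHom ℂ) (w j))
    (e0 : w 0 = 1) (e1 : w 1 = 0) : Rp (un 0) := by
  have h3 := Rp.lin PG.one (hp 2).neg hw rp2
  have h4 := Rp.lin PG.one (hp 3).neg h3 rp3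
  have h5 := Rp.lin PG.one (hp 4).neg h4 rp4
  have h6 := Rp.lin PG.one (hp 5).neg h5 rp5
  have h7 := Rp.lin PG.one (hp 6).neg h6 rp6
  have h8 := Rp.lin PG.one (hp 7).neg h7 rp7
  refine h8.congr fun j => ?_
  fin_cases j <;> simp [un, e0, e1]

theorem rp0 : Rp (un 0) := rp0_aux (w := xO0) (Rp.row 3) pg_xO0 rfl rfl

theorem rp_un (j : Fin 8) : Rp (un j) := by
  fin_cases j
  · exact rp0
  · exact rp1
  · exact rp2
  · exact rp3
  · exact rp4
  · exact rp5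
  · exact rp6
  · exact rp7

/-- geometric bound with any radius larger than one -/
theorem gb_of_pg' {f : ℚ⟦X⟧} (h : PG (Rat.castHom ℂ) f) {r : ℝ} (hr : 1 < r) :
    ∃ K, GB K r (cs f) := by
  obtain ⟨C, k, hC, h⟩ := h
  have hr0 : 0 < r := by linarith
  have hs := summable_pg_aux k (r := r⁻¹) (by positivity) (inv_lt_one_of_one_lt₀ hr)
  obtain ⟨M, hM⟩ := hs.tendsto_atTop_zero.bddAbove_range
  have hM' : ∀ n : ℕ, ((n : ℝ) + 1) ^ k * r⁻¹ ^ n ≤ M := fun n => hM ⟨n, rfl⟩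
  refine ⟨C * M, fun n => ?_⟩
  rw [PowerSeries.coeff_map]
  refine (h n).trans ?_
  have h1 := hM' n
  rw [inv_pow, mul_inv_le_iff₀ (by positivity)] at h1
  rw [mul_assoc]
  exact mul_le_mul_of_nonneg_left h1 hC

/-- **the inverse frame** -/
theorem exists_B3 {r : ℝ} (hr : 1 < r) : ∃ B : Matrix (Fin 8) (Fin 8) ℂ⟦X⟧, G3 * B = 1 ∧ B * G3 = 1 ∧
    (∃ K, ∀ i j, GB K r (B i j)) ∧ ∃ K, ∀ i j, GB K r (G3 i j) := by
  choose c hc hc' using rp_un
  have h1 : (Matrix.of fun j i => cs (c j i)) * G3 = 1 := by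
    ext1 j k
    rw [Matrix.mul_apply]
    have h2 : ∑ i, (Matrix.of fun j i => cs (c j i)) j i * G3 i k = cs (∑ i, c j i * g3 i k) := by
      rw [cs, map_sum]
      refine Finset.sum_congr rfl fun i _ => ?_
      rw [map_mul]
      rfl
    rw [h2, hc' j k, un, Matrix.one_apply, Pi.single_apply]
    by_cases h : j = k
    · rw [if_pos h, if_pos h.symm]; exact map_one _
    · rw [if_neg h, if_neg (fun h' => h h'.symm)]; exact map_zero _
  refine ⟨Matrix.of fun j i => cs (c j i), mul_eq_one_comm.1 h1, h1, ?_, ?_⟩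
  · exact exists_gb (by linarith) fun j i => gb_of_pg' (hc j i) hr
  · exact exists_gb (by linarith) fun i j => gb_of_pg' (pg_g3 i j) hr

end Vale.P030.H205
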