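import Vale.Agent.P030.T.Frame
import Vale.Agent.P030.H205.Bound

/-!
# P030: the archimedean statement in pivot form

`StARb P c0 A` : for large `s` there are an enumeration `en` of all admissible columns, a row frame
`F`, and exponents `b n` such that `|λ_n(y)| ≤ (∑ |y_i|) exp (b n)` for all `y` (coordinates in the
frame) killed by `λ_j`, `j < n`, and `∑_k b (σ k) + (K/2) log K ≤ log |det F| - (A-ε) s²` for every
increasing choice `σ` of `K` columns.

`irrational_of_b` : `StNV`, `StARb`, `StOD`, `StTW` and `B + B2 < A` imply that Catalan's constant is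
irrational.
-/

open PowerSeries

namespace Vale.P030.H205

open Vale.Agent.P030.T Metric Real

/-- the functional of a column, at the point `G/2`, as a row vector over `ℂ` -/
noncomputable def colv (D : ℕ) (c : Cl) (r : Fin D × Fin 8) : ℂ :=
  ((((ent0 D c.1 c.2 r.1 r.2 : ℚ) : ℝ) + Gc / 2 * ((ent1 D c.1 c.2 r.1 r.2 : ℚ) : ℝ) : ℝ) : ℂ)

/-- AR in pivot form -/
def StARb (P : Par) (c0 : ℕ) (A : ℝ) : Prop :=
  ∀ ε : ℝ, 0 < ε → ∃ s0 : ℕ, ∀ s, s0 ≤ s →
    ∃ (N : ℕ) (en : Fin N → Cl) (F : Matrix (Fin (P.D0 * s) × Fin 8) (Fin (P.D0 * s) × Fin 8) ℂ)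
      (b : Fin N → ℝ),
      Function.Injective en ∧ (∀ n, (en n).2 < P.ht (en n).1 * s + c0) ∧
      (∀ c : Cl, c.2 < P.ht c.1 * s + c0 → ∃ n, en n = c) ∧
      F.det ≠ 0 ∧
      (∀ (n : Fin N) (y : Fin (P.D0 * s) × Fin 8 → ℂ),
        (∀ j < n, ∑ i, (∑ a, colv (P.D0 * s) (en j) a * F a i) * y i = 0) →
        ‖∑ i, (∑ a, colv (P.D0 * s) (en n) a * F a i) * y i‖ ≤ (∑ i, ‖y i‖) * Real.exp (b n)) ∧
      (∀ σ : Fin (P.D0 * s * 8) → Fin N, StrictMono σ →
        ∑ k, b (σ k) + ((P.D0 * s * 8 : ℕ) : ℝ) * Real.log √((P.D0 * s * 8 : ℕ) : ℝ) ≤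
          Real.log ‖F.det‖ + -(A - ε) * (s : ℝ) ^ 2)

/-- NV and AR together, for the rational number `x = G/2` -/
def StNVAR (P : Par) (c0 : ℕ) (A : ℝ) : Prop :=
  ∀ x : ℚ, (x : ℝ) = Gc / 2 → ∀ ε : ℝ, 0 < ε → ∃ s0 : ℕ, ∀ s, s0 ≤ s → ∃ σ, Adm P c0 s σ ∧
    (Mx (P.D0 * s) x σ).det ≠ 0 ∧
    |(Mx (P.D0 * s) (Gc / 2) σ).det| ≤ Real.exp (-(A - ε) * (s : ℝ) ^ 2)

theorem mx_transpose_cast (D : ℕ) (σ : Fin D × Fin 8 → Cl) :
    ((Mx D (Gc / 2) σ).map (algebraMap ℝ ℂ)).transpose = Matrix.of fun c r => colv D (σ c) r := by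
  ext c r
  simp [Mx, colv]

theorem stNVAR_of {P : Par} {c0 : ℕ} {A : ℝ} (hNV : StNV P c0) (hAR : StARb P c0 A) :
    StNVAR P c0 A := by
  classical
  intro x hx ε hε
  obtain ⟨s1, h1⟩ := hNV x
  obtain ⟨s2, h2⟩ := hAR ε hε
  refine ⟨max s1 s2, fun s hs => ?_⟩
  obtain ⟨σ0, hσ0, hdet0⟩ := h1 s (le_trans (le_max_left _ _) hs)
  obtain ⟨N, en, F, b, hen, hht, hsurj, hF, hana, hbd⟩ :=
    h2 s (le_trans (le_max_right _ _) hs)
  let e : Fin (P.D0 * s * 8) ≃ Fin (P.D0 * s) × Fin 8 := finProdFinEquiv.symm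
  let A' : Matrix (Fin N) (Fin (P.D0 * s) × Fin 8) ℂ :=
    Matrix.of fun n a => colv (P.D0 * s) (en n) a
  have hinj : ∀ y : Fin (P.D0 * s) × Fin 8 → ℂ, (∀ n, ∑ i, A' n i * y i = 0) → y = 0 := by
    intro y hy
    have h3 : (Mx (P.D0 * s) (Gc / 2) σ0).det ≠ 0 := by
      rw [← hx, ← det_cast]
      exact_mod_cast hdet0
    have h4 : (((Mx (P.D0 * s) (Gc / 2) σ0).map (algebraMap ℝ ℂ)).transpose).det ≠ 0 := by
      rw [Matrix.det_transpose, ← RingHom.mapMatrix_apply, ← RingHom.map_det]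
      simpa using h3
    rw [mx_transpose_cast] at h4
    refine Matrix.eq_zero_of_mulVec_eq_zero h4 ?_
    funext c
    obtain ⟨n, hn⟩ := hsurj (σ0 c) (hσ0.2 c)
    have h5 := hy n
    simp only [Matrix.mulVec, dotProduct, Matrix.of_apply, Pi.zero_apply]
    simp only [A', Matrix.of_apply, hn] at h5
    exact h5
  obtain ⟨σ, hσ, hdet, hle⟩ := frame_pivot_bound e A' F hF hinj b (by
    intro n y hy
    exact hana n y hy)
  let σ' : Fin (P.D0 * s) × Fin 8 → Cl := fun c => en (σ (e.symm c))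
  have hadm : Adm P c0 s σ' := by
    refine ⟨?_, fun c => hht _⟩
    intro c c' hcc
    exact e.symm.injective (hσ.injective (hen hcc))
  have hdeteq : ((algebraMap ℝ ℂ) (Mx (P.D0 * s) (Gc / 2) σ').det) = (A'.submatrix σ e).det := by
    rw [RingHom.map_det, ← Matrix.det_transpose]
    have h6 : ((algebraMap ℝ ℂ).mapMatrix (Mx (P.D0 * s) (Gc / 2) σ')).transpose =
        (A'.submatrix σ e).submatrix e.symm e.symm := by
      have := mx_transpose_cast (P.D0 * s) σ'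
      rw [RingHom.mapMatrix_apply, this]
      ext c r
      simp [A', σ']
    rw [h6, Matrix.det_submatrix_equiv_self]
  have habs : |(Mx (P.D0 * s) (Gc / 2) σ').det| = ‖(A'.submatrix σ e).det‖ := by
    rw [← hdeteq]
    simp
  refine ⟨σ', hadm, ?_, ?_⟩
  · have h7 : (Mx (P.D0 * s) (Gc / 2) σ').det ≠ 0 := by
      rw [← abs_pos, habs]
      exact norm_pos_iff.2 hdet
    rw [← hx, ← det_cast] at h7
    exact_mod_cast h7
  · rw [habs]
    have h9 : 0 < ‖F.det‖ := norm_pos_iff.2 hF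
    have h10 : Real.log ‖(A'.submatrix σ e).det‖ + Real.log ‖F.det‖ ≤
        Real.log ‖F.det‖ + -(A - ε) * (s : ℝ) ^ 2 := hle.trans (hbd σ hσ)
    rw [← Real.log_le_iff_le_exp (norm_pos_iff.2 hdet)]
    linarith

/-- the deduction, with NV and AR combined -/
theorem irrational_of_nvar {P : Par} {c0 : ℕ} {A B B2 : ℝ} (hNVAR : StNVAR P c0 A)
    (hOD : StOD P c0 B) (hTW : StTW P c0 B2) (hnum : B + B2 < A) :
    Irrational (∑' j : ℕ, (-1 : ℝ) ^ j / (2 * (j : ℝ) + 1) ^ 2) := by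
  classical
  change Irrational Gc
  intro hrat
  obtain ⟨q, hq⟩ := hrat
  set x : ℚ := q / 2 with hx
  have hxG : ((x : ℚ) : ℝ) = Gc / 2 := by rw [hx, ← hq]; push_cast; ring
  set ε := (A - B - B2) / 4 with hε
  have hε0 : 0 < ε := by rw [hε]; linarith
  obtain ⟨s1, h1⟩ := hNVAR x hxG ε hε0
  obtain ⟨s3, h3⟩ := hOD x ε hε0
  obtain ⟨s4, h4⟩ := hTW x ε hε0
  set s := max s1 (max s3 (max s4 1)) with hs
  have hs1 : s1 ≤ s := le_max_left _ _
  have hs3 : s3 ≤ s := le_trans (le_max_left _ _) (le_max_right _ _)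
  have hs4 : s4 ≤ s := le_trans (le_max_left _ _) (le_trans (le_max_right _ _) (le_max_right _ _))
  have hs5 : 1 ≤ s := le_trans (le_max_right _ _) (le_trans (le_max_right _ _) (le_max_right _ _))
  obtain ⟨σ, hσ, hdet, hA⟩ := h1 s hs1
  obtain ⟨S, c, hSp, hSs, hSv⟩ := h3 s hs3
  have hB2 := h4 s hs4 σ hσ hdet
  set d := (Mx (P.D0 * s) x σ).det with hd
  have h2S : 2 ∉ S := fun h => (hSp 2 h).2 rfl
  have hlow := log_ge_of_val hdet (insert 2 S)
    (fun p => if p = 2 then -padicValRat 2 d else c p)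
    (by
      intro p hp
      rcases Finset.mem_insert.1 hp with h | h
      · rw [h]; exact Nat.prime_two
      · exact (hSp p h).1)
    (by
      intro p hp
      by_cases hp2 : p = 2
      · subst hp2
        simp
      · have := hSv σ hσ hdet p hp hp2
        simp only [Finset.mem_insert, hp2, false_or, if_false]
        exact this)
  rw [Finset.sum_insert h2S] at hlow
  have e1 : ∑ p ∈ S, (((if p = 2 then -padicValRat 2 d else c p : ℤ)) : ℝ) * Real.log p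
      = ∑ p ∈ S, (c p : ℝ) * Real.log p := by
    refine Finset.sum_congr rfl fun p hp => ?_
    rw [if_neg (hSp p hp).2]
  rw [e1] at hlow
  simp only [if_true] at hlow
  push_cast at hlow
  have hdR : |(d : ℝ)| ≤ Real.exp (-(A - ε) * (s : ℝ) ^ 2) := by
    rw [hd, det_cast, hxG]; exact hA
  have hd0 : 0 < |(d : ℝ)| := abs_pos.2 (by exact_mod_cast hdet)
  have hup : Real.log |(d : ℝ)| ≤ -(A - ε) * (s : ℝ) ^ 2 := by
    rw [← Real.log_exp (-(A - ε) * (s : ℝ) ^ 2)]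
    exact Real.log_le_log hd0 hdR
  have hsq : (1 : ℝ) ≤ (s : ℝ) ^ 2 := by
    have : (1 : ℝ) ≤ s := by exact_mod_cast hs5
    nlinarith
  have hfin : 0 ≤ (-(A - ε) + (B + ε) + (B2 + ε)) * (s : ℝ) ^ 2 := by
    nlinarith
  have hneg : (-(A - ε) + (B + ε) + (B2 + ε)) < 0 := by rw [hε]; linarith
  nlinarith

/-- the deduction, with AR in pivot form -/
theorem irrational_of_b {P : Par} {c0 : ℕ} {A B B2 : ℝ} (hNV : StNV P c0) (hAR : StARb P c0 A)
    (hOD : StOD P c0 B) (hTW : StTW P c0 B2) (hnum : B + B2 < A) :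
    Irrational (∑' j : ℕ, (-1 : ℝ) ^ j / (2 * (j : ℝ) + 1) ^ 2) :=
  irrational_of_nvar (stNVAR_of hNV hAR) hOD hTW hnum

/-- a sum over an increasing choice is at most the full sum plus the cost of the missing terms -/
theorem sum_choice_le {K N : ℕ} (b : Fin N → ℝ) (M : ℝ) (hM : ∀ n, -M ≤ b n)
    (σ : Fin K → Fin N) (hσ : StrictMono σ) :
    ∑ k, b (σ k) ≤ ∑ n, b n + ((N : ℝ) - K) * M := by
  classical
  have h1 : ∑ k, (b (σ k) + M) ≤ ∑ n, (b n + M) := by
    rw [← Finset.sum_image (s := Finset.univ) (g := σ) (f := fun n => b n + M)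
      (fun i _ j _ h => hσ.injective h)]
    exact Finset.sum_le_univ_sum_of_nonneg fun n => by linarith [hM n]
  simp only [Finset.sum_add_distrib, Finset.sum_const, Finset.card_univ, Fintype.card_fin,
    nsmul_eq_mul] at h1
  linarith

end Vale.P030.H205
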