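import Mathlib

/-!
# P030: matrices of power series with geometric bounds

The inverse of a matrix of power series with invertible constant term and coefficients
`O(R0 ^ n)` has coefficients `O(R1 ^ n)`.  Evaluation of power series with geometric bounds.
-/

open PowerSeries Finset

namespace Vale.P030.H205

/-- geometric bound for the coefficients -/
def GB (C R : ℝ) (f : ℂ⟦X⟧) : Prop := ∀ n, ‖coeff n f‖ ≤ C * R ^ n

/-- evaluation -/
noncomputable def evl (f : ℂ⟦X⟧) (t : ℂ) : ℂ := ∑' n, coeff n f * t ^ n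

theorem GB.nonneg {C R : ℝ} {f : ℂ⟦X⟧} (h : GB C R f) : 0 ≤ C := by
  have := h 0
  rw [pow_zero, mul_one] at this
  exact (norm_nonneg _).trans this

theorem GB.mono {C R C' R' : ℝ} {f : ℂ⟦X⟧} (h : GB C R f) (hR : 0 ≤ R) (hC : C ≤ C') (hRR : R ≤ R') :
    GB C' R' f := by
  intro n
  refine (h n).trans ?_
  have h0 := h.nonneg
  exact mul_le_mul hC (pow_le_pow_left₀ hR hRR n) (pow_nonneg hR n) (h0.trans hC)

theorem GB.summable {C R : ℝ} {f : ℂ⟦X⟧} (h : GB C R f) (hR : 0 ≤ R) {t : ℂ} (ht : R * ‖t‖ < 1) :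
    Summable fun n => ‖coeff n f * t ^ n‖ := by
  refine Summable.of_nonneg_of_le (fun n => norm_nonneg _) (fun n => ?_)
    ((summable_geometric_of_lt_one (by positivity) ht).mul_left C)
  rw [norm_mul, norm_pow, mul_pow, ← mul_assoc]
  exact mul_le_mul_of_nonneg_right (h n) (by positivity)

theorem GB.norm_evl_le {C R : ℝ} {f : ℂ⟦X⟧} (h : GB C R f) (hR : 0 ≤ R) {t : ℂ}
    (ht : R * ‖t‖ ≤ 1 / 2) : ‖evl f t‖ ≤ 2 * C := by
  have ht1 : R * ‖t‖ < 1 := by linarith
  have h1 : ‖evl f t‖ ≤ ∑' n, ‖coeff n f * t ^ n‖ := norm_tsum_le_tsum_norm (h.summable hR ht1)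
  have h2 : ∑' n, ‖coeff n f * t ^ n‖ ≤ ∑' n : ℕ, C * (1 / 2 : ℝ) ^ n := by
    refine Summable.tsum_le_tsum (fun n => ?_) (h.summable hR ht1)
      ((summable_geometric_of_lt_one (by norm_num) (by norm_num)).mul_left C)
    rw [norm_mul, norm_pow]
    calc ‖coeff n f‖ * ‖t‖ ^ n ≤ C * R ^ n * ‖t‖ ^ n :=
          mul_le_mul_of_nonneg_right (h n) (by positivity)
      _ = C * (R * ‖t‖) ^ n := by rw [mul_pow, mul_assoc]
      _ ≤ C * (1 / 2 : ℝ) ^ n :=
          mul_le_mul_of_nonneg_left (pow_le_pow_left₀ (by positivity) ht n) h.nonneg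
  rw [tsum_mul_left, tsum_geometric_two] at h2
  linarith

theorem evl_mul {C R C' R' : ℝ} {f g : ℂ⟦X⟧} (hf : GB C R f) (hg : GB C' R' g) (hR : 0 ≤ R)
    (hR' : 0 ≤ R') {t : ℂ} (ht : R * ‖t‖ < 1) (ht' : R' * ‖t‖ < 1) :
    evl (f * g) t = evl f t * evl g t := by
  unfold evl
  rw [tsum_mul_tsum_eq_tsum_sum_antidiagonal_of_summable_norm (hf.summable hR ht)
    (hg.summable hR' ht')]
  refine tsum_congr fun n => ?_
  rw [coeff_mul, Finset.sum_mul]
  refine Finset.sum_congr rfl fun p hp => ?_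
  rw [← mem_antidiagonal.1 hp, pow_add]
  ring

/-- `Σ_{p=1}^m K R0^p R1^(m-p) ≤ R1^m` for `R1 = R0 (1 + K)` -/
theorem geom_aux {K R0 : ℝ} (hR0 : 0 ≤ R0) (m : ℕ) :
    ∑ p ∈ range m, K * R0 ^ (p + 1) * (R0 * (1 + K)) ^ (m - 1 - p) ≤ (R0 * (1 + K)) ^ m := by
  have h1 := geom_sum₂_mul R0 (R0 * (1 + K)) m
  have h2 : ∑ p ∈ range m, K * R0 ^ (p + 1) * (R0 * (1 + K)) ^ (m - 1 - p)
      = (R0 * (1 + K)) ^ m - R0 ^ m := by
    have h3 : ∑ p ∈ range m, K * R0 ^ (p + 1) * (R0 * (1 + K)) ^ (m - 1 - p)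
        = -((∑ i ∈ range m, R0 ^ i * (R0 * (1 + K)) ^ (m - 1 - i)) * (R0 - R0 * (1 + K))) := by
      rw [Finset.sum_mul, ← Finset.sum_neg_distrib]
      refine Finset.sum_congr rfl fun p _ => ?_
      ring
    rw [h3, h1]
    ring
  rw [h2]
  have : 0 ≤ R0 ^ m := pow_nonneg hR0 m
  linarith

variable {ι : Type*} [Fintype ι] [DecidableEq ι]

/-- the constant term of a matrix of power series -/
noncomputable def cst (G : Matrix ι ι ℂ⟦X⟧) : Matrix ι ι ℂ := G.map (constantCoeff (R := ℂ))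

theorem exists_inv (G : Matrix ι ι ℂ⟦X⟧) {C0 R0 : ℝ} (hR0 : 0 < R0)
    (hG : ∀ i j, GB C0 R0 (G i j)) (hdet : (cst G).det ≠ 0) :
    ∃ B : Matrix ι ι ℂ⟦X⟧, G * B = 1 ∧ B * G = 1 ∧ cst B = (cst G)⁻¹ ∧
      ∃ C1 R1, 0 < C1 ∧ R0 ≤ R1 ∧ ∀ i j, GB C1 R1 (B i j) := by
  classical
  have hu : IsUnit G.det := by
    rw [PowerSeries.isUnit_iff_constantCoeff]
    have : constantCoeff G.det = (cst G).det := by
      rw [cst, RingHom.map_det]
      rfl
    rw [this]
    exact isUnit_iff_ne_zero.2 hdet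
  have hGB : G * G⁻¹ = 1 := Matrix.mul_nonsing_inv G hu
  have hBG : G⁻¹ * G = 1 := Matrix.nonsing_inv_mul G hu
  set B := G⁻¹ with hB
  have hmap : cst G * cst B = 1 := by
    have h := congrArg (fun M : Matrix ι ι ℂ⟦X⟧ => M.map (constantCoeff (R := ℂ))) hGB
    simp only [Matrix.map_mul] at h
    rw [cst, cst, h]
    ext i j
    by_cases hij : i = j
    · subst hij; simp
    · simp [hij]
  have hinv : cst B = (cst G)⁻¹ := (Matrix.inv_eq_right_inv hmap).symm
  refine ⟨B, hGB, hBG, hinv, ?_⟩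
  have hmap' : cst B * cst G = 1 := mul_eq_one_comm.1 hmap
  -- a bound for the entries of the constant term of the inverse
  set α : ℝ := 1 + ∑ i, ∑ j, ‖cst B i j‖ with hα
  have hαle : ∀ i j, ‖cst B i j‖ ≤ α := by
    intro i j
    have h1 : ‖cst B i j‖ ≤ ∑ j, ‖cst B i j‖ :=
      Finset.single_le_sum (f := fun j => ‖cst B i j‖) (fun _ _ => norm_nonneg _) (mem_univ j)
    have h2 : ∑ j, ‖cst B i j‖ ≤ ∑ i, ∑ j, ‖cst B i j‖ :=
      Finset.single_le_sum (f := fun i => ∑ j, ‖cst B i j‖)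
        (fun _ _ => Finset.sum_nonneg fun _ _ => norm_nonneg _) (mem_univ i)
    linarith
  have hα0 : 0 < α := by
    have : 0 ≤ ∑ i, ∑ j, ‖cst B i j‖ :=
      Finset.sum_nonneg fun _ _ => Finset.sum_nonneg fun _ _ => norm_nonneg _
    linarith
  rcases isEmpty_or_nonempty ι with he | hne
  · exact ⟨1, R0, one_pos, le_rfl, fun i => he.elim i⟩
  have hC0 : 0 ≤ C0 := (hG hne.some hne.some).nonneg
  set K : ℝ := (Fintype.card ι : ℝ) ^ 2 * α * C0 with hK
  have hK0 : 0 ≤ K := by positivity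
  set R1 : ℝ := R0 * (1 + K) with hR1
  have hR01 : R0 ≤ R1 := by
    rw [hR1]
    nlinarith
  have hR1pos : 0 < R1 := hR0.trans_le hR01
  refine ⟨α, R1, hα0, hR01, ?_⟩
  -- the recursion
  have hrec : ∀ m i k, coeff (m + 1) (B i k)
      = -∑ l, cst B i l * ∑ j, ∑ p ∈ range (m + 1), coeff (p + 1) (G l j) * coeff (m - p) (B j k) := by
    intro m i k
    have h1 : ∀ l, (∑ j, G l j * B j k) = (1 : Matrix ι ι ℂ⟦X⟧) l k := by
      intro l
      rw [← hGB, Matrix.mul_apply]
    have h2 : ∀ l, ∑ j, (cst G l j * coeff (m + 1) (B j k)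
        + ∑ p ∈ range (m + 1), coeff (p + 1) (G l j) * coeff (m - p) (B j k)) = 0 := by
      intro l
      have h3 := congrArg (coeff (m + 1)) (h1 l)
      rw [map_sum] at h3
      have h4 : coeff (m + 1) ((1 : Matrix ι ι ℂ⟦X⟧) l k) = 0 := by
        rw [Matrix.one_apply]
        split_ifs
        · rw [coeff_one, if_neg (by omega)]
        · rw [map_zero]
      rw [h4] at h3
      rw [← h3]
      refine Finset.sum_congr rfl fun j _ => ?_
      have h8 : coeff (m + 1) (G l j * B j k)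
          = ∑ p ∈ range (m + 1), coeff (p + 1) (G l j) * coeff (m + 1 - (p + 1)) (B j k)
            + coeff 0 (G l j) * coeff (m + 1 - 0) (B j k) := by
        rw [coeff_mul, Finset.Nat.sum_antidiagonal_eq_sum_range_succ_mk, Finset.sum_range_succ']
      rw [h8, add_comm]
      have h9 : cst G l j = coeff 0 (G l j) := by
        rw [cst, Matrix.map_apply, coeff_zero_eq_constantCoeff_apply]
      rw [h9, Nat.sub_zero]
      refine congrArg₂ (· + ·) (Finset.sum_congr rfl fun p _ => ?_) rfl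
      rw [Nat.add_sub_add_right]
    have h5 : ∀ l, ∑ j, cst G l j * coeff (m + 1) (B j k)
        = -∑ j, ∑ p ∈ range (m + 1), coeff (p + 1) (G l j) * coeff (m - p) (B j k) := by
      intro l
      have := h2 l
      rw [Finset.sum_add_distrib] at this
      exact eq_neg_of_add_eq_zero_left this
    have h6 : ∑ l, cst B i l * ∑ j, cst G l j * coeff (m + 1) (B j k) = coeff (m + 1) (B i k) := by
      have h7 : ∑ l, cst B i l * ∑ j, cst G l j * coeff (m + 1) (B j k)
          = ∑ j, (cst B * cst G) i j * coeff (m + 1) (B j k) := by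
        simp_rw [Matrix.mul_apply, Finset.mul_sum, Finset.sum_mul]
        rw [Finset.sum_comm]
        refine Finset.sum_congr rfl fun j _ => Finset.sum_congr rfl fun l _ => by ring
      rw [h7, hmap']
      simp [Matrix.one_apply]
    rw [← h6, ← Finset.sum_neg_distrib]
    refine Finset.sum_congr rfl fun l _ => ?_
    rw [h5 l, mul_neg]
  have hbd : ∀ m, ∀ i k, ‖coeff m (B i k)‖ ≤ α * R1 ^ m := by
    intro m
    induction m using Nat.strong_induction_on with
    | _ m ih =>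
      intro i k
      rcases m with _ | m
      · rw [pow_zero, mul_one]
        have h0 := hαle i k
        rw [cst, Matrix.map_apply, ← coeff_zero_eq_constantCoeff_apply] at h0
        exact h0
      · rw [hrec m i k, norm_neg]
        have h1 : ∀ l, ‖cst B i l * ∑ j, ∑ p ∈ range (m + 1),
            coeff (p + 1) (G l j) * coeff (m - p) (B j k)‖
            ≤ α * ∑ j : ι, ∑ p ∈ range (m + 1), C0 * R0 ^ (p + 1) * (α * R1 ^ (m - p)) := by
          intro l
          rw [norm_mul]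
          refine mul_le_mul (hαle i l) ?_ (norm_nonneg _) hα0.le
          refine (norm_sum_le _ _).trans (Finset.sum_le_sum fun j _ => ?_)
          refine (norm_sum_le _ _).trans (Finset.sum_le_sum fun p hp => ?_)
          rw [norm_mul]
          exact mul_le_mul (hG l j (p + 1)) (ih (m - p) (by omega) j k) (norm_nonneg _)
            (by positivity)
        refine (norm_sum_le _ _).trans ((Finset.sum_le_sum fun l _ => h1 l).trans ?_)
        rw [Finset.sum_const, Finset.sum_const, Finset.card_univ, nsmul_eq_mul, nsmul_eq_mul]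
        have h2 := geom_aux (K := K) hR0.le (m + 1)
        have h3 : (Fintype.card ι : ℝ) * (α * ((Fintype.card ι : ℝ) *
            ∑ p ∈ range (m + 1), C0 * R0 ^ (p + 1) * (α * R1 ^ (m - p))))
            = α * ∑ p ∈ range (m + 1), K * R0 ^ (p + 1) * (R0 * (1 + K)) ^ (m + 1 - 1 - p) := by
          simp_rw [Finset.mul_sum]
          refine Finset.sum_congr rfl fun p _ => ?_
          rw [Nat.add_sub_cancel, ← hR1, hK]
          ring
        rw [h3]
        exact mul_le_mul_of_nonneg_left h2 hα0.le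
  exact fun i k m => hbd m i k

end Vale.P030.H205
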