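import Vale.Agent.P030.H205.QR

/-!
# Pivot columns

`N ≥ K` ordered functionals on a `K`-dimensional space with no common zero.  The greedy (pivot)
choice of `K` of them has nonzero determinant, and being killed by the previous *chosen* functionals
is the same as being killed by *all* previous ones.  So the determinant bound holds for it with
constants computed from all previous functionals.
-/

namespace Vale.P030.H205

open scoped BigOperators

/-- Greedy pivots of a finite sequence of vectors. -/
theorem exists_pivots {E : Type*} [AddCommGroup E] [Module ℂ E] (N : ℕ) (v : Fin N → E) :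
    ∃ (K : ℕ) (σ : Fin K → Fin N), StrictMono σ ∧ LinearIndependent ℂ (v ∘ σ) ∧
      ∀ n, v n ∈ Submodule.span ℂ {w | ∃ k, σ k ≤ n ∧ w = v (σ k)} := by
  induction N with
  | zero => exact ⟨0, Fin.elim0, fun i => i.elim0, linearIndependent_empty_type,
      fun n => n.elim0⟩
  | succ N ih =>
    obtain ⟨K, σ, hσ, hli, hsp⟩ := ih (fun n => v n.castSucc)
    by_cases hlast : v (Fin.last N) ∈ Submodule.span ℂ (Set.range (fun k => v (σ k).castSucc))
    · refine ⟨K, fun k => (σ k).castSucc, fun i j hij => Fin.castSucc_lt_castSucc_iff.2 (hσ hij),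
        hli, fun n => ?_⟩
      refine Fin.lastCases ?_ (fun n => ?_) n
      · refine Submodule.span_mono ?_ hlast
        rintro w ⟨k, rfl⟩
        exact ⟨k, Fin.le_last _, rfl⟩
      · refine Submodule.span_mono ?_ (hsp n)
        rintro w ⟨k, hk, rfl⟩
        exact ⟨k, Fin.castSucc_le_castSucc_iff.2 hk, rfl⟩
    · refine ⟨K + 1, Fin.snoc (fun k => (σ k).castSucc) (Fin.last N), ?_, ?_, fun n => ?_⟩
      · intro i j hij
        refine Fin.lastCases (motive := fun j => i < j → (Fin.snoc (fun k => (σ k).castSucc)
          (Fin.last N) : Fin (K + 1) → Fin (N + 1)) i < (Fin.snoc (fun k => (σ k).castSucc)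
          (Fin.last N) : Fin (K + 1) → Fin (N + 1)) j) (fun h => ?_) (fun j h => ?_) j hij
        · obtain ⟨i', rfl⟩ := Fin.exists_castSucc_eq.2 (ne_of_lt h)
          rw [Fin.snoc_castSucc, Fin.snoc_last]
          exact Fin.castSucc_lt_last _
        · have hi : i ≠ Fin.last K := fun h' => by
            rw [h'] at h; exact absurd h (not_lt.2 (Fin.le_last _))
          obtain ⟨i', rfl⟩ := Fin.exists_castSucc_eq.2 hi
          rw [Fin.snoc_castSucc, Fin.snoc_castSucc]
          exact Fin.castSucc_lt_castSucc_iff.2 (hσ (Fin.castSucc_lt_castSucc_iff.1 h))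
      · have h1 : v ∘ (Fin.snoc (fun k => (σ k).castSucc) (Fin.last N) : Fin (K + 1) → Fin (N + 1))
            = Fin.snoc (fun k => v (σ k).castSucc) (v (Fin.last N)) := by
          funext i
          refine Fin.lastCases ?_ (fun i => ?_) i
          · simp
          · simp
        rw [h1, linearIndependent_finSnoc]
        exact ⟨hli, hlast⟩
      · refine Fin.lastCases ?_ (fun n => ?_) n
        · refine Submodule.subset_span ⟨Fin.last K, ?_, ?_⟩
          · simp
          · simp
        · refine Submodule.span_mono ?_ (hsp n)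
          rintro w ⟨k, hk, rfl⟩
          refine ⟨k.castSucc, ?_, ?_⟩
          · rw [Fin.snoc_castSucc]; exact Fin.castSucc_le_castSucc_iff.2 hk
          · rw [Fin.snoc_castSucc]

/-- Pivot determinant bound. -/
theorem exists_pivot_det_le {K N : ℕ} (A : Matrix (Fin N) (Fin K) ℂ) (B : Fin N → ℝ)
    (hinj : ∀ x : Fin K → ℂ, (∀ n, ∑ i, A n i * x i = 0) → x = 0)
    (hB : ∀ (n : Fin N) (x : Fin K → ℂ), ∑ i, ‖x i‖ ^ 2 ≤ 1 →
      (∀ j < n, ∑ i, A j i * x i = 0) → ‖∑ i, A n i * x i‖ ≤ B n) :
    ∃ σ : Fin K → Fin N, StrictMono σ ∧ (A.submatrix σ id).det ≠ 0 ∧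
      ‖(A.submatrix σ id).det‖ ≤ ∏ k, B (σ k) := by
  classical
  obtain ⟨K', σ, hσ, hli, hsp⟩ := exists_pivots N (fun n => A n)
  have hspan : Submodule.span ℂ (Set.range (fun k => A (σ k))) = ⊤ := by
    by_contra hne
    obtain ⟨f, hf0, hf⟩ := Submodule.exists_le_ker_of_lt_top _ (lt_top_iff_ne_top.2 hne)
    -- `f` is a functional on `Fin K → ℂ`
    have hfx : ∀ w : Fin K → ℂ, f w = ∑ i, w i * f (Pi.single i 1) := by
      intro w
      conv_lhs => rw [pi_eq_sum_univ w]
      rw [map_sum]
      refine Finset.sum_congr rfl fun i _ => ?_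
      rw [map_smul, smul_eq_mul]
      congr 2
      funext j
      simp [Pi.single_apply, eq_comm]
    have hx := hinj (fun i => f (Pi.single i 1)) (fun n => by
      rw [← hfx]
      have h1 : A n ∈ Submodule.span ℂ (Set.range (fun k => A (σ k))) := by
        refine Submodule.span_mono ?_ (hsp n)
        rintro w ⟨k, _, rfl⟩
        exact ⟨k, rfl⟩
      exact hf h1)
    apply hf0
    ext i
    simpa using congrFun hx i
  have hK : K' = K := by
    have h1 := finrank_span_eq_card hli
    have h2 : Submodule.span ℂ (Set.range ((fun n => A n) ∘ σ)) = ⊤ := hspan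
    rw [h2, finrank_top] at h1
    simpa using h1.symm
  subst hK
  refine ⟨σ, hσ, ?_, ?_⟩
  · have h1 : LinearIndependent ℂ (A.submatrix σ id).row := hli
    have h2 := Matrix.linearIndependent_rows_iff_isUnit.1 h1
    exact ((Matrix.isUnit_iff_isUnit_det _).1 h2).ne_zero
  · refine norm_det_le_prod _ _ fun k x hx hk => ?_
    refine hB (σ k) x hx fun j hj => ?_
    -- `A j` is in the span of the previous pivots
    have h1 := hsp j
    have h2 : ∀ w ∈ Submodule.span ℂ {w | ∃ k, σ k ≤ j ∧ w = A (σ k)}, ∑ i, w i * x i = 0 := by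
      intro w hw
      induction hw using Submodule.span_induction with
      | mem w hw =>
        obtain ⟨k', hk', rfl⟩ := hw
        have h3 : k' < k := hσ.lt_iff_lt.1 (lt_of_le_of_lt hk' hj)
        exact hk k' h3
      | zero => simp
      | add u w _ _ hu hw => simp only [Pi.add_apply, add_mul, Finset.sum_add_distrib, hu, hw,
          add_zero]
      | smul c w _ hw =>
        simp only [Pi.smul_apply, smul_eq_mul, mul_assoc]
        rw [← Finset.mul_sum, hw, mul_zero]
    exact h2 _ h1

end Vale.P030.H205
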