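import Mathlib

/-!
# Determinant bound by ordered functionals

If the rows of a square matrix `A` are functionals `λ_0, ..., λ_{K-1}` and `|λ_k(x)| ≤ B_k |x|`
for all `x` killed by `λ_0, ..., λ_{k-1}`, then `|det A| ≤ ∏ B_k`.
-/

namespace Vale.P030.H205

open scoped BigOperators InnerProductSpace ComplexConjugate

theorem norm_det_le_prod {K : ℕ} (A : Matrix (Fin K) (Fin K) ℂ) (B : Fin K → ℝ)
    (hB : ∀ (k : Fin K) (x : Fin K → ℂ), ∑ i, ‖x i‖ ^ 2 ≤ 1 →
      (∀ j < k, ∑ i, A j i * x i = 0) → ‖∑ i, A k i * x i‖ ≤ B k) :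
    ‖A.det‖ ≤ ∏ k, B k := by
  classical
  let f : Fin K → EuclideanSpace ℂ (Fin K) := fun k => WithLp.toLp 2 (fun i => conj (A k i))
  have hdim : Module.finrank ℂ (EuclideanSpace ℂ (Fin K)) = Fintype.card (Fin K) := by simp
  let e := InnerProductSpace.gramSchmidtOrthonormalBasis hdim f
  let b : OrthonormalBasis (Fin K) ℂ (EuclideanSpace ℂ (Fin K)) := EuclideanSpace.basisFun (Fin K) ℂ
  have hin : ∀ k (x : EuclideanSpace ℂ (Fin K)), ⟪f k, x⟫_ℂ = ∑ i, A k i * x i := by
    intro k x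
    simp [f, PiLp.inner_apply, mul_comm]
  have h1 : b.toBasis.det f = conj A.det := by
    rw [Module.Basis.det_apply, ← Matrix.det_transpose, RingHom.map_det]
    refine congrArg Matrix.det ?_
    ext i j
    simp [b, f, Module.Basis.toMatrix_apply]
  have h2 : e.toBasis.det f = ∏ i, ⟪e i, f i⟫_ℂ :=
    InnerProductSpace.gramSchmidtOrthonormalBasis_det hdim f
  have h3 : e.toBasis.det f = e.toBasis.det b * b.toBasis.det f := by
    rw [Module.Basis.det_apply, Module.Basis.det_apply, Module.Basis.det_apply, ← Matrix.det_mul]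
    refine congrArg Matrix.det ?_
    have h := Module.Basis.toMatrix_mul_toMatrix e.toBasis b.toBasis f
    rw [← h]
    simp
  have h4 : ‖e.toBasis.det b‖ = 1 := e.det_to_matrix_orthonormalBasis b
  have h5 : ‖A.det‖ = ∏ i, ‖⟪e i, f i⟫_ℂ‖ := by
    rw [← norm_prod, ← h2, h3, norm_mul, h4, one_mul, h1]
    simp
  rw [h5]
  refine Finset.prod_le_prod (fun i _ => norm_nonneg _) fun k _ => ?_
  have h6 := hB k (e k) ?_ ?_
  · rw [← hin, norm_inner_symm] at h6
    exact h6
  · have h7 : ‖e k‖ = 1 := e.orthonormal.1 k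
    have h8 : ‖e k‖ ^ 2 = ∑ i, ‖(e k) i‖ ^ 2 := by
      rw [EuclideanSpace.norm_sq_eq]
    rw [← h8, h7]; norm_num
  · intro j hj
    rw [← hin]
    have h9 := InnerProductSpace.gramSchmidtOrthonormalBasis_inv_triangular hdim f hj
    rw [← inner_conj_symm, h9, map_zero]

end Vale.P030.H205
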